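import Mathlib

/-! P233, part D, blocks D2 and D3: Morrey estimate from the compression of measures towards a
point, and the Lipschitz constant at Lebesgue points of the gradient. -/

open MeasureTheory Filter Topology Set Metric
open scoped ENNReal NNReal

namespace Vale.Agent.P233.H249

variable {M : Type*} [MetricSpace M] [MeasurableSpace M]

/-- The segment inequality from the sets `A` in the ball of centre `p` and radius `R` to `p`,
with densities bounded by `K t⁻ⁿ`; `G` is an upper bound of the gradient of `b`. -/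
def Seg (m : Measure M) (n K : ℝ) (b G : M → ℝ) (p : M) (R : ℝ) : Prop :=
  ∀ A : Set M, MeasurableSet A → A ⊆ closedBall p R → ∀ c : ℝ, 0 ≤ c → ∀ δ > 0, ∃ h : ℝ → ℝ,
    IntegrableOn h (Ioo 0 1) ∧
    (∀ᵐ t ∂(volume.restrict (Ioo (0 : ℝ) 1)), ∃ ρ : M → ℝ, Integrable ρ m ∧
      (∀ᵐ x ∂m, 0 ≤ ρ x ∧ ρ x ≤ K * t ^ (-n)) ∧ (∀ᵐ x ∂m, x ∉ closedBall p R → ρ x = 0) ∧
      ∫ x, ρ x ∂m ≤ m.real A ∧ h t ≤ ∫ x, max (G x - c) 0 * ρ x ∂m) ∧
    ∫ y in A, (b y - b p - c * dist y p) ∂m ≤ R * (∫ t in Ioo (0 : ℝ) 1, h t) + δ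

section pow

/-- the integral of `t ^ (-a)` over the unit interval -/
theorem int_rpow {a : ℝ} (ha : a < 1) :
    IntegrableOn (fun t : ℝ => t ^ (-a)) (Ioo 0 1) ∧
      ∫ t in Ioo (0 : ℝ) 1, t ^ (-a) = 1 / (1 - a) := by
  have h1 : (-1 : ℝ) < -a := by linarith
  have h2 := intervalIntegral.intervalIntegrable_rpow' h1 (a := 0) (b := 1)
  constructor
  · rw [intervalIntegrable_iff_integrableOn_Ioo_of_le zero_le_one] at h2
    exact h2
  · rw [← integral_Ioc_eq_integral_Ioo, ← intervalIntegral.integral_of_le zero_le_one,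
      integral_rpow (Or.inl h1)]
    rw [Real.one_rpow, Real.zero_rpow (by linarith)]
    congr 1 <;> ring

end pow

/-- Hölder: the action of a density with `ρ ≤ D` and mass `≤ V` on a function in `L^q`. -/
theorem holder_density {m : Measure M} {q D V : ℝ} (hq : 1 < q) {p : M} {R : ℝ} {g ρ : M → ℝ}
    (hD : 0 ≤ D) (hV : 0 ≤ V)
    (hg : MemLp g (ENNReal.ofReal q) (m.restrict (closedBall p R)))
    (hg0 : ∀ x, 0 ≤ g x) (hρ : Integrable ρ m)
    (hb : ∀ᵐ x ∂m, 0 ≤ ρ x ∧ ρ x ≤ D) (hs : ∀ᵐ x ∂m, x ∉ closedBall p R → ρ x = 0)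
    (hI : ∫ x, ρ x ∂m ≤ V) :
    ∫ x, g x * ρ x ∂m ≤
      (∫ x in closedBall p R, g x ^ q ∂m) ^ (1 / q) * (D ^ (1 / q) * V ^ (1 - 1 / q)) := by
  set B := closedBall p R with hB
  have hq0 : 0 < q := by linarith
  have hconj : q.HolderConjugate (q / (q - 1)) := by
    have := Real.HolderConjugate.conjExponent hq
    exact this
  set q' := q / (q - 1) with hq'
  have hq1 : 0 < q - 1 := by linarith
  have hq'0 : 0 < q' := div_pos hq0 hq1
  have hq'1 : 1 < q' := by
    rw [hq', lt_div_iff₀ hq1]; linarith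
  have e1 : ∫ x, g x * ρ x ∂m = ∫ x in B, g x * ρ x ∂m := by
    symm
    apply setIntegral_eq_integral_of_ae_compl_eq_zero
    filter_upwards [hs] with x hx hxB
    rw [hx hxB, mul_zero]
  rw [e1]
  have hρB : Integrable ρ (m.restrict B) := hρ.mono_measure Measure.restrict_le_self
  have hbB : ∀ᵐ x ∂(m.restrict B), 0 ≤ ρ x ∧ ρ x ≤ D := ae_restrict_of_ae hb
  have hpt : ∀ᵐ x ∂(m.restrict B), ρ x ^ q' ≤ D ^ (q' - 1) * ρ x := by
    filter_upwards [hbB] with x hx
    have : ρ x ^ q' = ρ x ^ (q' - 1) * ρ x := by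
      rcases eq_or_lt_of_le hx.1 with h | h
      · rw [← h, Real.zero_rpow hq'0.ne', mul_zero]
      · rw [Real.rpow_sub_one h.ne']; field_simp
    rw [this]
    exact mul_le_mul_of_nonneg_right (Real.rpow_le_rpow hx.1 hx.2 (by linarith)) hx.1
  have hpt0 : ∀ᵐ x ∂(m.restrict B), 0 ≤ ρ x ^ q' := by
    filter_upwards [hbB] with x hx using Real.rpow_nonneg hx.1 _
  have hint : Integrable (fun x => ρ x ^ q') (m.restrict B) := by
    refine Integrable.mono' (hρB.const_mul (D ^ (q' - 1))) ?_ ?_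
    · exact (Real.continuous_rpow_const hq'0.le).comp_aestronglyMeasurable hρB.1
    · filter_upwards [hpt, hpt0] with x h1 h2
      rw [Real.norm_eq_abs, abs_of_nonneg h2]; exact h1
  have hρq : MemLp ρ (ENNReal.ofReal q') (m.restrict B) := by
    rw [← integrable_norm_rpow_iff hρB.1 (by simpa using hq'0) ENNReal.ofReal_ne_top]
    refine hint.congr ?_
    filter_upwards [hbB] with x hx
    rw [ENNReal.toReal_ofReal hq'0.le, Real.norm_eq_abs, abs_of_nonneg hx.1]
  have h1 := integral_mul_le_Lp_mul_Lq_of_nonneg hconj (Eventually.of_forall hg0)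
    (hbB.mono fun x hx => hx.1) hg hρq
  refine h1.trans ?_
  refine mul_le_mul_of_nonneg_left ?_ (Real.rpow_nonneg (integral_nonneg fun x =>
    Real.rpow_nonneg (hg0 x) _) _)
  have h2 : ∫ x in B, ρ x ^ q' ∂m ≤ D ^ (q' - 1) * V := by
    calc ∫ x in B, ρ x ^ q' ∂m ≤ ∫ x in B, D ^ (q' - 1) * ρ x ∂m :=
          integral_mono_ae hint (hρB.const_mul _) hpt
      _ = D ^ (q' - 1) * ∫ x in B, ρ x ∂m := integral_const_mul _ _
      _ = D ^ (q' - 1) * ∫ x, ρ x ∂m := by
          congr 1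
          exact setIntegral_eq_integral_of_ae_compl_eq_zero hs
      _ ≤ D ^ (q' - 1) * V := mul_le_mul_of_nonneg_left hI (Real.rpow_nonneg hD _)
  have h3 : (∫ x in B, ρ x ^ q' ∂m) ^ (1 / q') ≤ (D ^ (q' - 1) * V) ^ (1 / q') :=
    Real.rpow_le_rpow (integral_nonneg_of_ae hpt0) h2 (by positivity)
  refine h3.trans (le_of_eq ?_)
  rw [Real.mul_rpow (Real.rpow_nonneg hD _) hV, ← Real.rpow_mul hD]
  have e2 : (q' - 1) * (1 / q') = 1 / q := by
    rw [hq']; field_simp; ring
  have e3 : 1 / q' = 1 - 1 / q := by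
    rw [hq']; field_simp
  rw [e2, e3]

/-- one-sided Morrey estimate -/
theorem morrey_one {m : Measure M} {n K q : ℝ} (hK : 0 ≤ K) (hq : 1 < q) (hqn : n < q)
    {b G : M → ℝ} {p : M} {R : ℝ} (hR : 0 < R) (hseg : Seg m n K b G p R)
    (hm : MeasurableSet (closedBall p R)) (hfin : m (closedBall p R) < ∞) (hbm : Measurable b)
    (hdm : Measurable fun y => dist y p)
    {c : ℝ} (hc : 0 ≤ c)
    (hb : IntegrableOn (fun y => b y - b p - c * dist y p) (closedBall p R) m)
    (hG : MemLp (fun x => max (G x - c) 0) (ENNReal.ofReal q) (m.restrict (closedBall p R)))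
    {η : ℝ} (hη : 0 < η) :
    m.real {y ∈ closedBall p R | c * dist y p + η * R < b y - b p} ≤
      (K ^ (1 / q) * (q / (q - n)) / η) ^ q *
        ∫ x in closedBall p R, max (G x - c) 0 ^ q ∂m := by
  set A := {y ∈ closedBall p R | c * dist y p + η * R < b y - b p} with hA
  set N := ∫ x in closedBall p R, max (G x - c) 0 ^ q ∂m with hN
  have hq0 : 0 < q := by linarith
  have hN0 : 0 ≤ N := integral_nonneg fun x => Real.rpow_nonneg (le_max_right _ _) _
  have hAm : MeasurableSet A :=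
    hm.inter (measurableSet_lt ((hdm.const_mul c).add_const _) (hbm.sub_const _))
  have hAsub : A ⊆ closedBall p R := fun y hy => hy.1
  have hAfin : m A < ∞ := lt_of_le_of_lt (measure_mono hAsub) hfin
  set V := m.real A with hV
  have hV0 : 0 ≤ V := measureReal_nonneg
  have hqn' : n / q < 1 := by rw [div_lt_one hq0]; exact hqn
  set CC := K ^ (1 / q) * (q / (q - n)) with hCC
  have hCC0 : 0 ≤ CC := mul_nonneg (Real.rpow_nonneg hK _) (div_nonneg hq0.le (by linarith))
  have key : ∀ δ > 0, η * R * V ≤ R * (CC * N ^ (1 / q) * V ^ (1 - 1 / q)) + δ := by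
    intro δ hδ
    obtain ⟨h, h1, h2, h3⟩ := hseg A hAm hAsub c hc δ hδ
    have lower : η * R * V ≤ ∫ y in A, (b y - b p - c * dist y p) ∂m := by
      have : η * R * V = ∫ y in A, η * R ∂m := by
        rw [setIntegral_const, smul_eq_mul, mul_comm]
      rw [this]
      refine setIntegral_mono_on (integrableOn_const hAfin.ne) (hb.mono_set hAsub) hAm ?_
      intro y hy
      have := hy.2
      linarith
    have hup : ∫ t in Ioo (0 : ℝ) 1, h t ≤ CC * N ^ (1 / q) * V ^ (1 - 1 / q) := by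
      have hr := int_rpow hqn'
      have hle : ∀ᵐ t ∂(volume.restrict (Ioo (0 : ℝ) 1)),
          h t ≤ (N ^ (1 / q) * K ^ (1 / q) * V ^ (1 - 1 / q)) * t ^ (-(n / q)) := by
        filter_upwards [h2, ae_restrict_mem measurableSet_Ioo] with t ht htI
        obtain ⟨ρ, r1, r2, r3, r4, r5⟩ := ht
        have htn : 0 ≤ t ^ (-n) := Real.rpow_nonneg htI.1.le _
        have h4 := holder_density hq (mul_nonneg hK htn) hV0 hG (fun x => le_max_right _ _)
          r1 r2 r3 r4
        refine r5.trans (h4.trans (le_of_eq ?_))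
        rw [Real.mul_rpow hK htn, ← Real.rpow_mul htI.1.le]
        have : -n * (1 / q) = -(n / q) := by ring
        rw [this]
        ring
      calc ∫ t in Ioo (0 : ℝ) 1, h t
          ≤ ∫ t in Ioo (0 : ℝ) 1, (N ^ (1 / q) * K ^ (1 / q) * V ^ (1 - 1 / q)) * t ^ (-(n / q)) :=
            integral_mono_ae h1 (hr.1.const_mul _) hle
        _ = (N ^ (1 / q) * K ^ (1 / q) * V ^ (1 - 1 / q)) * (1 / (1 - n / q)) := by
            rw [integral_const_mul, hr.2]
        _ = CC * N ^ (1 / q) * V ^ (1 - 1 / q) := by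
            have : 1 / (1 - n / q) = q / (q - n) := by
              have h5 : q - n ≠ 0 := by linarith
              field_simp
            rw [this, hCC]; ring
    have := mul_le_mul_of_nonneg_left hup hR.le
    linarith
  have key2 : η * R * V ≤ R * (CC * N ^ (1 / q) * V ^ (1 - 1 / q)) :=
    le_of_forall_pos_le_add key
  rcases eq_or_lt_of_le hV0 with h0 | hpos
  · rw [← h0]
    positivity
  have key3 : η * V ^ (1 / q) ≤ CC * N ^ (1 / q) := by
    have e1 : V = V ^ (1 / q) * V ^ (1 - 1 / q) := by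
      rw [← Real.rpow_add hpos]
      have : 1 / q + (1 - 1 / q) = 1 := by ring
      rw [this, Real.rpow_one]
    have hVp : 0 < V ^ (1 - 1 / q) := Real.rpow_pos_of_pos hpos _
    have : R * (η * V ^ (1 / q) * V ^ (1 - 1 / q)) ≤ R * (CC * N ^ (1 / q) * V ^ (1 - 1 / q)) := by
      calc R * (η * V ^ (1 / q) * V ^ (1 - 1 / q)) = η * R * (V ^ (1 / q) * V ^ (1 - 1 / q)) := by ring
        _ = η * R * V := by rw [← e1]
        _ ≤ _ := key2
    have := le_of_mul_le_mul_left this hR
    exact le_of_mul_le_mul_right this hVp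
  have key4 : V ^ (1 / q) ≤ CC / η * N ^ (1 / q) := by
    rw [div_mul_eq_mul_div, le_div_iff₀ hη, mul_comm]; exact key3
  calc V = (V ^ (1 / q)) ^ q := by
        rw [← Real.rpow_mul hpos.le, one_div, inv_mul_cancel₀ hq0.ne', Real.rpow_one]
    _ ≤ (CC / η * N ^ (1 / q)) ^ q := Real.rpow_le_rpow (Real.rpow_nonneg hpos.le _) key4 hq0.le
    _ = (CC / η) ^ q * N := by
        rw [Real.mul_rpow (by positivity) (Real.rpow_nonneg hN0 _), ← Real.rpow_mul hN0, one_div,
          inv_mul_cancel₀ hq0.ne', Real.rpow_one]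

/-- **Morrey estimate** -/
theorem morrey {m : Measure M} {n K q : ℝ} (hK : 0 ≤ K) (hq : 1 < q) (hqn : n < q)
    {b G : M → ℝ} {p : M} {R : ℝ} (hR : 0 < R) (hseg : Seg m n K b G p R)
    (hseg' : Seg m n K (fun x => -b x) G p R)
    (hm : MeasurableSet (closedBall p R)) (hfin : m (closedBall p R) < ∞) (hbm : Measurable b)
    (hdm : Measurable fun y => dist y p)
    {c : ℝ} (hc : 0 ≤ c) (hb : IntegrableOn b (closedBall p R) m)
    (hG : MemLp (fun x => max (G x - c) 0) (ENNReal.ofReal q) (m.restrict (closedBall p R)))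
    {η : ℝ} (hη : 0 < η) :
    m.real {y ∈ closedBall p R | c * dist y p + η * R < |b y - b p|} ≤
      2 * ((K ^ (1 / q) * (q / (q - n)) / η) ^ q *
        ∫ x in closedBall p R, max (G x - c) 0 ^ q ∂m) := by
  have hd : IntegrableOn (fun y => c * dist y p) (closedBall p R) m := by
    refine Integrable.mono' (g := fun _ => c * R) (integrableOn_const hfin.ne)
      (hdm.const_mul c).aestronglyMeasurable ?_
    filter_upwards [ae_restrict_mem hm] with y hy
    rw [Real.norm_eq_abs, abs_of_nonneg (mul_nonneg hc dist_nonneg)]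
    exact mul_le_mul_of_nonneg_left hy hc
  have i1 : IntegrableOn (fun y => b y - b p - c * dist y p) (closedBall p R) m :=
    (hb.sub (integrableOn_const hfin.ne)).sub hd
  have i2 : IntegrableOn (fun y => -b y - -b p - c * dist y p) (closedBall p R) m :=
    (hb.neg.sub (integrableOn_const hfin.ne)).sub hd
  have h1 := morrey_one hK hq hqn hR hseg hm hfin hbm hdm hc i1 hG hη
  have h2 := morrey_one hK hq hqn hR hseg' hm hfin hbm.neg hdm hc i2 hG hη
  have hsub : {y ∈ closedBall p R | c * dist y p + η * R < |b y - b p|} ⊆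
      {y ∈ closedBall p R | c * dist y p + η * R < b y - b p} ∪
        {y ∈ closedBall p R | c * dist y p + η * R < -b y - -b p} := by
    rintro y ⟨hy, hy2⟩
    rcases le_total 0 (b y - b p) with h | h
    · left; rw [abs_of_nonneg h] at hy2; exact ⟨hy, hy2⟩
    · right
      rw [abs_of_nonpos h] at hy2
      exact ⟨hy, by linarith⟩
  have hfin2 : m ({y ∈ closedBall p R | c * dist y p + η * R < b y - b p} ∪
        {y ∈ closedBall p R | c * dist y p + η * R < -b y - -b p}) ≠ ∞ :=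
    (lt_of_le_of_lt (measure_mono (union_subset (fun y hy => hy.1) (fun y hy => hy.1))) hfin).ne
  calc _ ≤ m.real ({y ∈ closedBall p R | c * dist y p + η * R < b y - b p} ∪
        {y ∈ closedBall p R | c * dist y p + η * R < -b y - -b p}) := measureReal_mono hsub hfin2
    _ ≤ _ := measureReal_union_le _ _
    _ ≤ _ := by linarith

section lebesgue

variable {m : Measure M}

/-- **lip = slope** at a point where `(G - c)₊` has small averages in `L^q`. -/
theorem lip_of_small [BorelSpace M] {n K q k L : ℝ} (hK : 0 ≤ K) (hq : 1 < q)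
    (hqn : n < q) (hk : 0 < k) {b G : M → ℝ} (hb : ∀ z z' : M, |b z - b z'| ≤ L * dist z z')
    (hbc : Continuous b) {y : M} {r₁ : ℝ} (hr₁ : 0 < r₁)
    (hseg : ∀ z ∈ ball y r₁, ∀ R ∈ Ioo 0 r₁, Seg m n K b G z R ∧ Seg m n K (fun x => -b x) G z R)
    (hfin : m (closedBall y r₁) < ∞)
    (hlow : ∀ z ∈ ball y r₁, ∀ s ∈ Ioo 0 r₁, k * s ^ n ≤ m.real (closedBall z s))
    {c : ℝ} (hc : 0 ≤ c)
    (hG : MemLp (fun x => max (G x - c) 0) (ENNReal.ofReal q) (m.restrict (closedBall y r₁)))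
    (hleb : ∀ ε > 0, ∀ᶠ s in 𝓝[>] (0 : ℝ),
      ∫ x in closedBall y s, max (G x - c) 0 ^ q ∂m ≤ ε * s ^ n)
    {η : ℝ} (hη : 0 < η) :
    ∀ᶠ r in 𝓝[>] (0 : ℝ), ∀ z ∈ closedBall y r, ∀ z' ∈ closedBall y r,
      |b z - b z'| ≤ c * dist z z' + η * r := by
  have hL : 0 ≤ |L| := abs_nonneg L
  have hb' : ∀ z z' : M, |b z - b z'| ≤ |L| * dist z z' := fun z z' =>
    (hb z z').trans (mul_le_mul_of_nonneg_right (le_abs_self L) dist_nonneg)
  set P := |L| + c + 3 with hP
  have hPpos : 0 < P := by positivity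
  set θ := min 1 (η / P) with hθ
  have hθ0 : 0 < θ := lt_min one_pos (by positivity)
  have hθ1 : θ ≤ 1 := min_le_left _ _
  have hθη : P * θ ≤ η := by
    have : θ ≤ η / P := min_le_right _ _
    calc P * θ ≤ P * (η / P) := mul_le_mul_of_nonneg_left this hPpos.le
      _ = η := by field_simp
  set Q := K ^ (1 / q) * (q / (q - n)) / θ with hQ
  have hQ0 : 0 ≤ Q := by
    have : 0 ≤ q / (q - n) := div_nonneg (by linarith) (by linarith)
    have := Real.rpow_nonneg hK (1 / q)
    positivity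
  have hθn : 0 < θ ^ n := Real.rpow_pos_of_pos hθ0 _
  have h4n : (0 : ℝ) < 4 ^ n := Real.rpow_pos_of_pos (by norm_num) _
  set ε := k * θ ^ n / (4 * (Q ^ q + 1) * 4 ^ n) with hε
  have hQq : 0 ≤ Q ^ q := Real.rpow_nonneg hQ0 _
  have hε0 : 0 < ε := by positivity
  have hev := hleb ε hε0
  have hev4 : ∀ᶠ r in 𝓝[>] (0 : ℝ),
      ∫ x in closedBall y (4 * r), max (G x - c) 0 ^ q ∂m ≤ ε * (4 * r) ^ n := by
    have ht : Tendsto (fun r : ℝ => 4 * r) (𝓝[>] 0) (𝓝[>] 0) := by
      refine tendsto_nhdsWithin_iff.2 ⟨?_, ?_⟩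
      · have : Tendsto (fun r : ℝ => 4 * r) (𝓝 0) (𝓝 (4 * 0)) := tendsto_id.const_mul 4
        rw [mul_zero] at this
        exact this.mono_left nhdsWithin_le_nhds
      · filter_upwards [self_mem_nhdsWithin] with r hr
        have : (0 : ℝ) < r := hr
        show 0 < 4 * r
        linarith
    exact ht.eventually hev
  have hsmall : ∀ᶠ r in 𝓝[>] (0 : ℝ), r < r₁ / 8 :=
    (eventually_lt_nhds (by positivity)).filter_mono nhdsWithin_le_nhds
  filter_upwards [hev4, hsmall, self_mem_nhdsWithin] with r hr1 hr2 hr3 z hz z' hz'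
  have hr0 : (0 : ℝ) < r := hr3
  rw [mem_closedBall] at hz hz'
  have hzz : dist z z' ≤ 2 * r := by
    calc dist z z' ≤ dist z y + dist z' y := dist_triangle_right _ _ _
      _ ≤ 2 * r := by linarith
  have hz'r : z' ∈ ball y r₁ := by rw [mem_ball]; linarith
  have hzr : z ∈ ball y r₁ := by rw [mem_ball]; linarith
  have hsub1 : closedBall z' (3 * r) ⊆ closedBall y (4 * r) := by
    apply closedBall_subset_closedBall'
    linarith
  have hsub2 : closedBall y (4 * r) ⊆ closedBall y r₁ := closedBall_subset_closedBall (by linarith)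
  have hsub3 : closedBall z (θ * r) ⊆ closedBall z' (3 * r) := by
    apply closedBall_subset_closedBall'
    nlinarith
  have hfin1 : m (closedBall z' (3 * r)) < ∞ :=
    lt_of_le_of_lt (measure_mono (hsub1.trans hsub2)) hfin
  have hseg3 := hseg z' hz'r (3 * r) ⟨by linarith, by linarith⟩
  have hGq : MemLp (fun x => max (G x - c) 0) (ENNReal.ofReal q)
      (m.restrict (closedBall z' (3 * r))) :=
    hG.mono_measure (Measure.restrict_mono (hsub1.trans hsub2) le_rfl)
  have hbint : IntegrableOn b (closedBall z' (3 * r)) m := by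
    refine Integrable.mono' (g := fun _ => |b z'| + |L| * (3 * r)) (integrableOn_const hfin1.ne)
      hbc.measurable.aestronglyMeasurable ?_
    filter_upwards [ae_restrict_mem measurableSet_closedBall] with x hx
    have h1 := hb' x z'
    have h2 : |L| * dist x z' ≤ |L| * (3 * r) := mul_le_mul_of_nonneg_left hx hL
    have h3 : |b x| ≤ |b x - b z'| + |b z'| := by
      have := abs_add_le (b x - b z') (b z')
      simpa using this
    rw [Real.norm_eq_abs]
    linarith
  have hmor := morrey hK hq hqn (by linarith : (0 : ℝ) < 3 * r) hseg3.1 hseg3.2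
    measurableSet_closedBall hfin1 hbc.measurable (continuous_id.dist continuous_const).measurable hc hbint
    hGq hθ0
  -- the integral
  have hG4 : IntegrableOn (fun x => max (G x - c) 0 ^ q) (closedBall y (4 * r)) m := by
    have hq0 : 0 < q := by linarith
    have h := (hG.mono_measure (Measure.restrict_mono hsub2 le_rfl)).integrable_norm_rpow
      (by simpa using hq0) ENNReal.ofReal_ne_top
    refine h.congr (Eventually.of_forall fun x => ?_)
    simp only
    rw [ENNReal.toReal_ofReal hq0.le, Real.norm_eq_abs, abs_of_nonneg (le_max_right _ _)]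
  have hint : ∫ x in closedBall z' (3 * r), max (G x - c) 0 ^ q ∂m ≤ ε * (4 * r) ^ n :=
    (setIntegral_mono_set hG4 (Eventually.of_forall fun x => Real.rpow_nonneg (le_max_right _ _) _)
      hsub1.eventuallyLE).trans hr1
  have hlt : m.real {x ∈ closedBall z' (3 * r) | c * dist x z' + θ * (3 * r) < |b x - b z'|} <
      m.real (closedBall z (θ * r)) := by
    have h1 := hlow z hzr (θ * r) ⟨by positivity, by nlinarith⟩
    refine lt_of_lt_of_le (lt_of_le_of_lt hmor ?_) h1
    have h2 : 2 * (Q ^ q * ∫ x in closedBall z' (3 * r), max (G x - c) 0 ^ q ∂m) ≤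
        2 * (Q ^ q * (ε * (4 * r) ^ n)) := by
      have := mul_le_mul_of_nonneg_left hint hQq
      linarith
    refine lt_of_le_of_lt h2 ?_
    rw [Real.mul_rpow (by norm_num) hr0.le, Real.mul_rpow hθ0.le hr0.le]
    have hrn : 0 < r ^ n := Real.rpow_pos_of_pos hr0 _
    have e1 : 2 * (Q ^ q * (ε * (4 ^ n * r ^ n))) =
        (k * θ ^ n * r ^ n) * ((1 / 2) * (Q ^ q / (Q ^ q + 1))) := by
      rw [hε]; field_simp; ring
    rw [e1]
    have e2 : (1 / 2) * (Q ^ q / (Q ^ q + 1)) < 1 := by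
      have : Q ^ q / (Q ^ q + 1) ≤ 1 := by rw [div_le_one (by positivity)]; linarith
      linarith
    have e3 : 0 < k * θ ^ n * r ^ n := by positivity
    calc (k * θ ^ n * r ^ n) * ((1 / 2) * (Q ^ q / (Q ^ q + 1))) < (k * θ ^ n * r ^ n) * 1 :=
          mul_lt_mul_of_pos_left e2 e3
      _ = k * (θ ^ n * r ^ n) := by ring
  obtain ⟨x, hx1, hx2⟩ : ∃ x ∈ closedBall z (θ * r),
      ¬(c * dist x z' + θ * (3 * r) < |b x - b z'|) := by
    by_contra hcon
    push Not at hcon
    refine absurd hlt (not_lt.2 (measureReal_mono ?_ ?_))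
    · intro x hx
      exact ⟨hsub3 hx, hcon x hx⟩
    · exact (lt_of_le_of_lt (measure_mono fun x hx => hx.1) hfin1).ne
  rw [not_lt] at hx2
  rw [mem_closedBall] at hx1
  have h1 : |b z - b x| ≤ |L| * (θ * r) := by
    refine (hb' z x).trans (mul_le_mul_of_nonneg_left ?_ hL)
    rw [dist_comm]; exact hx1
  have h2 : dist x z' ≤ θ * r + dist z z' := (dist_triangle x z z').trans (by linarith)
  have h3 : c * dist x z' ≤ c * (θ * r) + c * dist z z' := by
    have := mul_le_mul_of_nonneg_left h2 hc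
    linarith
  have h4 : |b z - b z'| ≤ |b z - b x| + |b x - b z'| := abs_sub_le _ _ _
  have h5 : P * θ * r ≤ η * r := mul_le_mul_of_nonneg_right hθη hr0.le
  have h6 : P * θ * r = |L| * (θ * r) + c * (θ * r) + θ * (3 * r) := by rw [hP]; ring
  linarith

/-- `(√A - √B)₊ ^ q ≤ T ^ (q / 2 - 1) |A - B|` if `0 ≤ A, B ≤ T` and `q ≥ 2` -/
theorem sqrt_sub_rpow_le {A B T q : ℝ} (hA : 0 ≤ A) (hB : 0 ≤ B) (hAT : A ≤ T)
    (hq : 2 ≤ q) : max (√A - √B) 0 ^ q ≤ T ^ (q / 2 - 1) * |A - B| := by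
  have hT : 0 ≤ T := hA.trans hAT
  rcases le_total (√A) (√B) with h | h
  · rw [max_eq_right (by linarith), Real.zero_rpow (by linarith)]
    exact mul_nonneg (Real.rpow_nonneg hT _) (abs_nonneg _)
  · have hAB : B ≤ A := by
      by_contra hcon
      push Not at hcon
      have := Real.sqrt_lt_sqrt hA hcon
      linarith
    rw [max_eq_left (by linarith), abs_of_nonneg (by linarith : 0 ≤ A - B)]
    have h1 : (√A - √B) ^ 2 ≤ A - B := by
      have e1 := Real.sq_sqrt hA
      have e2 := Real.sq_sqrt hB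
      have h3 := Real.sqrt_nonneg B
      nlinarith
    have h0 : 0 ≤ √A - √B := by linarith
    have h2 : (√A - √B) ^ q = ((√A - √B) ^ 2) ^ (q / 2) := by
      rw [← Real.rpow_natCast_mul h0]
      congr 1
      push_cast; ring
    rw [h2]
    have h3 : ((√A - √B) ^ 2) ^ (q / 2) ≤ (A - B) ^ (q / 2) :=
      Real.rpow_le_rpow (sq_nonneg _) h1 (by linarith)
    refine h3.trans ?_
    rcases eq_or_lt_of_le (by linarith : 0 ≤ A - B) with h4 | h4
    · rw [← h4, Real.zero_rpow (by linarith), mul_zero]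
    · have h5 : (A - B) ^ (q / 2) = (A - B) ^ (q / 2 - 1) * (A - B) := by
        rw [Real.rpow_sub_one h4.ne']; field_simp
      rw [h5]
      refine mul_le_mul_of_nonneg_right ?_ h4.le
      exact Real.rpow_le_rpow h4.le (by linarith) (by linarith)

/-- **lip = slope** at a Lebesgue point of the square of the slope. -/
theorem lip_of_lebesgue [BorelSpace M] {n K k L T : ℝ} (hn : 1 ≤ n) (hK : 0 ≤ K) (hk : 0 < k)
    {b Q : M → ℝ} (hb : ∀ z z' : M, |b z - b z'| ≤ L * dist z z') (hbc : Continuous b)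
    {y : M} {r₁ : ℝ} (hr₁ : 0 < r₁) (hQm : AEStronglyMeasurable Q m)
    (hQ : ∀ᵐ x ∂m, 0 ≤ Q x ∧ Q x ≤ T) {Q₀ : ℝ} (hQ₀ : 0 ≤ Q₀) (hQ₀T : Q₀ ≤ T)
    (hseg : ∀ z ∈ ball y r₁, ∀ R ∈ Ioo 0 r₁,
      Seg m n K b (fun x => √(Q x)) z R ∧ Seg m n K (fun x => -b x) (fun x => √(Q x)) z R)
    (hfin : m (closedBall y r₁) < ∞)
    (hlow : ∀ z ∈ ball y r₁, ∀ s ∈ Ioo 0 r₁, k * s ^ n ≤ m.real (closedBall z s))
    (hleb : ∀ ε > 0, ∀ᶠ s in 𝓝[>] (0 : ℝ), ∫ x in closedBall y s, |Q x - Q₀| ∂m ≤ ε * s ^ n)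
    {η : ℝ} (hη : 0 < η) :
    ∀ᶠ r in 𝓝[>] (0 : ℝ), ∀ z ∈ closedBall y r, ∀ z' ∈ closedBall y r,
      |b z - b z'| ≤ √Q₀ * dist z z' + η * r := by
  have hT : 0 ≤ T := hQ₀.trans hQ₀T
  have hq2 : (2 : ℝ) ≤ n + 1 := by linarith
  have hmeas : AEStronglyMeasurable (fun x => max (√(Q x) - √Q₀) 0) m := by
    have : Continuous fun t : ℝ => max (√t - √Q₀) 0 := by fun_prop
    exact this.comp_aestronglyMeasurable hQm
  have hbd : ∀ᵐ x ∂m, max (√(Q x) - √Q₀) 0 ≤ √T := by
    filter_upwards [hQ] with x hx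
    refine max_le ?_ (Real.sqrt_nonneg _)
    have := Real.sqrt_le_sqrt hx.2
    have := Real.sqrt_nonneg Q₀
    linarith
  have hfin' : IsFiniteMeasure (m.restrict (closedBall y r₁)) :=
    ⟨by rw [Measure.restrict_apply_univ]; exact hfin⟩
  have hG : MemLp (fun x => max (√(Q x) - √Q₀) 0) (ENNReal.ofReal (n + 1))
      (m.restrict (closedBall y r₁)) := by
    refine MemLp.of_bound hmeas.restrict (√T) ?_
    filter_upwards [ae_restrict_of_ae hbd] with x hx
    rw [Real.norm_eq_abs, abs_of_nonneg (le_max_right _ _)]; exact hx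
  refine lip_of_small (q := n + 1) hK (by linarith) (by linarith) hk hb hbc hr₁ hseg
    hfin hlow (Real.sqrt_nonneg _) hG ?_ hη
  intro ε hε
  set D := T ^ ((n + 1) / 2 - 1) with hD
  have hD0 : 0 ≤ D := Real.rpow_nonneg hT _
  have hev := hleb (ε / (D + 1)) (by positivity)
  have hsm : ∀ᶠ s in 𝓝[>] (0 : ℝ), s < r₁ :=
    (eventually_lt_nhds hr₁).filter_mono nhdsWithin_le_nhds
  filter_upwards [hev, hsm, self_mem_nhdsWithin] with s hs hs1 hs0
  have hs0' : (0 : ℝ) < s := hs0
  have hsub : closedBall y s ⊆ closedBall y r₁ := closedBall_subset_closedBall hs1.le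
  have hfs : m (closedBall y s) ≠ ∞ := (lt_of_le_of_lt (measure_mono hsub) hfin).ne
  have hint2 : IntegrableOn (fun x => |Q x - Q₀|) (closedBall y s) m := by
    refine Integrable.mono' (g := fun _ => T) (integrableOn_const hfs) ?_ ?_
    · exact (continuous_abs.comp_aestronglyMeasurable
        (hQm.sub aestronglyMeasurable_const)).restrict
    · filter_upwards [ae_restrict_of_ae hQ] with x hx
      rw [Real.norm_eq_abs, abs_abs, abs_le]
      constructor <;> linarith [hx.1, hx.2]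
  have hle : ∀ᵐ x ∂(m.restrict (closedBall y s)),
      max (√(Q x) - √Q₀) 0 ^ (n + 1) ≤ D * |Q x - Q₀| := by
    filter_upwards [ae_restrict_of_ae hQ] with x hx
    exact sqrt_sub_rpow_le hx.1 hQ₀ hx.2 hq2
  have hint1 : IntegrableOn (fun x => max (√(Q x) - √Q₀) 0 ^ (n + 1)) (closedBall y s) m := by
    refine Integrable.mono' (hint2.const_mul D) ?_ ?_
    · exact ((Real.continuous_rpow_const (by linarith)).comp_aestronglyMeasurable hmeas).restrict
    · filter_upwards [hle] with x hx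
      rw [Real.norm_eq_abs, abs_of_nonneg (Real.rpow_nonneg (le_max_right _ _) _)]; exact hx
  calc ∫ x in closedBall y s, max (√(Q x) - √Q₀) 0 ^ (n + 1) ∂m
      ≤ ∫ x in closedBall y s, D * |Q x - Q₀| ∂m :=
        integral_mono_ae hint1 (hint2.const_mul D) hle
    _ = D * ∫ x in closedBall y s, |Q x - Q₀| ∂m := integral_const_mul _ _
    _ ≤ D * (ε / (D + 1) * s ^ n) := mul_le_mul_of_nonneg_left hs hD0
    _ = (D / (D + 1)) * (ε * s ^ n) := by ring
    _ ≤ 1 * (ε * s ^ n) := by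
        refine mul_le_mul_of_nonneg_right ?_ (mul_nonneg hε.le (Real.rpow_nonneg hs0'.le _))
        rw [div_le_one (by positivity)]; linarith
    _ = ε * s ^ n := one_mul _

end lebesgue

end Vale.Agent.P233.H249
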