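import Vale.Agent.P233.Gig.IfD
import Vale.Agent.P233.H249.Morrey
import Vale.Agent.P233.H491.LipSlope
import Vale.Agent.P233.H719.SlabM
import Vale.Agent.P233.H589.Lat

/-! P233, part D, block D3: the local Lipschitz constant is at most the slope at Lebesgue
points, for one function and for all real combinations of a countable family. -/

set_option linter.all false

open MeasureTheory Filter Topology Set Metric
open scoped ENNReal NNReal

universe u

namespace Vale.Agent.P233.H249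

open Vale.Agent.P233 Vale.Agent.P233.PD

variable {M : Type u} [MetricSpace M] [MeasurableSpace M] [BorelSpace M]
  [SecondCountableTopology M] {m : Measure M}

/-- the space is a calculus -/
theorem std_gamma {K N : ℝ} (h : Std m K N) : IsGamma (sob m) :=
  isGamma_sob h.hfin h.rcd.quadratic h.rcd.sobolev_to_lipschitz

/-- the gradient of a Lipschitz function is locally bounded -/
theorem gamma_locBdd (hC : IsGamma (sob m)) {h : M →ₘ[m] ℝ} {b : M → ℝ} (hb : LW m h b)
    (x₀ : M) (R : ℝ) : ∃ T : ℝ, 0 ≤ T ∧ ∀ᵐ y ∂m, y ∈ ball x₀ R →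
      0 ≤ (sob m).Γ h h y ∧ (sob m).Γ h h y ≤ T := by
  obtain ⟨hW, ⟨L, hL⟩, hae⟩ := hb
  set T₀ : ℝ := |b x₀| + L * |R| + 1 with hT₀
  have hT₀pos : 0 < T₀ := by positivity
  have hLΦ : LipschitzWith 1 fun t : ℝ => max (-T₀) (min t T₀) :=
    (LipschitzWith.id.min_const T₀).const_max (-T₀)
  set Φ : ℝ → ℝ := fun t => max (-T₀) (min t T₀) with hΦ
  have hΦ0 : Φ 0 = 0 := by
    simp only [hΦ]
    rw [min_eq_left hT₀pos.le, max_eq_right (by linarith)]
  have hd : ∀ t, t ∉ ({-T₀, T₀} : Set ℝ) →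
      HasDerivAt Φ ((fun t => if -T₀ < t ∧ t < T₀ then (1 : ℝ) else 0) t) t := by
    intro t ht
    simp only [mem_insert_iff, mem_singleton_iff, not_or] at ht
    rcases lt_trichotomy t (-T₀) with h1 | h1 | h1
    · have : Φ =ᶠ[𝓝 t] fun _ => -T₀ := by
        filter_upwards [Iio_mem_nhds h1] with s hs
        simp only [hΦ]
        have hs' : s < -T₀ := hs
        rw [min_eq_left (by linarith), max_eq_left (by linarith)]
      simp only
      rw [if_neg (by push Not; intro h; linarith)]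
      exact (hasDerivAt_const t (-T₀)).congr_of_eventuallyEq this
    · exact absurd h1 ht.1
    · rcases lt_trichotomy t T₀ with h2 | h2 | h2
      · have : Φ =ᶠ[𝓝 t] fun s => s := by
          filter_upwards [Ioo_mem_nhds h1 h2] with s hs
          simp only [hΦ]
          rw [min_eq_left hs.2.le, max_eq_right hs.1.le]
        simp only
        rw [if_pos ⟨h1, h2⟩]
        exact (hasDerivAt_id t).congr_of_eventuallyEq this
      · exact absurd h2 ht.2
      · have : Φ =ᶠ[𝓝 t] fun _ => T₀ := by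
          filter_upwards [Ioi_mem_nhds h2] with s hs
          simp only [hΦ]
          have hs' : T₀ < s := hs
          rw [min_eq_right hs'.le, max_eq_right (by linarith)]
        simp only
        rw [if_neg (by push Not; intro _; exact h2.le)]
        exact (hasDerivAt_const t T₀).congr_of_eventuallyEq this
  have hcl := hC.toIsDir.chain_lip hW hLΦ hΦ0 (Set.Countable.insert (-T₀) (countable_singleton T₀)) hd
  set F := AEEqFun.comp Φ hLΦ.continuous h with hF
  have hFae : F =ᵐ[m] fun x => Φ (b x) := by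
    have h1 : F =ᵐ[m] Φ ∘ h := AEEqFun.coeFn_comp _ _ _
    filter_upwards [h1, hae] with x h1 h2
    rw [h1, Function.comp_apply, h2]
  have hFB : F ∈ (sob m).B := by
    refine ⟨fun x => Φ (b x), ⟨_, hLΦ.comp hL⟩, ⟨T₀, fun x => ?_⟩, hFae⟩
    simp only [hΦ]
    rw [abs_le]
    exact ⟨le_max_left _ _, max_le (by linarith) (min_le_right _ _)⟩
  obtain ⟨-, h2⟩ := (hC.lip_iff F hcl.1).1 hFB
  obtain ⟨T, hT⟩ := mem_top_iff.1 h2
  refine ⟨|T|, abs_nonneg _, ?_⟩
  have e1 := hC.toIsDir.Γ_eq_on hW hcl.1 hW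
  have e2 := hC.toIsDir.Γ_eq_on hW hcl.1 hcl.1
  have e3 : (sob m).Γ h F = (sob m).Γ F h := hC.symm _ hW _ hcl.1
  filter_upwards [hT, e1, e2, hFae, hae, nonneg_iff_ae.1 (hC.nonneg h hW)] with y y1 y2 y3 y4 y5 y6 hy
  refine ⟨y6, ?_⟩
  have hby : |b y| ≤ T₀ := by
    have h1 := hL.dist_le_mul y x₀
    rw [Real.dist_eq] at h1
    have h2 : |b y| ≤ |b y - b x₀| + |b x₀| := by
      have := abs_add_le (b y - b x₀) (b x₀)
      simpa using this
    have h3 : (L : ℝ) * dist y x₀ ≤ L * |R| :=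
      mul_le_mul_of_nonneg_left ((le_of_lt (mem_ball.1 hy)).trans (le_abs_self R)) L.2
    rw [hT₀]; linarith
  have hhF : h y = F y := by
    rw [y4, y5]
    simp only [hΦ]
    rw [abs_le] at hby
    rw [min_eq_left hby.2, max_eq_right hby.1]
  rw [y2 hhF, ← e3, y3 hhF]
  exact (le_abs_self _).trans (y1.trans (le_abs_self T))

/-- the core of D3 -/
theorem lip_core (hC : IsGamma (sob m)) {n : ℕ} (hg : Geo m n) (hM : Morrey m n)
    {h : M →ₘ[m] ℝ} {b : M → ℝ} (hb : LW m h b) {y : M} {v : ℝ} (hv : 0 ≤ v)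
    (hL : H719.LebPt m n (⇑((sob m).Γ h h)) y v) :
    ∀ η > 0, ∃ r₀ > 0, ∀ r, 0 < r → r ≤ r₀ → ∀ z ∈ closedBall y r, ∀ z' ∈ closedBall y r,
      |b z - b z'| ≤ √v * dist z z' + η * r := by
  obtain ⟨T, hT0, hT⟩ := gamma_locBdd hC hb y 1
  obtain ⟨CM, hCM, hMor⟩ := hM ((n : ℝ) + 2) (by linarith)
    (by linarith [(Nat.cast_nonneg n : (0 : ℝ) ≤ n)]) 1 one_pos
  obtain ⟨c0, hc0, C, hvol⟩ := hg.vol y 1
  obtain ⟨L, hLip⟩ := hb.2.1
  set q : ℝ := (n : ℝ) + 2 with hq
  have hq2 : 2 ≤ q := by rw [hq]; linarith [(Nat.cast_nonneg n : (0 : ℝ) ≤ n)]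
  have hfinb : ∀ s, s < 1 → m (closedBall y s) < ∞ := fun s hs => by
    refine lt_of_le_of_lt (measure_mono (closedBall_subset_ball hs)) ?_
    exact lt_of_le_of_lt (hvol y (mem_ball_self one_pos) 1 one_pos le_rfl).2 ENNReal.ofReal_lt_top
  have key := H491.lip_slope (m := m) (n := (n : ℝ)) (q := q) (L := L) (c := √v) (CM := CM)
    (κ := 1) (c0 := c0) (r1 := 1) (b := b) (G := fun x => gn m h x) (y := y)
    (Real.sqrt_nonneg _) hc0 zero_le_one hCM one_pos
    (fun z z' => by have := hLip.dist_le_mul z z'; rwa [Real.dist_eq] at this)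
    (fun x hx s hs hs1 => by
      have := (hvol x hx s hs hs1).1
      rwa [← Real.rpow_natCast s n] at this)
    (fun p hp R hR hR1 η hη => by
      have h1 := hMor p R hR hR1 h b hb (√v) (Real.sqrt_nonneg _) η hη
      rw [one_mul]
      have e1 : {z | z ∈ ball p R ∧ √v * dist z p + η * R < |b z - b p|} =
          {x | dist p x < R ∧ √v * dist p x + η * R < |b x - b p|} := by
        ext x
        simp only [mem_setOf_eq, mem_ball, dist_comm p x]
      rw [e1]
      refine h1.trans (le_of_eq ?_)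
      congr 1
      refine lintegral_congr fun x => ?_
      rw [max_comm, ENNReal.ofReal_rpow_of_nonneg (le_max_right _ _) (by linarith)])
    ?_
  · intro η hη
    have h1 := key η hη
    rw [eventually_nhdsWithin_iff, Metric.eventually_nhds_iff] at h1
    obtain ⟨ε, hε, h2⟩ := h1
    refine ⟨ε / 2, by positivity, fun r hr hr2 => h2 ?_ hr⟩
    rw [Real.dist_eq, sub_zero, abs_of_pos hr]
    linarith
  · intro ε hε
    set A := T ^ (q / 2 - 1) with hA
    have hA0 : 0 ≤ A := Real.rpow_nonneg hT0 _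
    have h1 : ∀ᶠ s in 𝓝[>] (0 : ℝ),
        (s ^ n)⁻¹ * ∫ z in closedBall y s, |(sob m).Γ h h z - v| ∂m < ε / (A + 1) :=
      hL.eventually (gt_mem_nhds (by positivity))
    have h2 : ∀ᶠ s in 𝓝[>] (0 : ℝ), s < 1 :=
      (eventually_lt_nhds one_pos).filter_mono nhdsWithin_le_nhds
    filter_upwards [h1, h2, self_mem_nhdsWithin] with s hs1 hs2 hs3
    have hs0 : (0 : ℝ) < s := hs3
    have hsn : (0 : ℝ) < s ^ n := pow_pos hs0 n
    have hsub : closedBall y s ⊆ ball y 1 := closedBall_subset_ball hs2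
    have hTs : ∀ᵐ z ∂(m.restrict (closedBall y s)),
        0 ≤ (sob m).Γ h h z ∧ (sob m).Γ h h z ≤ T := by
      filter_upwards [ae_restrict_of_ae hT, ae_restrict_mem measurableSet_closedBall] with z h3 h4
      exact h3 (hsub h4)
    have hmeas : AEStronglyMeasurable (fun z => |(sob m).Γ h h z - v|) m :=
      continuous_abs.comp_aestronglyMeasurable
        (((sob m).Γ h h).aestronglyMeasurable.sub aestronglyMeasurable_const)
    have hint : IntegrableOn (fun z => |(sob m).Γ h h z - v|) (closedBall y s) m := by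
      refine Integrable.mono' (g := fun _ => T + v) (integrableOn_const (hfinb s hs2).ne)
        hmeas.restrict ?_
      filter_upwards [hTs] with z hz
      rw [Real.norm_eq_abs, abs_abs, abs_le]
      constructor <;> linarith [hz.1, hz.2]
    have hle : ∀ᵐ z ∂(m.restrict (closedBall y s)),
        ENNReal.ofReal (max (gn m h z - √v) 0 ^ q) ≤
          ENNReal.ofReal (A * |(sob m).Γ h h z - v|) := by
      filter_upwards [hTs] with z hz
      exact ENNReal.ofReal_le_ofReal (sqrt_sub_rpow_le hz.1 hv hz.2 hq2)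
    calc ∫⁻ z in closedBall y s, ENNReal.ofReal (max (gn m h z - √v) 0 ^ q) ∂m
        ≤ ∫⁻ z in closedBall y s, ENNReal.ofReal (A * |(sob m).Γ h h z - v|) ∂m :=
          lintegral_mono_ae hle
      _ = ENNReal.ofReal (∫ z in closedBall y s, A * |(sob m).Γ h h z - v| ∂m) := by
          rw [ofReal_integral_eq_lintegral_ofReal (hint.const_mul A)
            (Eventually.of_forall fun z => mul_nonneg hA0 (abs_nonneg _))]
      _ ≤ ENNReal.ofReal (ε * s ^ (n : ℝ)) := by
          refine ENNReal.ofReal_le_ofReal ?_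
          rw [integral_const_mul, Real.rpow_natCast]
          have h5 : ∫ z in closedBall y s, |(sob m).Γ h h z - v| ∂m ≤ ε / (A + 1) * s ^ n := by
            rw [inv_mul_eq_div, div_lt_iff₀ hsn] at hs1
            exact hs1.le
          calc A * ∫ z in closedBall y s, |(sob m).Γ h h z - v| ∂m ≤ A * (ε / (A + 1) * s ^ n) :=
                mul_le_mul_of_nonneg_left h5 hA0
            _ = A / (A + 1) * (ε * s ^ n) := by ring
            _ ≤ 1 * (ε * s ^ n) := by
                refine mul_le_mul_of_nonneg_right ?_ (by positivity)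
                rw [div_le_one (by positivity)]; linarith
            _ = ε * s ^ n := one_mul _

/-- almost every point is a Lebesgue point -/
theorem leb_ae {n : ℕ} (hfin : ∀ (x : M) (r : ℝ), m (ball x r) < ∞) (hg : Geo m n)
    {f : M →ₘ[m] ℝ} (hf : MemLp f 1 m) : ∀ᵐ y ∂m, H719.LebPt m n f y (f y) := by
  haveI := hg.dbl
  haveI : IsLocallyFiniteMeasure m := ⟨fun x => ⟨ball x 1, ball_mem_nhds x one_pos, hfin x 1⟩⟩
  refine H719.ae_lebPt (fun y r => lt_of_le_of_lt (measure_mono (closedBall_subset_ball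
    (lt_add_one r))) (hfin y (r + 1))) ?_ (int_of_mem hf).locallyIntegrable
  refine Eventually.of_forall fun y => ?_
  obtain ⟨c, hc, C, hvol⟩ := hg.vol y 1
  have hC1 : 0 ≤ |C| := abs_nonneg C
  refine ⟨|C| * 2 ^ n, ?_⟩
  have h2 : ∀ᶠ s in 𝓝[>] (0 : ℝ), s < 1 / 2 :=
    (eventually_lt_nhds (by norm_num)).filter_mono nhdsWithin_le_nhds
  filter_upwards [h2, self_mem_nhdsWithin] with s hs hs0
  have hs0' : (0 : ℝ) < s := hs0
  have h3 := (hvol y (mem_ball_self one_pos) (2 * s) (by linarith) (by linarith)).2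
  refine ENNReal.toReal_le_of_le_ofReal (by positivity) ?_
  refine (measure_mono (closedBall_subset_ball (by linarith : s < 2 * s))).trans (h3.trans ?_)
  refine ENNReal.ofReal_le_ofReal ?_
  rw [mul_pow]
  calc C * (2 ^ n * s ^ n) ≤ |C| * (2 ^ n * s ^ n) :=
        mul_le_mul_of_nonneg_right (le_abs_self C) (by positivity)
    _ = |C| * 2 ^ n * s ^ n := by ring

theorem lw_zero (hC : IsGamma (sob m)) : LW m 0 fun _ => 0 :=
  ⟨hC.zero_mem, ⟨0, LipschitzWith.const 0⟩, zero_ae⟩

theorem lw_add (hC : IsGamma (sob m)) {h h' : M →ₘ[m] ℝ} {b b' : M → ℝ} (hb : LW m h b)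
    (hb' : LW m h' b') : LW m (h + h') fun x => b x + b' x := by
  obtain ⟨h1, ⟨L, h2⟩, h3⟩ := hb
  obtain ⟨h1', ⟨L', h2'⟩, h3'⟩ := hb'
  refine ⟨hC.add_mem _ h1 _ h1', ⟨L + L', h2.add h2'⟩, ?_⟩
  filter_upwards [add_ae h h', h3, h3'] with x e1 e2 e3
  rw [e1, e2, e3]

theorem lw_smul (hC : IsGamma (sob m)) {h : M →ₘ[m] ℝ} {b : M → ℝ} (hb : LW m h b) (c : ℝ) :
    LW m (c • h) fun x => c * b x := by
  obtain ⟨h1, ⟨L, h2⟩, h3⟩ := hb
  refine ⟨hC.smul_mem _ _ h1, ⟨‖c‖₊ * L, ?_⟩, ?_⟩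
  · refine LipschitzWith.of_dist_le_mul fun x y => ?_
    rw [Real.dist_eq, ← mul_sub, abs_mul]
    have := h2.dist_le_mul x y
    rw [Real.dist_eq] at this
    calc |c| * |b x - b y| ≤ |c| * (L * dist x y) := mul_le_mul_of_nonneg_left this (abs_nonneg _)
      _ = ((‖c‖₊ * L : ℝ≥0) : ℝ) * dist x y := by
          rw [NNReal.coe_mul, coe_nnnorm, Real.norm_eq_abs]; ring
  · filter_upwards [smul_ae h c, h3] with x e1 e2
    rw [e1, e2]

theorem lw_sum (hC : IsGamma (sob m)) {h : ℕ → M →ₘ[m] ℝ} {b : ℕ → M → ℝ}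
    (hb : ∀ i, LW m (h i) (b i)) (c : ℕ → ℝ) (k : ℕ) :
    LW m (∑ i ∈ Finset.range k, c i • h i) fun x => ∑ i ∈ Finset.range k, c i * b i x := by
  induction k with
  | zero => simpa using lw_zero hC
  | succ k ih =>
    have := lw_add hC ih (lw_smul hC (hb k) (c k))
    simp only [Finset.sum_range_succ]
    exact this

/-- `0 ≤ qf` almost everywhere, for all real coefficients -/
theorem qf_nonneg_ae (hC : IsGamma (sob m)) {f : ℕ → M →ₘ[m] ℝ} {b : ℕ → M → ℝ}
    {G : ℕ → ℕ → M → ℝ} {g : ℕ → M → M → ℝ} (hT : TFam m f b G g) :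
    ∀ᵐ y ∂m, ∀ (k : ℕ) (c : ℕ → ℝ), 0 ≤ qf G k c y := by
  have hW : ∀ i, f i ∈ (sob m).W := fun i => (hT.lip i).1
  have h1 : ∀ᵐ y ∂m, ∀ (k : ℕ) (c : Fin k → ℚ),
      0 ≤ qf G k (fun i => if h : i < k then (c ⟨i, h⟩ : ℝ) else 0) y := by
    rw [ae_all_iff]; intro k
    rw [ae_all_iff]; intro c
    set d : ℕ → ℝ := fun i => if h : i < k then (c ⟨i, h⟩ : ℝ) else 0 with hd
    have hsW : ∑ i ∈ Finset.range k, d i • f i ∈ (sob m).W := (lw_sum hC hT.lip d k).1
    have hgr : ∀ᵐ y ∂m, ∀ i j, G i j y = (sob m).Γ (f i) (f j) y := by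
      rw [ae_all_iff]; intro i
      rw [ae_all_iff]; intro j
      exact hT.gram i j
    filter_upwards [H719.Γ_comb_ae hC.toIsDir (Finset.range k) d hW, hgr,
      nonneg_iff_ae.1 (hC.nonneg _ hsW)] with y h1 h2 h3
    rw [h1] at h3
    unfold qf
    simpa only [h2] using h3
  filter_upwards [h1] with y hy k c
  -- approximation by rational coefficients
  have happ : ∀ i : Fin k, ∃ u : ℕ → ℚ, Tendsto (fun j => (u j : ℝ)) atTop (𝓝 (c i)) := by
    intro i
    have := Rat.denseRange_cast (𝕜 := ℝ)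
    obtain ⟨x, hx, hlim⟩ := mem_closure_iff_seq_limit.1 (this (c i))
    choose u hu using hx
    refine ⟨u, ?_⟩
    simpa only [hu] using hlim
  choose u hu using happ
  have hlim : Tendsto (fun j => qf G k (fun i => if h : i < k then (u ⟨i, h⟩ j : ℝ) else 0) y)
      atTop (𝓝 (qf G k c y)) := by
    unfold qf
    refine tendsto_finsetSum _ fun i hi => tendsto_finsetSum _ fun j hj => ?_
    have hi' := Finset.mem_range.1 hi
    have hj' := Finset.mem_range.1 hj
    simp only [hi', hj', dite_true]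
    exact ((hu ⟨i, hi'⟩).mul (hu ⟨j, hj'⟩)).mul_const _
  refine ge_of_tendsto' hlim fun j => hy k (fun i => u i j)

/-- **D3** -/
theorem lipSlope (hC : IsGamma (sob m)) (hfin : ∀ (x : M) (r : ℝ), m (ball x r) < ∞) {n : ℕ}
    (hg : Geo m n) (hM : Morrey m n) : LipSlope m := by
  intro h b hb
  have h1 := leb_ae hfin hg (hC.toIsDir.Γ_mem1 hb.1 hb.1)
  filter_upwards [h1, nonneg_iff_ae.1 (hC.nonneg _ hb.1)] with y hy hy0
  exact lip_core hC hg hM hb hy0 hy

/-- **D3** for combinations -/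
theorem lipSlope' (hC : IsGamma (sob m)) (hfin : ∀ (x : M) (r : ℝ), m (ball x r) < ∞) {n : ℕ}
    (hg : Geo m n) (hM : Morrey m n) : LipSlope' m := by
  intro f b G g hT
  have hW : ∀ i, f i ∈ (sob m).W := fun i => (hT.lip i).1
  have h1 : ∀ᵐ y ∂m, ∀ i j, H719.LebPt m n ((sob m).Γ (f i) (f j)) y (G i j y) := by
    rw [ae_all_iff]; intro i
    rw [ae_all_iff]; intro j
    filter_upwards [leb_ae hfin hg (hC.toIsDir.Γ_mem1 (hW i) (hW j)), hT.gram i j] with y h2 h3
    rw [h3]; exact h2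
  filter_upwards [h1, qf_nonneg_ae hC hT] with y hy hy0 k c
  refine ⟨hy0 k c, fun η hη => ?_⟩
  have h2 := H719.lebPt_comb hC.toIsDir (Finset.range k) c hW
    (fun r => lt_of_le_of_lt (measure_mono (closedBall_subset_ball (lt_add_one r)))
      (hfin y (r + 1))) (g := fun i j => G i j y) (fun i _ j _ => hy i j)
  obtain ⟨r₀, hr₀, h3⟩ := lip_core hC hg hM (lw_sum hC hT.lip c k) (hy0 k c) h2 η hη
  refine ⟨r₀, hr₀, fun r hr hr1 z hz z' hz' => ?_⟩
  have h4 := h3 r hr hr1 z hz z' hz'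
  have e1 : ∑ i ∈ Finset.range k, c i * (b i z - b i z') =
      ∑ i ∈ Finset.range k, c i * b i z - ∑ i ∈ Finset.range k, c i * b i z' := by
    rw [← Finset.sum_sub_distrib]
    exact Finset.sum_congr rfl fun i _ => by ring
  rw [e1]
  exact h4

/-- block D3 -/
theorem blk_D3 : Blk_D3.{u} := fun M _ _ _ _ _ m n K h hg hM =>
  ⟨lipSlope (std_gamma h.std) h.std.hfin hg hM, lipSlope' (std_gamma h.std) h.std.hfin hg hM⟩

end Vale.Agent.P233.H249
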