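import Vale.Agent.P233.H249.M6g

/-! P233, block C6 (helper249): assembly. `Int6`, `RicInt6`, `EndInt6` and the localisation are
proved; the three static pieces `Pc6_ss`, `Pc6_fin`, `Pc6_ric` of `H249/If6.lean` are hypotheses
here (see their owners' files). -/

set_option linter.all false

open MeasureTheory Filter Topology Set
open scoped ENNReal NNReal InnerProductSpace

universe u

namespace Vale.Agent.P233.H249

open Vale.Agent.P233.PA (en OutA PotLim)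
open Vale.Agent.P233.PC

section lev

variable {M : Type u} [MetricSpace M] [SecondCountableTopology M] [MeasurableSpace M]
  [BorelSpace M] {m : Measure M} {K N κ : ℝ} {P : ℝ → (M →ₘ[m] ℝ) → (M →ₘ[m] ℝ)} {p : M}
  {s₀ C₀ : ℝ}
  {E : Type} [NormedAddCommGroup E] [InnerProductSpace ℝ E]
  {Gr : (M →ₘ[m] ℝ) → M → E} {V : (M →ₘ[m] ℝ) → (M →ₘ[m] ℝ) → M → E}
  {D : (M →ₘ[m] ℝ) → (M →ₘ[m] ℝ)} {HO : (M →ₘ[m] ℝ) → M → E →L[ℝ] E} {e : ℕ → M →ₘ[m] ℝ}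
  {h l : M →ₘ[m] ℝ} {u : ℕ → ℝ → M →ₘ[m] ℝ} {φ : (M →ₘ[m] ℝ) → ℕ → ℝ → M →ₘ[m] ℝ}
  {U : Ultrafilter ℕ} {Y : ℝ → M → M} {Hs : (M →ₘ[m] ℝ) → ℝ → M → E} {Λ : ℝ → M → ℝ}
  {L : M → ℝ} {G s : ℝ}

theorem ricInt6 [SFinite m] (hyp : CHyp M m K N P p s₀ C₀) (hE : EHyp m K N Gr V D HO e)
    (hA : OutA m K N P p s₀ C₀ u φ) (hB : LevB m Gr V D κ u φ) (hU : (U : Filter ℕ) ≤ atTop)
    (hF : RFlow m K N p s₀ C₀ Y) (hSt : Strong p s₀ C₀ U u φ Y)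
    (hH : HLim m U Gr V u φ Y e Hs Λ)
    (hh : h ∈ (sob m).TestI) (hs : s ∈ Ioo (0 : ℝ) 1)
    (h1 : ∀ l ∈ (sob m).TestI, Tendsto (fun n => (sob m).SS (en n) (φ l n) (u n) h 1) atTop
      (𝓝 ((sob m).wHc (zc m p s₀ C₀ 1) h (ex l)))) :
    RicInt6 m Gr HO Hs κ p s₀ C₀ Y h s ∧ EndInt6 m Gr HO Hs κ p s₀ C₀ Y h s := by
  constructor
  · intro l hl
    obtain ⟨Gs, g1, g2, g3, g4⟩ := main6 hyp hE hA hB hU hF hSt hH hl hh hs (h1 l hl)
    filter_upwards [g2] with a ha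
    filter_upwards [g2] with b hb hab
    have := g3 a ha b hb hab
    rwa [intervalIntegral.integral_of_le hab.le] at this
  · intro l hl
    obtain ⟨Gs, g1, g2, g3, g4⟩ := main6 hyp hE hA hB hU hF hSt hH hl hh hs (h1 l hl)
    filter_upwards [g2] with a ha
    exact g4 a ha

/-- localisation -/
theorem ric_loc [SigmaFinite m] (hyp : CHyp M m K N P p s₀ C₀) (hE : EHyp m K N Gr V D HO e)
    (hF : RFlow m K N p s₀ C₀ Y) (hH : HLim m U Gr V u φ Y e Hs Λ)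
    (hh : h ∈ (sob m).TestI) (hs : s ∈ Ioo (0 : ℝ) 1)
    (hR : RicInt6 m Gr HO Hs κ p s₀ C₀ Y h s) :
    ∀ᵐ x ∂m, ∀ᵐ a ∂(volume.restrict (Ioo s 1)),
        ∀ᵐ b ∂(volume.restrict (Ioo s 1)), a < b → qf6 Gr Hs Y h b x - qf6 Gr Hs Y h a x
          ≤ ∫ r in Ioc a b, bf6 m Gr HO Hs κ p s₀ C₀ Y h r x := by
  have hC := H719.std_gamma hyp.std
  have hBE := H719.std_bei hyp.std
  obtain ⟨L, G, hT⟩ := exists_St6 hyp hE hh
  have hI : Int6 m Gr HO Hs κ p s₀ C₀ Y h s := int6 hyp hF hH hT hh hs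
  have hcomp := compr hyp.std.hN hF hs.1
  have hYm := TY_meas hF.meas
  have hmk := hT.hm.ae_eq_mk
  -- measurable representative of the right hand side
  set β : ℝ → M → ℝ := fun t x =>
    2 * ⟪Hs h t (Y t x), cz6 p s₀ C₀ t (Y t x) • hT.hm.mk _ (Y t x)⟫_ℝ
    - κ * (‖Gr h (Y t x)‖ ^ 2 * ‖vf6 m Gr p s₀ C₀ t (Y t x)‖ ^ 2
        - ⟪Gr h (Y t x), vf6 m Gr p s₀ C₀ t (Y t x)⟫_ℝ ^ 2) - ‖Hs h t (Y t x)‖ ^ 2 with hβ
  have mH : StronglyMeasurable fun z : ℝ × M => Hs h z.1 (Y z.1 z.2) :=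
    (hH.meas h hh).comp_measurable hYm
  have mG : StronglyMeasurable fun z : ℝ × M => Gr h (Y z.1 z.2) := hT.gm.comp_measurable hF.meas
  have mc : StronglyMeasurable fun z : ℝ × M => cz6 p s₀ C₀ z.1 (Y z.1 z.2) :=
    (cz6_meas.comp hYm).stronglyMeasurable
  have mw : StronglyMeasurable fun z : ℝ × M => hT.hm.mk _ (Y z.1 z.2) :=
    hT.hm.stronglyMeasurable_mk.comp_measurable hF.meas
  have mv : StronglyMeasurable fun z : ℝ × M => vf6 m Gr p s₀ C₀ z.1 (Y z.1 z.2) :=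
    mc.smul (hT.dm.comp_measurable hF.meas)
  have mq : StronglyMeasurable (Function.uncurry (qf6 Gr Hs Y h)) := mH.inner mG
  have mβ : StronglyMeasurable (Function.uncurry β) :=
    (((mH.inner (mc.smul mw)).const_mul 2).sub ((((mG.norm.pow 2).mul (mv.norm.pow 2)).sub
      ((mG.inner mv).pow 2)).const_mul κ)).sub (mH.norm.pow 2)
  have heq : ∀ t ∈ Ioc s 1, ∀ᵐ x ∂m, bf6 m Gr HO Hs κ p s₀ C₀ Y h t x = β t x := by
    intro t ht
    filter_upwards [H183.flow_ae hF ⟨hs.1.trans ht.1, ht.2⟩ hmk] with x hx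
    rw [hβ]
    show bf6 m Gr HO Hs κ p s₀ C₀ Y h t x =
      2 * ⟪Hs h t (Y t x), cz6 p s₀ C₀ t (Y t x) • hT.hm.mk _ (Y t x)⟫_ℝ
      - κ * (‖Gr h (Y t x)‖ ^ 2 * ‖vf6 m Gr p s₀ C₀ t (Y t x)‖ ^ 2
        - ⟪Gr h (Y t x), vf6 m Gr p s₀ C₀ t (Y t x)⟫_ℝ ^ 2) - ‖Hs h t (Y t x)‖ ^ 2
    rw [← hx]
    rfl
  have heq2 : ∀ᵐ z ∂((volume.restrict (Ioc s 1)).prod m),
      bf6 m Gr HO Hs κ p s₀ C₀ Y h z.1 z.2 = β z.1 z.2 := by
    have h2 : ∀ᵐ z ∂((volume.restrict (Ioc s 1)).prod m),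
        HO h (Y z.1 z.2) (Gr (dc m p s₀ C₀) (Y z.1 z.2)) = hT.hm.mk _ (Y z.1 z.2) :=
      ae_TY (p := fun _ y => HO h y (Gr (dc m p s₀ C₀) y) = hT.hm.mk _ y) hF.meas hcomp
        (Measure.quasiMeasurePreserving_snd.ae hmk)
    filter_upwards [h2] with z hz
    show bf6 m Gr HO Hs κ p s₀ C₀ Y h z.1 z.2 =
      2 * ⟪Hs h z.1 (Y z.1 z.2), cz6 p s₀ C₀ z.1 (Y z.1 z.2) • hT.hm.mk _ (Y z.1 z.2)⟫_ℝ
      - κ * (‖Gr h (Y z.1 z.2)‖ ^ 2 * ‖vf6 m Gr p s₀ C₀ z.1 (Y z.1 z.2)‖ ^ 2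
        - ⟪Gr h (Y z.1 z.2), vf6 m Gr p s₀ C₀ z.1 (Y z.1 z.2)⟫_ℝ ^ 2)
        - ‖Hs h z.1 (Y z.1 z.2)‖ ^ 2
    rw [← hz]
    rfl
  have hle : (volume.restrict (Ioo s 1)).prod m ≤ (volume.restrict (Ioc s 1)).prod m :=
    Measure.prod_mono (Measure.restrict_mono Ioo_subset_Ioc_self le_rfl) le_rfl
  have iβ : Integrable (Function.uncurry β) ((volume.restrict (Ioo s 1)).prod m) :=
    (hI.b.congr heq2).mono_measure hle
  have iq : ∀ᵐ t ∂(volume.restrict (Ioo s 1)), Integrable (qf6 Gr Hs Y h t) m :=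
    (hI.q.mono_measure hle).prod_right_ae
  have key := loc_exp (s := s) (q := qf6 Gr Hs Y h) (β := β) hC hBE hyp.heat mq.measurable
    mβ.measurable iq iβ ?_
  · -- back to `bf6`
    have hsw : ∀ᵐ x ∂m, ∀ᵐ r ∂(volume.restrict (Ioc s 1)),
        bf6 m Gr HO Hs κ p s₀ C₀ Y h r x = β r x := by
      have h3 : ∀ᵐ z ∂(m.prod (volume.restrict (Ioc s 1))),
          bf6 m Gr HO Hs κ p s₀ C₀ Y h z.2 z.1 = β z.2 z.1 :=
        Measure.measurePreserving_swap.quasiMeasurePreserving.ae heq2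
      exact Measure.ae_ae_of_ae_prod h3
    filter_upwards [key, hsw] with x hx hx2
    filter_upwards [hx, ae_restrict_mem measurableSet_Ioo] with a ha ha1
    filter_upwards [ha, ae_restrict_mem measurableSet_Ioo] with b hb hb1 hab
    refine (hb hab).trans (le_of_eq ?_)
    refine integral_congr_ae ?_
    have h4 : ∀ᵐ r ∂(volume.restrict (Ioc a b)), bf6 m Gr HO Hs κ p s₀ C₀ Y h r x = β r x :=
      ae_restrict_of_ae_restrict_of_subset (Ioc_subset_Ioc ha1.1.le hb1.2.le) hx2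
    filter_upwards [h4] with r hr
    rw [hr]
  · intro l hl
    filter_upwards [hR l hl, ae_restrict_mem measurableSet_Ioo] with a ha ha1
    filter_upwards [ha, ae_restrict_mem measurableSet_Ioo] with b hb hb1 hab
    refine (hb hab).trans (le_of_eq ?_)
    refine setIntegral_congr_fun measurableSet_Ioc fun r hr => ?_
    refine integral_congr_ae ?_
    filter_upwards [heq r ⟨ha1.1.trans hr.1, hr.2.trans hb1.2.le⟩] with x hx
    rw [hx]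

end lev

/-- **Block C6**, from the three pieces. -/
theorem blk_C6_of (hss : Pc6_ss.{u}) (hfin : Pc6_fin.{u}) (hric : Pc6_ric.{u}) : Blk_C6.{u} := by
  intro M _ _ _ _ _ m K N κ P p s₀ C₀ hyp E _ _ _ Gr V D HO e hE u φ hA hB U hU φ₀ L B R₀ c ρ R Y
    hPot hLO hLim hMult hMaps hF hSt Hs Λ hH
  haveI : SigmaFinite m := H183.sigmaFinite_of_balls' hyp.std.hfin p
  have hint : ∀ h ∈ (sob m).TestI, ∀ s ∈ Ioo (0 : ℝ) 1, Int6 m Gr HO Hs κ p s₀ C₀ Y h s := by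
    intro h hh s hs
    obtain ⟨L', G', hT⟩ := exists_St6 hyp hE hh
    exact int6 hyp hF hH hT hh hs
  have hre : ∀ h ∈ (sob m).TestI, ∀ s ∈ Ioo (0 : ℝ) 1, RicInt6 m Gr HO Hs κ p s₀ C₀ Y h s ∧
      EndInt6 m Gr HO Hs κ p s₀ C₀ Y h s := fun h hh s hs =>
    ricInt6 hyp hE hA hB hU hF hSt hH hh hs fun l hl =>
      hss M m K N κ P p s₀ C₀ hyp E Gr V D HO e hE u φ hA hB l hl h hh
  have hrr : ∀ h ∈ (sob m).TestI, _ := fun h hh =>
    hric M m K N κ P p s₀ C₀ hyp E Gr V D HO e hE _ ρ R Y Hs hLim hMaps hF h hh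
      fun s hs => ric_loc hyp hE hF hH hh hs (hre h hh s hs).1
  refine ⟨fun h hh => (hrr h hh).1, fun h hh => (hrr h hh).2, fun h hh w hw hw0 => ?_⟩
  exact hfin M m K N κ P p s₀ C₀ hyp E Gr V D HO e hE _ ρ R Y Hs hLim hMaps hF h hh
    (fun s hs => hint h hh s hs) (fun s hs => (hre h hh s hs).2) w hw hw0

end Vale.Agent.P233.H249
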