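import Vale.Agent.P233.H249.If6
import Vale.Agent.P233.H183.Sec

/-! P233, block C6 (helper249): the piece `Pc6_ric`. -/

set_option linter.all false

open MeasureTheory Filter Topology Set
open scoped ENNReal NNReal InnerProductSpace

universe u

namespace Vale.Agent.P233.H249

open Vale.Agent.P233.PA (en OutA PotLim)
open Vale.Agent.P233.PC

/-- from `(s,1)`, `s > 0`, to `(0,1]` -/
theorem ae_pair_of {Q : ℝ → ℝ → Prop}
    (h : ∀ k : ℕ, ∀ᵐ a ∂(volume.restrict (Ioo ((k : ℝ) + 2)⁻¹ 1)),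
      ∀ᵐ b ∂(volume.restrict (Ioo ((k : ℝ) + 2)⁻¹ 1)), a < b → Q a b) :
    ∀ᵐ a ∂(volume.restrict (Ioc (0 : ℝ) 1)), ∀ᵐ b ∂(volume.restrict (Ioc (0 : ℝ) 1)),
      a < b → Q a b := by
  have h1 : ∀ᵐ a ∂(volume : Measure ℝ), ∀ k : ℕ, a ∈ Ioo ((k : ℝ) + 2)⁻¹ 1 →
      ∀ᵐ b ∂(volume.restrict (Ioo ((k : ℝ) + 2)⁻¹ 1)), a < b → Q a b := by
    rw [ae_all_iff]
    intro k
    exact (ae_restrict_iff' measurableSet_Ioo).1 (h k)
  have hn1 : ∀ᵐ b ∂(volume : Measure ℝ), b ≠ 1 := by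
    rw [ae_iff]
    simp
  rw [ae_restrict_iff' measurableSet_Ioc]
  filter_upwards [h1, hn1] with a ha hne ha0
  have ha1 : a < 1 := lt_of_le_of_ne ha0.2 hne
  obtain ⟨k, hk⟩ := exists_nat_gt a⁻¹
  have hka : ((k : ℝ) + 2)⁻¹ < a := by
    rw [inv_lt_comm₀ (by positivity) ha0.1]
    linarith
  have h2 := (ae_restrict_iff' measurableSet_Ioo).1 (ha k ⟨hka, ha1⟩)
  rw [ae_restrict_iff' measurableSet_Ioc]
  filter_upwards [h2, hn1] with b hb hneb hb0 hab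
  exact hb ⟨hka.trans hab, lt_of_le_of_ne hb0.2 hneb⟩ hab

theorem pc6_ric : Pc6_ric.{u} := by
  intro M _ _ _ _ _ m K N κ P p s₀ C₀ hyp E _ _ _ Gr V D HO e hE φ ρ R Y Hs hLim hMaps hF h hh hloc
  haveI : SigmaFinite m := H183.sigmaFinite_of_balls' hyp.std.hfin p
  have hd := H183.dc_mem_A hyp.std.hfin p s₀ C₀
  have hsk : ∀ k : ℕ, ((k : ℝ) + 2)⁻¹ ∈ Ioo (0 : ℝ) 1 := fun k => by
    refine ⟨by positivity, inv_lt_one_of_one_lt₀ ?_⟩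
    have : (0 : ℝ) ≤ k := Nat.cast_nonneg k
    linarith
  have hall : ∀ᵐ x ∂m, ∀ k : ℕ, ∀ᵐ a ∂(volume.restrict (Ioo ((k : ℝ) + 2)⁻¹ 1)),
        ∀ᵐ b ∂(volume.restrict (Ioo ((k : ℝ) + 2)⁻¹ 1)), a < b →
        qf6 Gr Hs Y h b x - qf6 Gr Hs Y h a x
          ≤ ∫ r in Ioc a b, bf6 m Gr HO Hs κ p s₀ C₀ Y h r x :=
    ae_all_iff.2 fun k => hloc _ (hsk k)
  have hcz := H183.cz_flow hyp.hs hyp.hC0 hF
  -- `|∇d| = 1` along the flow
  have hu : ∀ᵐ y ∂m, dist p y < r1 s₀ C₀ → ‖Gr (dc m p s₀ C₀) y‖ ^ 2 = 1 := by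
    filter_upwards [hLim.unit, hE.stat.grad.norm_sq hd.1] with y a1 a2 hy
    rw [a2, a1 hy]
  have hunit : ∀ᵐ x ∂m, ∀ k : ℕ, ∀ᵐ t ∂(volume.restrict (Ioc ((k : ℝ) + 2)⁻¹ 1)),
      dist p (Y t x) < r1 s₀ C₀ → ‖Gr (dc m p s₀ C₀) (Y t x)‖ ^ 2 = 1 := by
    refine ae_all_iff.2 fun k => ?_
    have h1 : ∀ᵐ z ∂((volume.restrict (Ioc ((k : ℝ) + 2)⁻¹ 1)).prod m),
        dist p (Y z.1 z.2) < r1 s₀ C₀ → ‖Gr (dc m p s₀ C₀) (Y z.1 z.2)‖ ^ 2 = 1 :=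
      (H183.flow_qmp_prod hF hyp.std.hN (hsk k).1 le_rfl).ae hu
    have h3 : ∀ᵐ z ∂(m.prod (volume.restrict (Ioc ((k : ℝ) + 2)⁻¹ 1))),
        dist p (Y z.2 z.1) < r1 s₀ C₀ → ‖Gr (dc m p s₀ C₀) (Y z.2 z.1)‖ ^ 2 = 1 :=
      Measure.measurePreserving_swap.quasiMeasurePreserving.ae h1
    exact Measure.ae_ae_of_ae_prod h3
  constructor
  · filter_upwards [hall, hcz, hunit, hF.rad] with x a1 a2 a3 a4 hx
    refine ae_pair_of (Q := fun s t => ⟪Hs h t (Y t x), Gr h (Y t x)⟫_ℝ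
      - ⟪Hs h s (Y s x), Gr h (Y s x)⟫_ℝ ≤ ∫ τ in s..t, (2 * spd1 p s₀ x *
                ⟪Hs h τ (Y τ x), HO h (Y τ x) (Gr (dc m p s₀ C₀) (Y τ x))⟫_ℝ
            - ‖Hs h τ (Y τ x)‖ ^ 2 - κ * spd1 p s₀ x ^ 2 * (‖Gr h (Y τ x)‖ ^ 2
                - ⟪Gr h (Y τ x), Gr (dc m p s₀ C₀) (Y τ x)⟫_ℝ ^ 2))) fun k => ?_
    filter_upwards [a1 k, ae_restrict_mem measurableSet_Ioo] with a ha ha1
    filter_upwards [ha, ae_restrict_mem measurableSet_Ioo] with b hb hb1 hab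
    refine (hb hab).trans (le_of_eq ?_)
    rw [intervalIntegral.integral_of_le hab.le]
    refine integral_congr_ae ?_
    have h5 := ae_restrict_of_ae_restrict_of_subset (Ioc_subset_Ioc ha1.1.le hb1.2.le) (a3 k)
    filter_upwards [h5, ae_restrict_mem measurableSet_Ioc] with r hr hr1
    have hr0 : r ∈ Icc (0 : ℝ) 1 :=
      ⟨(hsk k).1.le.trans (ha1.1.le.trans hr1.1.le), hr1.2.trans hb1.2.le⟩
    have hcr : cz6 p s₀ C₀ r (Y r x) = spd1 p s₀ x := a2.1 hx r hr0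
    have hdr : dist p (Y r x) < r1 s₀ C₀ := by
      rw [a4 hx r hr0]
      unfold spd1
      have h6 : (r + s₀) / (1 + s₀) ≤ 1 := by
        rw [div_le_one (by linarith [hyp.hs])]
        linarith [hr0.2]
      have h7 : (r + s₀) * (dist p x / (1 + s₀)) = (r + s₀) / (1 + s₀) * dist p x := by ring
      rw [h7]
      calc (r + s₀) / (1 + s₀) * dist p x ≤ 1 * dist p x := by gcongr
        _ < r1 s₀ C₀ := by rw [one_mul]; exact hx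
    have hn := hr hdr
    show df6 m Gr HO Hs κ p s₀ C₀ Y h r x - ‖Hs h r (Y r x)‖ ^ 2 = _
    unfold df6 wf6 vf6
    rw [hcr, inner_smul_right, inner_smul_right, norm_smul, mul_pow ‖spd1 p s₀ x‖, hn,
      Real.norm_eq_abs, sq_abs]
    ring
  · filter_upwards [hall, hcz] with x a1 a2 hx
    refine ae_pair_of (Q := fun s t => ⟪Hs h t x, Gr h x⟫_ℝ - ⟪Hs h s x, Gr h x⟫_ℝ ≤
      ∫ τ in s..t, - ‖Hs h τ x‖ ^ 2) fun k => ?_
    filter_upwards [a1 k, ae_restrict_mem measurableSet_Ioo] with a ha ha1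
    filter_upwards [ha, ae_restrict_mem measurableSet_Ioo] with b hb hb1 hab
    have hY : ∀ t, Y t x = x := hF.off x hx
    have h8 := hb hab
    unfold qf6 at h8
    rw [hY, hY] at h8
    refine h8.trans (le_of_eq ?_)
    rw [intervalIntegral.integral_of_le hab.le]
    refine setIntegral_congr_fun measurableSet_Ioc fun r hr1 => ?_
    have hr0 : r ∈ Icc (0 : ℝ) 1 :=
      ⟨(hsk k).1.le.trans (ha1.1.le.trans hr1.1.le), hr1.2.trans hb1.2.le⟩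
    have hcr : cz6 p s₀ C₀ r (Y r x) = 0 := a2.2 hx r hr0
    show df6 m Gr HO Hs κ p s₀ C₀ Y h r x - ‖Hs h r (Y r x)‖ ^ 2 = - ‖Hs h r x‖ ^ 2
    unfold df6 wf6 vf6
    rw [hcr, zero_smul, zero_smul, inner_zero_right, inner_zero_right, norm_zero, hY]
    ring

end Vale.Agent.P233.H249
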