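import Vale.Agent.P233.H249.BlkC6
import Vale.Agent.P233.H249.PcRic
import Vale.Agent.P233.H545.PcSS
import Vale.Agent.P233.H788.PcFin

/-! P233, block C6 of `Gig/IfC`, unconditional (helper249; pieces `Pc6_ss` by helper545 and
`Pc6_fin` by helper788). -/

universe u

namespace Vale.Agent.P233.H249

theorem blk_C6 : PC.Blk_C6.{u} := blk_C6_of H545.pc6_ss H788.pc6_fin pc6_ric

end Vale.Agent.P233.H249
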