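import Vale.Agent.P233.H249.If6

/-! P233, block C6: static estimates at one level, and continuity in time of weighted pairings. -/

set_option linter.all false

open MeasureTheory Filter Topology Set
open scoped ENNReal NNReal InnerProductSpace

universe u

namespace Vale.Agent.P233.H249

variable {M : Type u} [MeasurableSpace M] {m : Measure M}
variable {E : Type*} [NormedAddCommGroup E] [InnerProductSpace ℝ E]

/-- weighted pairings as integrals of functions -/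
theorem I_rip (ρ : M →ₘ[m] ℝ) {F G : M → E} (hF : AEStronglyMeasurable F m)
    (hG : AEStronglyMeasurable G m) : I (ρ * ipE m F G) = ∫ x, ρ x * ⟪F x, G x⟫_ℝ ∂m := by
  unfold I
  refine integral_congr_ae ?_
  filter_upwards [mul_ae ρ (ipE m F G), ipE_ae hF hG] with x a1 a2
  rw [a1, a2]

/-- a bounded nonnegative weight -/
structure Wt (m : Measure M) (C : ℝ) (ρ : M →ₘ[m] ℝ) : Prop where
  nonneg : ∀ᵐ x ∂m, 0 ≤ ρ x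
  le : ∀ᵐ x ∂m, ρ x ≤ C

variable {ρ : M →ₘ[m] ℝ} {C₁ : ℝ}

theorem Wt.abs (h : Wt m C₁ ρ) : ∀ᵐ x ∂m, ‖ρ x‖ ≤ C₁ := by
  filter_upwards [h.nonneg, h.le] with x a1 a2
  rwa [Real.norm_eq_abs, abs_of_nonneg a1]

theorem Wt.int (h : Wt m C₁ ρ) {f : M → ℝ} (hf : Integrable f m) :
    Integrable (fun x => ρ x * f x) m := hf.bdd_mul ρ.aestronglyMeasurable h.abs

theorem Wt.int_le (h : Wt m C₁ ρ) {f : M → ℝ} (hf : Integrable f m) (h0 : ∀ᵐ x ∂m, 0 ≤ f x) :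
    ∫ x, ρ x * f x ∂m ≤ C₁ * ∫ x, f x ∂m := by
  rw [← integral_const_mul]
  refine integral_mono_ae (h.int hf) (hf.const_mul _) ?_
  filter_upwards [h.le, h0] with x a1 a2
  exact mul_le_mul_of_nonneg_right a1 a2

theorem Wt.int_nonneg (h : Wt m C₁ ρ) {f : M → ℝ} (h0 : ∀ᵐ x ∂m, 0 ≤ f x) :
    0 ≤ ∫ x, ρ x * f x ∂m := by
  refine integral_nonneg_of_ae ?_
  filter_upwards [h.nonneg, h0] with x a1 a2
  exact mul_nonneg a1 a2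

/-- domination of a weighted integral -/
theorem Wt.mono (h : Wt m C₁ ρ) {f g : M → ℝ} (hf : Integrable f m) (hg : Integrable g m)
    (hfg : ∀ᵐ x ∂m, f x ≤ g x) : ∫ x, ρ x * f x ∂m ≤ ∫ x, ρ x * g x ∂m := by
  refine integral_mono_ae (h.int hf) (h.int hg) ?_
  filter_upwards [h.nonneg, hfg] with x a1 a2
  exact mul_le_mul_of_nonneg_left a2 a1

/-- Young's inequality for weighted pairings -/
theorem young (h : Wt m C₁ ρ) {F G : M → E} (hF : MemLp F 2 m) (hG : MemLp G 2 m) {η : ℝ}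
    (hη : 0 < η) : |∫ x, ρ x * ⟪F x, G x⟫_ℝ ∂m| ≤
      η / 2 * (∫ x, ρ x * ‖F x‖ ^ 2 ∂m) + (2 * η)⁻¹ * ∫ x, ρ x * ‖G x‖ ^ 2 ∂m := by
  have i1 := h.int (int_inner2 hF hG)
  have i2 := h.int (n2_int hF)
  have i3 := h.int (n2_int hG)
  rw [← integral_const_mul, ← integral_const_mul, ← integral_add (i2.const_mul _) (i3.const_mul _)]
  refine (abs_integral_le_integral_abs).trans ?_
  refine integral_mono_ae i1.abs ((i2.const_mul _).add (i3.const_mul _)) ?_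
  filter_upwards [h.nonneg] with x hx
  show |ρ x * ⟪F x, G x⟫_ℝ| ≤ η / 2 * (ρ x * ‖F x‖ ^ 2) + (2 * η)⁻¹ * (ρ x * ‖G x‖ ^ 2)
  rw [abs_mul, abs_of_nonneg hx]
  have h1 : |⟪F x, G x⟫_ℝ| ≤ ‖F x‖ * ‖G x‖ := abs_real_inner_le_norm _ _
  have h2 : ‖F x‖ * ‖G x‖ ≤ η / 2 * ‖F x‖ ^ 2 + (2 * η)⁻¹ * ‖G x‖ ^ 2 := by
    have h3 : 0 ≤ (η * ‖F x‖ - ‖G x‖) ^ 2 := sq_nonneg _
    have h4 : η / 2 * ‖F x‖ ^ 2 + (2 * η)⁻¹ * ‖G x‖ ^ 2 - ‖F x‖ * ‖G x‖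
        = (2 * η)⁻¹ * (η * ‖F x‖ - ‖G x‖) ^ 2 := by
      field_simp
      ring
    have h5 : 0 ≤ (2 * η)⁻¹ * (η * ‖F x‖ - ‖G x‖) ^ 2 := by positivity
    linarith
  calc ρ x * |⟪F x, G x⟫_ℝ| ≤ ρ x * (η / 2 * ‖F x‖ ^ 2 + (2 * η)⁻¹ * ‖G x‖ ^ 2) :=
        mul_le_mul_of_nonneg_left (h1.trans h2) hx
    _ = _ := by ring

/-- `∫ ρ A a` for `A ∈ L¹`, `0 ≤ a ≤ L` -/
theorem int_A_norm (hρ : Wt m C₁ ρ) {A : M → ℝ} (hA : Integrable A m) (hA0 : ∀ x, 0 ≤ A x)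
    {a : M → ℝ} (ham : AEStronglyMeasurable a m) (ha0 : ∀ᵐ x ∂m, 0 ≤ a x) {L : ℝ}
    (haL : ∀ᵐ x ∂m, a x ≤ L) : Integrable (fun x => A x * a x) m ∧
      ∫ x, ρ x * (A x * a x) ∂m ≤ C₁ * (L * ∫ x, A x ∂m) := by
  have i1 : Integrable (fun x => A x * a x) m := by
    refine hA.mul_bdd (c := L) ham ?_
    filter_upwards [ha0, haL] with x a1 a2
    rwa [Real.norm_eq_abs, abs_of_nonneg a1]
  refine ⟨i1, ?_⟩
  refine (hρ.int_le i1 ?_).trans ?_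
  · filter_upwards [ha0] with x hx using mul_nonneg (hA0 x) hx
  · by_cases hC : 0 ≤ C₁
    · refine mul_le_mul_of_nonneg_left ?_ hC
      rw [← integral_const_mul]
      refine integral_mono_ae i1 (hA.const_mul L) ?_
      filter_upwards [haL] with x hx
      show A x * a x ≤ L * A x
      rw [mul_comm]
      exact mul_le_mul_of_nonneg_right hx (hA0 x)
    · -- `C₁ < 0` forces `m = 0`
      have h0 : ∀ᵐ x ∂m, False := by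
        filter_upwards [hρ.nonneg, hρ.le] with x a1 a2
        exact hC (a1.trans a2)
      have hm : m = 0 := by
        rw [ae_iff] at h0
        simpa using h0
      subst hm
      simp

/-- the mixed term -/
theorem P_est (hρ : Wt m C₁ ρ) {F G w : M → E} (hF : MemLp F 2 m) (hG : MemLp G 2 m)
    (hw : MemLp w 2 m) {B : M → ℝ} (hB : Integrable B m)
    (hGw : ∀ᵐ x ∂m, ‖G x - w x‖ ^ 2 ≤ B x) {η : ℝ} (hη : 0 < η) :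
    |(∫ x, ρ x * ⟪G x, F x⟫_ℝ ∂m) - ∫ x, ρ x * ⟪F x, w x⟫_ℝ ∂m| ≤
      η / 2 * (∫ x, ρ x * ‖F x‖ ^ 2 ∂m) + (2 * η)⁻¹ * ∫ x, ρ x * B x ∂m := by
  have hGw2 : MemLp (fun x => G x - w x) 2 m := hG.sub hw
  have e : (∫ x, ρ x * ⟪G x, F x⟫_ℝ ∂m) - ∫ x, ρ x * ⟪F x, w x⟫_ℝ ∂m
      = ∫ x, ρ x * ⟪F x, G x - w x⟫_ℝ ∂m := by
    rw [← integral_sub (hρ.int (int_inner2 hG hF)) (hρ.int (int_inner2 hF hw))]
    refine integral_congr_ae (Eventually.of_forall fun x => ?_)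
    show ρ x * ⟪G x, F x⟫_ℝ - ρ x * ⟪F x, w x⟫_ℝ = ρ x * ⟪F x, G x - w x⟫_ℝ
    rw [inner_sub_right, real_inner_comm (F x) (G x)]
    ring
  rw [e]
  refine (young hρ hF hGw2 hη).trans ?_
  have h1 : ∫ x, ρ x * ‖G x - w x‖ ^ 2 ∂m ≤ ∫ x, ρ x * B x ∂m := hρ.mono (n2_int hGw2) hB hGw
  have h2 : 0 ≤ (2 * η)⁻¹ := by positivity
  nlinarith [mul_le_mul_of_nonneg_left h1 h2]

/-- bound of the mixed term -/
theorem P_bd (hρ : Wt m C₁ ρ) {F G : M → E} (hF : MemLp F 2 m) (hG : MemLp G 2 m)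
    {B : M → ℝ} (hB : Integrable B m)
    (hGB : ∀ᵐ x ∂m, ‖G x‖ ^ 2 ≤ B x) {η : ℝ} (hη : 0 < η) :
    |∫ x, ρ x * ⟪G x, F x⟫_ℝ ∂m| ≤
      η / 2 * (∫ x, ρ x * ‖F x‖ ^ 2 ∂m) + (2 * η)⁻¹ * ∫ x, ρ x * B x ∂m := by
  have e : (∫ x, ρ x * ⟪G x, F x⟫_ℝ ∂m) = ∫ x, ρ x * ⟪F x, G x⟫_ℝ ∂m := by
    refine integral_congr_ae (Eventually.of_forall fun x => ?_)
    show ρ x * ⟪G x, F x⟫_ℝ = ρ x * ⟪F x, G x⟫_ℝ
    rw [real_inner_comm (F x) (G x)]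
  rw [e]
  refine (young hρ hF hG hη).trans ?_
  have h1 : ∫ x, ρ x * ‖G x‖ ^ 2 ∂m ≤ ∫ x, ρ x * B x ∂m := hρ.mono (n2_int hG) hB hGB
  have h2 : 0 ≤ (2 * η)⁻¹ := by positivity
  nlinarith [mul_le_mul_of_nonneg_left h1 h2]

/-- `|x|²|a|² - ⟨x,a⟩²` -/
noncomputable def Xs (x a : E) : ℝ := ‖x‖ ^ 2 * ‖a‖ ^ 2 - ⟪x, a⟫_ℝ ^ 2

theorem Xs_nonneg (x a : E) : 0 ≤ Xs x a := by
  unfold Xs
  have h1 : |⟪x, a⟫_ℝ| ≤ ‖x‖ * ‖a‖ := abs_real_inner_le_norm _ _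
  have h2 : ⟪x, a⟫_ℝ ^ 2 ≤ (‖x‖ * ‖a‖) ^ 2 := by
    rw [← sq_abs]
    gcongr
  nlinarith

theorem Xs_le (x a : E) : Xs x a ≤ ‖x‖ ^ 2 * ‖a‖ ^ 2 := by
  unfold Xs
  nlinarith [sq_nonneg ⟪x, a⟫_ℝ]

theorem Xs_sub (x a c : E) {L η : ℝ} (ha : ‖a‖ ^ 2 ≤ L) (hc : ‖c‖ ^ 2 ≤ L) (hη : 0 < η) :
    |Xs x a - Xs x c| ≤ ‖x‖ ^ 2 * (4 * L * η + η⁻¹ * ‖a - c‖ ^ 2) := by
  have e1 : Xs x a - Xs x c = ‖x‖ ^ 2 * ⟪a - c, a + c⟫_ℝ - ⟪x, a - c⟫_ℝ * ⟪x, a + c⟫_ℝ := by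
    unfold Xs
    have : ⟪a - c, a + c⟫_ℝ = ‖a‖ ^ 2 - ‖c‖ ^ 2 := by
      rw [inner_sub_left, inner_add_right, inner_add_right, real_inner_self_eq_norm_sq,
        real_inner_self_eq_norm_sq, real_inner_comm c a]
      ring
    rw [this, inner_sub_right, inner_add_right]
    ring
  have h1 : |⟪a - c, a + c⟫_ℝ| ≤ ‖a - c‖ * ‖a + c‖ := abs_real_inner_le_norm _ _
  have h2 : |⟪x, a - c⟫_ℝ| ≤ ‖x‖ * ‖a - c‖ := abs_real_inner_le_norm _ _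
  have h3 : |⟪x, a + c⟫_ℝ| ≤ ‖x‖ * ‖a + c‖ := abs_real_inner_le_norm _ _
  have h4 : |Xs x a - Xs x c| ≤ 2 * ‖x‖ ^ 2 * (‖a - c‖ * ‖a + c‖) := by
    rw [e1]
    refine (abs_sub _ _).trans ?_
    rw [abs_mul, abs_mul, abs_of_nonneg (by positivity : (0 : ℝ) ≤ ‖x‖ ^ 2)]
    have h5 : |⟪x, a - c⟫_ℝ| * |⟪x, a + c⟫_ℝ| ≤ (‖x‖ * ‖a - c‖) * (‖x‖ * ‖a + c‖) :=
      mul_le_mul h2 h3 (abs_nonneg _) (by positivity)
    have h6 : ‖x‖ ^ 2 * |⟪a - c, a + c⟫_ℝ| ≤ ‖x‖ ^ 2 * (‖a - c‖ * ‖a + c‖) :=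
      mul_le_mul_of_nonneg_left h1 (by positivity)
    nlinarith
  have h7 : ‖a + c‖ ^ 2 ≤ 4 * L := by
    have h8 := norm_add_le a c
    have h9 : ‖a + c‖ ^ 2 ≤ (‖a‖ + ‖c‖) ^ 2 := by gcongr
    nlinarith [sq_nonneg (‖a‖ - ‖c‖)]
  have h8 : 2 * (‖a - c‖ * ‖a + c‖) ≤ 4 * L * η + η⁻¹ * ‖a - c‖ ^ 2 := by
    have h9 : 2 * (‖a - c‖ * ‖a + c‖) ≤ η * ‖a + c‖ ^ 2 + η⁻¹ * ‖a - c‖ ^ 2 := by
      have h10 : η * ‖a + c‖ ^ 2 + η⁻¹ * ‖a - c‖ ^ 2 - 2 * (‖a - c‖ * ‖a + c‖)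
          = η⁻¹ * (η * ‖a + c‖ - ‖a - c‖) ^ 2 := by
        field_simp
        ring
      have h11 : 0 ≤ η⁻¹ * (η * ‖a + c‖ - ‖a - c‖) ^ 2 := by positivity
      linarith
    nlinarith
  calc |Xs x a - Xs x c| ≤ 2 * ‖x‖ ^ 2 * (‖a - c‖ * ‖a + c‖) := h4
    _ = ‖x‖ ^ 2 * (2 * (‖a - c‖ * ‖a + c‖)) := by ring
    _ ≤ _ := mul_le_mul_of_nonneg_left h8 (by positivity)

/-- the curvature term -/
theorem S_est (hρ : Wt m C₁ ρ) {X a c : M → E} (hX : MemLp X 2 m)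
    (ham : AEStronglyMeasurable a m) (hcm : AEStronglyMeasurable c m) {L : ℝ}
    (ha : ∀ᵐ x ∂m, ‖a x‖ ^ 2 ≤ L) (hc : ∀ᵐ x ∂m, ‖c x‖ ^ 2 ≤ L) {B : M → ℝ}
    (hB : Integrable B m) (hB1 : ∀ᵐ x ∂m, ‖X x‖ ^ 2 * ‖a x - c x‖ ^ 2 ≤ B x) {η : ℝ} (hη : 0 < η) :
    |(∫ x, ρ x * Xs (X x) (a x) ∂m) - ∫ x, ρ x * Xs (X x) (c x) ∂m| ≤
      4 * L * η * (∫ x, ρ x * ‖X x‖ ^ 2 ∂m) + η⁻¹ * ∫ x, ρ x * B x ∂m := by
  have iX := n2_int hX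
  have hint : ∀ {b : M → E}, AEStronglyMeasurable b m → (∀ᵐ x ∂m, ‖b x‖ ^ 2 ≤ L) →
      Integrable (fun x => Xs (X x) (b x)) m := by
    intro b hbm hb
    have i1 : Integrable (fun x => L * ‖X x‖ ^ 2) m := iX.const_mul L
    refine i1.mono' (((hX.1.norm.pow 2).mul (hbm.norm.pow 2)).sub ((hX.1.inner hbm).pow 2)) ?_
    filter_upwards [hb] with x hx
    rw [Real.norm_eq_abs, abs_of_nonneg (Xs_nonneg _ _)]
    refine (Xs_le _ _).trans ?_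
    nlinarith [sq_nonneg ‖X x‖]
  have ia := hint ham ha
  have ic := hint hcm hc
  rw [← integral_sub (hρ.int ia) (hρ.int ic), ← integral_const_mul, ← integral_const_mul,
    ← integral_add ((hρ.int iX).const_mul _) ((hρ.int hB).const_mul _)]
  refine abs_integral_le_integral_abs.trans ?_
  refine integral_mono_ae ((hρ.int ia).sub (hρ.int ic)).abs
    (((hρ.int iX).const_mul _).add ((hρ.int hB).const_mul _)) ?_
  filter_upwards [ha, hc, hB1, hρ.nonneg] with x a1 a2 a3 a4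
  show |ρ x * Xs (X x) (a x) - ρ x * Xs (X x) (c x)|
    ≤ 4 * L * η * (ρ x * ‖X x‖ ^ 2) + η⁻¹ * (ρ x * B x)
  rw [← mul_sub, abs_mul, abs_of_nonneg a4]
  have h1 := Xs_sub (X x) (a x) (c x) a1 a2 hη
  have h2 : ‖X x‖ ^ 2 * (4 * L * η + η⁻¹ * ‖a x - c x‖ ^ 2)
      ≤ 4 * L * η * ‖X x‖ ^ 2 + η⁻¹ * B x := by
    have h3 : η⁻¹ * (‖X x‖ ^ 2 * ‖a x - c x‖ ^ 2) ≤ η⁻¹ * B x :=
      mul_le_mul_of_nonneg_left a3 (by positivity)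
    nlinarith
  calc ρ x * |Xs (X x) (a x) - Xs (X x) (c x)|
      ≤ ρ x * (4 * L * η * ‖X x‖ ^ 2 + η⁻¹ * B x) := mul_le_mul_of_nonneg_left (h1.trans h2) a4
    _ = _ := by ring

/-- bound of the curvature term -/
theorem S_bd (hρ : Wt m C₁ ρ) {X a : M → E} (hX : MemLp X 2 m)
    (ham : AEStronglyMeasurable a m) {L : ℝ} (ha : ∀ᵐ x ∂m, ‖a x‖ ^ 2 ≤ L) :
    Integrable (fun x => Xs (X x) (a x)) m ∧
    |∫ x, ρ x * Xs (X x) (a x) ∂m| ≤ L * ∫ x, ρ x * ‖X x‖ ^ 2 ∂m := by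
  have iX := n2_int hX
  have i1 : Integrable (fun x => L * ‖X x‖ ^ 2) m := iX.const_mul L
  have ia : Integrable (fun x => Xs (X x) (a x)) m := by
    refine i1.mono' (((hX.1.norm.pow 2).mul (ham.norm.pow 2)).sub ((hX.1.inner ham).pow 2)) ?_
    filter_upwards [ha] with x hx
    rw [Real.norm_eq_abs, abs_of_nonneg (Xs_nonneg _ _)]
    refine (Xs_le _ _).trans ?_
    nlinarith [sq_nonneg ‖X x‖]
  refine ⟨ia, ?_⟩
  rw [abs_of_nonneg (hρ.int_nonneg (Eventually.of_forall fun x => Xs_nonneg _ _)),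
    ← integral_const_mul]
  refine integral_mono_ae (hρ.int ia) ((hρ.int iX).const_mul L) ?_
  filter_upwards [hρ.nonneg, ha] with x a1 a2
  show ρ x * Xs (X x) (a x) ≤ L * (ρ x * ‖X x‖ ^ 2)
  have h1 := Xs_le (X x) (a x)
  have h2 : ‖X x‖ ^ 2 * ‖a x‖ ^ 2 ≤ L * ‖X x‖ ^ 2 := by nlinarith [sq_nonneg ‖X x‖]
  nlinarith [mul_le_mul_of_nonneg_left (h1.trans h2) a1]

/-! ### continuity in time -/

/-- `L²` continuous curves of fields, with a bounded `L²`-continuous weight: the weighted pairing is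
continuous. -/
theorem cont_rip {S : Set ℝ} {ρ : ℝ → M →ₘ[m] ℝ} {C₁ : ℝ} (hρ : ∀ t ∈ S, Wt m C₁ (ρ t))
    (hρ2 : ∀ s ∈ S, ∀ t ∈ S, MemLp (ρ s - ρ t : M →ₘ[m] ℝ) 2 m)
    (hρc : ∀ t ∈ S, Tendsto (fun s => I ((ρ s - ρ t) ^ 2)) (𝓝[S] t) (𝓝 0))
    {F G : ℝ → M → E} (hF : ∀ t ∈ S, MemLp (F t) 2 m)
    (hFc : ∀ t ∈ S, Tendsto (fun s => ∫ x, ‖F s x - F t x‖ ^ 2 ∂m) (𝓝[S] t) (𝓝 0))
    (hG : ∀ t ∈ S, MemLp (G t) 2 m)
    (hGc : ∀ t ∈ S, Tendsto (fun s => ∫ x, ‖G s x - G t x‖ ^ 2 ∂m) (𝓝[S] t) (𝓝 0)) :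
    ContinuousOn (fun t => I (ρ t * ipE m (F t) (G t))) S := by
  intro t ht
  refine Filter.tendsto_of_subseq_tendsto fun ns hns => ?_
  have hS : ∀ᶠ n in atTop, ns n ∈ S := (tendsto_nhdsWithin_iff.1 hns).2
  obtain ⟨n0, hn0⟩ := eventually_atTop.1 hS
  set ms : ℕ → ℝ := fun n => ns (n + n0) with hms
  have hmS : ∀ n, ms n ∈ S := fun n => hn0 _ (Nat.le_add_left _ _)
  have hmt : Tendsto ms atTop (𝓝[S] t) := hns.comp (tendsto_add_atTop_nat n0)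
  -- a.e. convergence of the weights along a subsequence
  have h1 : Tendsto (fun n => I ((ρ (ms n) - ρ t) ^ 2)) atTop (𝓝 0) := (hρc t ht).comp hmt
  have h1' : Tendsto (fun n => I ((ρ (ms n) - ρ t - 0) ^ 2)) atTop (𝓝 0) := by simpa using h1
  obtain ⟨ks, hks, hae⟩ := exists_subseq_of_I_sq (fun n => hρ2 _ (hmS n) t ht) mem_zero h1'
  have hTb : Tb (fun n => ρ (ms (ks n))) (ρ t) := by
    refine ⟨⟨C₁, fun n => ?_⟩, ?_⟩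
    · filter_upwards [(hρ _ (hmS (ks n))).abs] with x hx using hx
    · filter_upwards [hae, zero_ae (M := M) (m := m),
        ae_all_iff.2 fun n => sub_ae (ρ (ms (ks n))) (ρ t)] with x a1 a2 a3
      rw [a2] at a1
      have a4 := a1.add_const (ρ t x)
      rw [zero_add] at a4
      refine a4.congr fun n => ?_
      rw [a3 n]; ring
  have hTF : TE m (fun n => F (ms (ks n))) (F t) :=
    ⟨fun n => hF _ (hmS _), hF t ht, (hFc t ht).comp (hmt.comp hks.tendsto_atTop)⟩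
  have hTG : TE m (fun n => G (ms (ks n))) (G t) :=
    ⟨fun n => hG _ (hmS _), hG t ht, (hGc t ht).comp (hmt.comp hks.tendsto_atTop)⟩
  exact ⟨fun n => ks n + n0, TE.ip hTb hTF hTG⟩

end Vale.Agent.P233.H249
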