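import Vale.Agent.P233.Gig.Defs
import Mathlib.MeasureTheory.Function.ContinuousMapDense

/-! P233, block C6: measure theory of the space-time flow map, approximation of `L²` fields along
the flow by continuous fields, and lower semicontinuity of the quadratic term. -/

set_option linter.all false

open MeasureTheory Filter Topology Set
open scoped ENNReal NNReal InnerProductSpace

universe u

namespace Vale.Agent.P233.H249

section flow

variable {M : Type u} [MeasurableSpace M] {m : Measure M}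

/-- the space-time flow map -/
def TY (Y : ℝ → M → M) (z : ℝ × M) : ℝ × M := (z.1, Y z.1 z.2)

theorem TY_meas {Y : ℝ → M → M} (hY : Measurable fun z : ℝ × M => Y z.1 z.2) :
    Measurable (TY Y) := measurable_fst.prodMk hY

theorem TY_le [SFinite m] {Y : ℝ → M → M} (hY : Measurable fun z : ℝ × M => Y z.1 z.2) {s : ℝ}
    {c : ℝ≥0∞} (h : ∀ t ∈ Ioc s 1, ∀ A : Set M, MeasurableSet A → m (Y t ⁻¹' A) ≤ c * m A) :
    ((volume.restrict (Ioc s 1)).prod m).map (TY Y) ≤ c • (volume.restrict (Ioc s 1)).prod m := by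
  refine Measure.le_iff.2 fun A hA => ?_
  rw [Measure.map_apply (TY_meas hY) hA, Measure.prod_apply (TY_meas hY hA),
    Measure.smul_apply, Measure.prod_apply hA, smul_eq_mul,
    ← lintegral_const_mul _ (measurable_measure_prodMk_left hA)]
  refine lintegral_mono_ae ?_
  filter_upwards [ae_restrict_mem measurableSet_Ioc] with t ht
  exact h t ht _ (measurable_prodMk_left hA)

theorem memLp_TY [SFinite m] {E : Type*} [NormedAddCommGroup E] {Y : ℝ → M → M}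
    (hY : Measurable fun z : ℝ × M => Y z.1 z.2) {s : ℝ}
    {c : ℝ≥0∞} (hc : c ≠ ∞)
    (h : ∀ t ∈ Ioc s 1, ∀ A : Set M, MeasurableSet A → m (Y t ⁻¹' A) ≤ c * m A) {p : ℝ≥0∞}
    {F : ℝ × M → E} (hF : MemLp F p ((volume.restrict (Ioc s 1)).prod m)) :
    MemLp (fun z => F (TY Y z)) p ((volume.restrict (Ioc s 1)).prod m) := by
  have h1 : MemLp F p (((volume.restrict (Ioc s 1)).prod m).map (TY Y)) :=
    hF.of_measure_le_smul hc (TY_le hY h)
  exact h1.comp_of_map (TY_meas hY).aemeasurable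

theorem qmp_TY [SFinite m] {Y : ℝ → M → M}
    (hY : Measurable fun z : ℝ × M => Y z.1 z.2) {s : ℝ}
    {c : ℝ≥0∞}
    (h : ∀ t ∈ Ioc s 1, ∀ A : Set M, MeasurableSet A → m (Y t ⁻¹' A) ≤ c * m A) :
    Measure.QuasiMeasurePreserving (TY Y) ((volume.restrict (Ioc s 1)).prod m)
      ((volume.restrict (Ioc s 1)).prod m) :=
  ⟨TY_meas hY, (Measure.absolutelyContinuous_of_le_smul (TY_le hY h))⟩

/-- a null set is avoided along almost every curve -/
theorem ae_TY [SFinite m] {Y : ℝ → M → M}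
    (hY : Measurable fun z : ℝ × M => Y z.1 z.2) {s : ℝ}
    {c : ℝ≥0∞}
    (h : ∀ t ∈ Ioc s 1, ∀ A : Set M, MeasurableSet A → m (Y t ⁻¹' A) ≤ c * m A) {p : ℝ → M → Prop}
    (hp : ∀ᵐ z ∂((volume.restrict (Ioc s 1)).prod m), p z.1 z.2) :
    ∀ᵐ z ∂((volume.restrict (Ioc s 1)).prod m), p z.1 (Y z.1 z.2) :=
  (qmp_TY hY h).ae hp

end flow

/-! ### time integrals and space-time integrals -/

section Fub

variable {M : Type u} [MeasurableSpace M] {m : Measure M} [SFinite m] {s a b : ℝ} {F : ℝ × M → ℝ}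

theorem prodab_le (hsa : s ≤ a) (hb : b ≤ 1) :
    (volume.restrict (Ioc a b)).prod m ≤ (volume.restrict (Ioc s 1)).prod m :=
  Measure.prod_mono (Measure.restrict_mono (Ioc_subset_Ioc hsa hb) le_rfl) le_rfl

theorem fub (hF : Integrable F ((volume.restrict (Ioc s 1)).prod m)) (hsa : s ≤ a) (hab : a ≤ b)
    (hb : b ≤ 1) : IntervalIntegrable (fun t => ∫ x, F (t, x) ∂m) volume a b ∧
      ∫ t in a..b, ∫ x, F (t, x) ∂m = ∫ z, F z ∂((volume.restrict (Ioc a b)).prod m) := by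
  have h1 : Integrable F ((volume.restrict (Ioc a b)).prod m) := hF.mono_measure (prodab_le hsa hb)
  refine ⟨(intervalIntegrable_iff_integrableOn_Ioc_of_le hab).2 h1.integral_prod_left, ?_⟩
  rw [intervalIntegral.integral_of_le hab]
  exact (integral_prod _ h1).symm

end Fub

/-! ### approximation -/

section approx

variable {M : Type u} [MetricSpace M] [MeasurableSpace M] [BorelSpace M]
  [SecondCountableTopology M]
variable {E : Type*} [NormedAddCommGroup E] [InnerProductSpace ℝ E]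

/-- cut-off -/
noncomputable def cut (p : M) (k : ℝ) (y : M) : ℝ := max 0 (min 1 (k + 1 - dist p y))

omit [MeasurableSpace M] [BorelSpace M] [SecondCountableTopology M] in
theorem cut_cont (p : M) (k : ℝ) : Continuous (cut p k) := by
  unfold cut; fun_prop

omit [MeasurableSpace M] [BorelSpace M] [SecondCountableTopology M] in
theorem cut_mem (p : M) (k : ℝ) (y : M) : 0 ≤ cut p k y ∧ cut p k y ≤ 1 :=
  ⟨le_max_left _ _, max_le zero_le_one (min_le_left _ _)⟩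

omit [MeasurableSpace M] [BorelSpace M] [SecondCountableTopology M] in
theorem cut_one (p : M) (k : ℝ) {y : M} (h : dist p y ≤ k) : cut p k y = 1 := by
  unfold cut
  rw [min_eq_left (by linarith), max_eq_right zero_le_one]

omit [MeasurableSpace M] [BorelSpace M] [SecondCountableTopology M] in
theorem cut_zero (p : M) (k : ℝ) {y : M} (h : k + 1 ≤ dist p y) : cut p k y = 0 := by
  unfold cut
  exact max_eq_left ((min_le_right _ _).trans (by linarith))

/-- `L²` fields are approximated by bounded continuous fields that vanish outside a ball. -/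
theorem exists_approx (p : M) {ν : Measure (ℝ × M)}
    (hν : ∀ k : ℕ, ν ((univ : Set ℝ) ×ˢ Metric.ball p k) < ∞) {F : ℝ × M → E}
    (hF : MemLp F 2 ν) {η : ℝ} (hη : 0 < η) :
    ∃ Φ : ℝ × M → E, Continuous Φ ∧ (∃ B : ℝ, ∀ z, ‖Φ z‖ ≤ B) ∧
      (∃ R : ℝ, ∀ z, R ≤ dist p z.2 → Φ z = 0) ∧ MemLp Φ 2 ν ∧ ∫ z, ‖F z - Φ z‖ ^ 2 ∂ν ≤ η := by
  classical
  haveI : IsLocallyFiniteMeasure ν := by
    refine ⟨fun z => ?_⟩
    obtain ⟨k, hk⟩ := exists_nat_gt (dist z.2 p)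
    refine ⟨(univ : Set ℝ) ×ˢ Metric.ball p k, ?_, hν k⟩
    exact (isOpen_univ.prod Metric.isOpen_ball).mem_nhds ⟨mem_univ _, hk⟩
  -- truncation
  set S : ℕ → Set (ℝ × M) := fun k => {z | (k : ℝ) < dist p z.2} with hS
  have hSm : ∀ k, MeasurableSet (S k) := fun k =>
    measurableSet_lt measurable_const (by fun_prop)
  have hFs : Integrable (fun z => ‖F z‖ ^ 2) ν := (memLp_two_iff_integrable_sq_norm hF.1).1 hF
  have h1 : Tendsto (fun k => ∫ z, (S k).indicator (fun z => ‖F z‖ ^ 2) z ∂ν) atTop (𝓝 0) := by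
    have h2 : Tendsto (fun k => ∫ z, (S k).indicator (fun z => ‖F z‖ ^ 2) z ∂ν) atTop
        (𝓝 (∫ z, (0 : ℝ) ∂ν)) := by
      refine tendsto_integral_of_dominated_convergence (fun z => ‖F z‖ ^ 2)
        (fun k => hFs.1.indicator (hSm k)) hFs (fun k => Eventually.of_forall fun z => ?_)
        (Eventually.of_forall fun z => ?_)
      · rw [Real.norm_eq_abs, abs_of_nonneg (indicator_nonneg (fun _ _ => by positivity) _)]
        exact indicator_le_self' (fun _ _ => by positivity) z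
      · obtain ⟨k0, hk0⟩ := exists_nat_gt (dist p z.2)
        refine tendsto_const_nhds.congr' ?_
        filter_upwards [eventually_ge_atTop k0] with k hk
        have : z ∉ S k := by
          simp only [hS, mem_setOf_eq, not_lt]
          exact hk0.le.trans (by exact_mod_cast hk)
        rw [indicator_of_notMem this]
    simpa using h2
  obtain ⟨k, hk⟩ := (h1.eventually (gt_mem_nhds (show (0 : ℝ) < η / 4 by positivity))).exists
  set F1 : ℝ × M → E := (S k)ᶜ.indicator F with hF1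
  have mF1 : MemLp F1 2 ν := hF.indicator (hSm k).compl
  have e1 : ∫ z, ‖F z - F1 z‖ ^ 2 ∂ν ≤ η / 4 := by
    refine le_trans (le_of_eq (integral_congr_ae (Eventually.of_forall fun z => ?_))) hk.le
    show ‖F z - F1 z‖ ^ 2 = (S k).indicator (fun z => ‖F z‖ ^ 2) z
    by_cases hz : z ∈ S k
    · rw [indicator_of_mem hz, hF1, indicator_of_notMem (by simpa using hz), sub_zero]
    · rw [indicator_of_notMem hz, hF1, indicator_of_mem (by simpa using hz), sub_self, norm_zero]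
      simp
  obtain ⟨g, hg1, hg2⟩ := mF1.exists_boundedContinuous_eLpNorm_sub_le (by norm_num)
    (ε := ENNReal.ofReal (√(η / 4))) (by
      rw [Ne, ENNReal.ofReal_eq_zero, not_le]; positivity)
  have e2 : ∫ z, ‖F1 z - g z‖ ^ 2 ∂ν ≤ η / 4 := by
    have m1 : MemLp (F1 - ⇑g) 2 ν := mF1.sub hg2
    have h3 : (eLpNorm (F1 - ⇑g) 2 ν).toReal ≤ √(η / 4) :=
      ENNReal.toReal_le_of_le_ofReal (by positivity) hg1
    have h4 : ∫ z, ‖F1 z - g z‖ ^ 2 ∂ν = (eLpNorm (F1 - ⇑g) 2 ν).toReal ^ 2 := n2_eq m1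
    rw [h4]
    calc (eLpNorm (F1 - ⇑g) 2 ν).toReal ^ 2 ≤ √(η / 4) ^ 2 := by gcongr
      _ = η / 4 := Real.sq_sqrt (by positivity)
  set χ : ℝ × M → ℝ := fun z => cut p k z.2 with hχ
  have χc : Continuous χ := (cut_cont p k).comp continuous_snd
  have e3 : ∀ z, ‖F1 z - χ z • g z‖ ≤ ‖F1 z - g z‖ := by
    intro z
    by_cases hz : z ∈ S k
    · have : F1 z = 0 := by rw [hF1, indicator_of_notMem (by simpa using hz)]
      rw [this, zero_sub, norm_neg, zero_sub, norm_neg, norm_smul, Real.norm_eq_abs,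
        abs_of_nonneg (cut_mem p k z.2).1]
      exact mul_le_of_le_one_left (norm_nonneg _) (cut_mem p k z.2).2
    · have : χ z = 1 := by
        refine cut_one p k ?_
        simpa [hS] using hz
      rw [this, one_smul]
  have mΦ : MemLp (fun z => χ z • g z) 2 ν := by
    refine hg2.mono (χc.smul g.continuous).aestronglyMeasurable (Eventually.of_forall fun z => ?_)
    rw [norm_smul, Real.norm_eq_abs, abs_of_nonneg (cut_mem p k z.2).1]
    exact mul_le_of_le_one_left (norm_nonneg _) (cut_mem p k z.2).2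
  refine ⟨fun z => χ z • g z, χc.smul g.continuous, ⟨‖g‖, fun z => ?_⟩, ⟨k + 1, fun z hz => ?_⟩,
    mΦ, ?_⟩
  · rw [norm_smul, Real.norm_eq_abs, abs_of_nonneg (cut_mem p k z.2).1]
    exact (mul_le_of_le_one_left (norm_nonneg _) (cut_mem p k z.2).2).trans (g.norm_coe_le_norm z)
  · show cut p k z.2 • g z = 0
    rw [cut_zero p k hz, zero_smul]
  · have i1 : Integrable (fun z => ‖F z - F1 z‖ ^ 2) ν :=
      (memLp_two_iff_integrable_sq_norm (hF.sub mF1).1).1 (hF.sub mF1)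
    have i2 : Integrable (fun z => ‖F1 z - g z‖ ^ 2) ν :=
      (memLp_two_iff_integrable_sq_norm (mF1.sub hg2).1).1 (mF1.sub hg2)
    have i3 : Integrable (fun z => ‖F z - χ z • g z‖ ^ 2) ν :=
      (memLp_two_iff_integrable_sq_norm (hF.sub mΦ).1).1 (hF.sub mΦ)
    have h5 : ∫ z, ‖F z - χ z • g z‖ ^ 2 ∂ν ≤
        2 * (∫ z, ‖F z - F1 z‖ ^ 2 ∂ν) + 2 * ∫ z, ‖F1 z - g z‖ ^ 2 ∂ν := by
      rw [← integral_const_mul, ← integral_const_mul,
        ← integral_add (i1.const_mul _) (i2.const_mul _)]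
      refine integral_mono i3 ((i1.const_mul _).add (i2.const_mul _)) fun z => ?_
      have h6 : ‖F z - χ z • g z‖ ≤ ‖F z - F1 z‖ + ‖F1 z - g z‖ := by
        have : F z - χ z • g z = (F z - F1 z) + (F1 z - χ z • g z) := by abel
        rw [this]
        exact (norm_add_le _ _).trans (by linarith [e3 z])
      have h7 : ‖F z - χ z • g z‖ ^ 2 ≤ (‖F z - F1 z‖ + ‖F1 z - g z‖) ^ 2 := by gcongr
      show ‖F z - χ z • g z‖ ^ 2 ≤ 2 * ‖F z - F1 z‖ ^ 2 + 2 * ‖F1 z - g z‖ ^ 2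
      nlinarith [sq_nonneg (‖F z - F1 z‖ - ‖F1 z - g z‖)]
    linarith

end approx

/-! ### lower semicontinuity -/

section lsc

variable {M : Type u} [MetricSpace M] [MeasurableSpace M] [BorelSpace M]
  [SecondCountableTopology M] {m : Measure M} [SFinite m]
variable {E : Type*} [NormedAddCommGroup E] [InnerProductSpace ℝ E]

theorem lscQ {U : Filter ℕ} {s : ℝ} {Y : ℝ → M → M}
    (hY : Measurable fun z : ℝ × M => Y z.1 z.2) {c : ℝ≥0∞} (hc : c ≠ ∞)
    (hd : ∀ t ∈ Ioc s 1, ∀ A : Set M, MeasurableSet A → m (Y t ⁻¹' A) ≤ c * m A) (p : M)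
    (hfin : ∀ k : ℕ, m (Metric.ball p k) < ∞) {H : ℝ × M → E} (hH : StronglyMeasurable H)
    (hH2 : MemLp (fun z => H (TY Y z)) 2 ((volume.restrict (Ioc s 1)).prod m))
    {W : M → ℝ} (hWm : AEStronglyMeasurable W m) (hW0 : ∀ᵐ x ∂m, 0 ≤ W x) {cW : ℝ}
    (hWc : ∀ᵐ x ∂m, W x ≤ cW) {Q : ℕ → ℝ → ℝ}
    (hQ : ∀ᶠ n in U, IntervalIntegrable (Q n) volume s 1) {a b : ℝ} (hsa : s ≤ a) (hab : a ≤ b)
    (hb : b ≤ 1)
    (hΦ : ∀ Φ : ℝ × M → E, Continuous Φ → (∃ B : ℝ, ∀ z, ‖Φ z‖ ≤ B) →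
      (∃ R : ℝ, ∀ z, R ≤ dist p z.2 → Φ z = 0) → ∃ pn rn : ℕ → ℝ → ℝ,
      (∀ᶠ n in U, IntervalIntegrable (pn n) volume s 1 ∧ IntervalIntegrable (rn n) volume s 1 ∧
        ∀ t ∈ Ioc s 1, 2 * pn n t - rn n t ≤ Q n t) ∧
      Tendsto (fun n => ∫ t in a..b, pn n t) U
        (𝓝 (∫ t in a..b, ∫ x, W x * ⟪H (t, Y t x), Φ (t, Y t x)⟫_ℝ ∂m)) ∧
      Tendsto (fun n => ∫ t in a..b, rn n t) U
        (𝓝 (∫ t in a..b, ∫ x, W x * ‖Φ (t, Y t x)‖ ^ 2 ∂m))) :
    ∀ η > 0, ∀ᶠ n in U,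
      (∫ t in a..b, ∫ x, W x * ‖H (t, Y t x)‖ ^ 2 ∂m) - η ≤ ∫ t in a..b, Q n t := by
  intro η hη
  set μs := (volume.restrict (Ioc s 1)).prod m with hμs
  set ν := μs.map (TY Y) with hν
  have hνle : ν ≤ c • μs := TY_le hY hd
  have hνf : ∀ k : ℕ, ν ((univ : Set ℝ) ×ˢ Metric.ball p k) < ∞ := by
    intro k
    refine (hνle _).trans_lt ?_
    rw [Measure.smul_apply, smul_eq_mul, hμs, Measure.prod_prod]
    refine ENNReal.mul_lt_top hc.lt_top (ENNReal.mul_lt_top ?_ (hfin k))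
    rw [Measure.restrict_apply_univ, Real.volume_Ioc]
    exact ENNReal.ofReal_lt_top
  have hHν : MemLp H 2 ν := (memLp_map_measure_iff hH.aestronglyMeasurable
    (TY_meas hY).aemeasurable).2 hH2
  have hcW : 0 < |cW| + 1 := by positivity
  obtain ⟨Φ, Φc, ΦB, ΦR, Φm, Φη⟩ := exists_approx p hνf hHν
    (show 0 < η / (2 * (|cW| + 1)) by positivity)
  obtain ⟨pn, rn, h1, h2, h3⟩ := hΦ Φ Φc ΦB ΦR
  -- integrability on the product space
  have mΦ : MemLp (fun z => Φ (TY Y z)) 2 μs := Φm.comp_of_map (TY_meas hY).aemeasurable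
  have hWb0 : ∀ᵐ x ∂m, ‖W x‖ ≤ |cW| := by
    filter_upwards [hW0, hWc] with x a1 a2
    rw [Real.norm_eq_abs, abs_of_nonneg a1]
    exact a2.trans (le_abs_self _)
  have hWb : ∀ᵐ z ∂μs, ‖W z.2‖ ≤ |cW| := Measure.quasiMeasurePreserving_snd.ae hWb0
  have iHΦ : Integrable (fun z : ℝ × M => W z.2 * ⟪H (TY Y z), Φ (TY Y z)⟫_ℝ) μs :=
    (int_inner2 hH2 mΦ).bdd_mul hWm.comp_snd hWb
  have iΦ : Integrable (fun z : ℝ × M => W z.2 * ‖Φ (TY Y z)‖ ^ 2) μs :=
    ((memLp_two_iff_integrable_sq_norm mΦ.1).1 mΦ).bdd_mul hWm.comp_snd hWb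
  have iH : Integrable (fun z : ℝ × M => W z.2 * ‖H (TY Y z)‖ ^ 2) μs :=
    ((memLp_two_iff_integrable_sq_norm hH2.1).1 hH2).bdd_mul hWm.comp_snd hWb
  have mD : MemLp (fun z => H (TY Y z) - Φ (TY Y z)) 2 μs := hH2.sub mΦ
  have iD0 : Integrable (fun z : ℝ × M => ‖H (TY Y z) - Φ (TY Y z)‖ ^ 2) μs :=
    (memLp_two_iff_integrable_sq_norm mD.1).1 mD
  have iD : Integrable (fun z : ℝ × M => W z.2 * ‖H (TY Y z) - Φ (TY Y z)‖ ^ 2) μs :=
    iD0.bdd_mul hWm.comp_snd hWb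
  have hle : (volume.restrict (Ioc a b)).prod m ≤ μs := prodab_le hsa hb
  -- the algebraic identity
  have f1 := fub iHΦ hsa hab hb
  have f2 := fub iΦ hsa hab hb
  have f3 := fub iH hsa hab hb
  have key : (∫ t in a..b, ∫ x, W x * ‖H (t, Y t x)‖ ^ 2 ∂m)
      = 2 * (∫ t in a..b, ∫ x, W x * ⟪H (t, Y t x), Φ (t, Y t x)⟫_ℝ ∂m)
        - (∫ t in a..b, ∫ x, W x * ‖Φ (t, Y t x)‖ ^ 2 ∂m)
        + ∫ z, W z.2 * ‖H (TY Y z) - Φ (TY Y z)‖ ^ 2 ∂((volume.restrict (Ioc a b)).prod m) := by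
    have g1 : (∫ t in a..b, ∫ x, W x * ⟪H (t, Y t x), Φ (t, Y t x)⟫_ℝ ∂m)
      = ∫ z, W z.2 * ⟪H (TY Y z), Φ (TY Y z)⟫_ℝ ∂((volume.restrict (Ioc a b)).prod m) := f1.2
    have g2 : (∫ t in a..b, ∫ x, W x * ‖Φ (t, Y t x)‖ ^ 2 ∂m)
      = ∫ z, W z.2 * ‖Φ (TY Y z)‖ ^ 2 ∂((volume.restrict (Ioc a b)).prod m) := f2.2
    have g3 : (∫ t in a..b, ∫ x, W x * ‖H (t, Y t x)‖ ^ 2 ∂m)
      = ∫ z, W z.2 * ‖H (TY Y z)‖ ^ 2 ∂((volume.restrict (Ioc a b)).prod m) := f3.2
    have j1 := iHΦ.mono_measure hle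
    have j2 := iΦ.mono_measure hle
    have j4 := iD.mono_measure hle
    have j12 : Integrable (fun z => 2 * (W z.2 * ⟪H (TY Y z), Φ (TY Y z)⟫_ℝ)
      - W z.2 * ‖Φ (TY Y z)‖ ^ 2) ((volume.restrict (Ioc a b)).prod m) := (j1.const_mul 2).sub j2
    rw [g1, g2, g3, ← integral_const_mul, ← integral_sub (j1.const_mul 2) j2,
      ← integral_add j12 j4]
    refine integral_congr_ae (Eventually.of_forall fun z => ?_)
    show W z.2 * ‖H (TY Y z)‖ ^ 2 = 2 * (W z.2 * ⟪H (TY Y z), Φ (TY Y z)⟫_ℝ)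
      - W z.2 * ‖Φ (TY Y z)‖ ^ 2 + W z.2 * ‖H (TY Y z) - Φ (TY Y z)‖ ^ 2
    rw [norm_sub_sq_real]
    ring
  have small : ∫ z, W z.2 * ‖H (TY Y z) - Φ (TY Y z)‖ ^ 2 ∂((volume.restrict (Ioc a b)).prod m)
      ≤ η / 2 := by
    calc ∫ z, W z.2 * ‖H (TY Y z) - Φ (TY Y z)‖ ^ 2 ∂((volume.restrict (Ioc a b)).prod m)
        ≤ ∫ z, W z.2 * ‖H (TY Y z) - Φ (TY Y z)‖ ^ 2 ∂μs := by
          refine integral_mono_measure hle ?_ iD
          filter_upwards [Measure.quasiMeasurePreserving_snd.ae hW0] with z hz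
          exact mul_nonneg hz (by positivity)
      _ ≤ ∫ z, (|cW| + 1) * ‖H (TY Y z) - Φ (TY Y z)‖ ^ 2 ∂μs := by
          refine integral_mono_ae iD (iD0.const_mul _) ?_
          filter_upwards [hWb] with z hz
          refine mul_le_mul_of_nonneg_right ?_ (by positivity)
          have := (le_abs_self (W z.2)).trans hz
          linarith
      _ = (|cW| + 1) * ∫ z, ‖H z - Φ z‖ ^ 2 ∂ν := by
          rw [integral_const_mul, hν, integral_map (TY_meas hY).aemeasurable]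
          have : AEStronglyMeasurable (fun z => H z - Φ z) ν :=
            hH.aestronglyMeasurable.sub Φm.1
          exact (this.norm.pow 2)
      _ ≤ (|cW| + 1) * (η / (2 * (|cW| + 1))) := by gcongr
      _ = η / 2 := by field_simp
  have lim : Tendsto (fun n => 2 * (∫ t in a..b, pn n t) - ∫ t in a..b, rn n t) U
      (𝓝 (2 * (∫ t in a..b, ∫ x, W x * ⟪H (t, Y t x), Φ (t, Y t x)⟫_ℝ ∂m)
        - ∫ t in a..b, ∫ x, W x * ‖Φ (t, Y t x)‖ ^ 2 ∂m)) := (h2.const_mul 2).sub h3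
  have ev := lim.eventually (lt_mem_nhds (show 2 * (∫ t in a..b, ∫ x, W x *
      ⟪H (t, Y t x), Φ (t, Y t x)⟫_ℝ ∂m) - (∫ t in a..b, ∫ x, W x * ‖Φ (t, Y t x)‖ ^ 2 ∂m) - η / 2
      < 2 * (∫ t in a..b, ∫ x, W x * ⟪H (t, Y t x), Φ (t, Y t x)⟫_ℝ ∂m)
        - ∫ t in a..b, ∫ x, W x * ‖Φ (t, Y t x)‖ ^ 2 ∂m by linarith))
  filter_upwards [h1, hQ, ev] with n b1 b2 b3
  have sub1 : uIcc a b ⊆ uIcc s 1 := by
    rw [uIcc_of_le hab, uIcc_of_le ((hsa.trans hab).trans hb)]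
    exact Icc_subset_Icc hsa hb
  have b4 : 2 * (∫ t in a..b, pn n t) - ∫ t in a..b, rn n t ≤ ∫ t in a..b, Q n t := by
    rw [← intervalIntegral.integral_const_mul, ← intervalIntegral.integral_sub
      ((b1.1.mono_set sub1).const_mul 2) (b1.2.1.mono_set sub1)]
    refine intervalIntegral.integral_mono_ae_restrict hab
      (((b1.1.mono_set sub1).const_mul 2).sub (b1.2.1.mono_set sub1)) (b2.mono_set sub1) ?_
    have h0 : ∀ᵐ t ∂(volume.restrict (Ioc a b)), t ∈ Ioc a b := ae_restrict_mem measurableSet_Ioc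
    rw [← restrict_Ioc_eq_restrict_Icc]
    filter_upwards [h0] with t ht
    exact b1.2.2 t ⟨hsa.trans_lt ht.1, ht.2.trans hb⟩
  linarith

end lsc

end Vale.Agent.P233.H249
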