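import Vale.Agent.P233.H866.Loc
import Vale.Agent.P233.H416.Curve

/-! P233, block C6: localisation of an integrated differential inequality with the weights `exp l`
(`q t` integrable for a.e. `t`, `β` integrable in space-time). -/

set_option linter.all false

open MeasureTheory Filter Topology Set
open scoped ENNReal NNReal

universe u

namespace Vale.Agent.P233.H249

variable {M : Type u} [MeasurableSpace M] {m : Measure M} {C : Calc m} {K : ℝ}
  {P : ℝ → (M →ₘ[m] ℝ) → (M →ₘ[m] ℝ)}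

/-- indicator functions are a.e. limits of test functions with values in `[0,1]` -/
theorem exists_weights (hP : Heat C K P) {A : Set M} (hA : MeasurableSet A) (hAf : m A < ∞) :
    ∃ k : ℕ → M →ₘ[m] ℝ, (∀ j, k j ∈ C.TestI) ∧ (∀ j, ∀ᵐ x ∂m, 0 ≤ k j x ∧ k j x ≤ 1) ∧
      ∀ᵐ x ∂m, Tendsto (fun j => k j x) atTop (𝓝 (A.indicator (fun _ => (1 : ℝ)) x)) := by
  have hm : AEStronglyMeasurable (A.indicator fun _ => (1 : ℝ)) m :=
    (measurable_const.indicator hA).aestronglyMeasurable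
  set ψ : M →ₘ[m] ℝ := AEEqFun.mk _ hm with hψ
  have eψ : ∀ᵐ x ∂m, ψ x = A.indicator (fun _ => (1 : ℝ)) x := AEEqFun.coeFn_mk _ hm
  have i1 : ∀ x, (0 : ℝ) ≤ A.indicator (fun _ => (1 : ℝ)) x ∧
      A.indicator (fun _ => (1 : ℝ)) x ≤ 1 := by
    intro x
    by_cases hx : x ∈ A
    · rw [indicator_of_mem hx]; exact ⟨zero_le_one, le_rfl⟩
    · rw [indicator_of_notMem hx]; exact ⟨le_rfl, zero_le_one⟩
  have h2 : MemLp ψ 2 m := (memLp_indicator_const 2 hA (1 : ℝ) (Or.inr hAf.ne)).ae_eq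
    (by filter_upwards [eψ] with x hx using hx.symm)
  have ht : MemLp ψ ∞ m := by
    refine mem_top_iff.2 ⟨1, ?_⟩
    filter_upwards [eψ] with x hx
    rw [hx, abs_of_nonneg (i1 x).1]
    exact (i1 x).2
  have h0 : 0 ≤ ψ := by
    refine nonneg_iff_ae.2 ?_
    filter_upwards [eψ] with x hx
    rw [hx]; exact (i1 x).1
  have hpos : ∀ n : ℕ, (0 : ℝ) < ((n : ℝ) + 1)⁻¹ := fun n => by positivity
  have hc := hP.cont ψ h2 0 le_rfl
  rw [hP.zero ψ h2] at hc
  have hc2 : Tendsto (fun n : ℕ => I ((P ((n : ℝ) + 1)⁻¹ ψ - ψ) ^ 2)) atTop (𝓝 0) :=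
    hc.comp (tendsto_nhdsWithin_iff.2 ⟨tendsto_inv_succ,
      Eventually.of_forall fun n => (hpos n).le⟩)
  obtain ⟨ns, hns, hae⟩ := exists_subseq_of_I_sq (fun n => hP.mem _ (hpos n).le ψ h2) h2 hc2
  refine ⟨fun j => P ((ns j : ℝ) + 1)⁻¹ ψ, fun j => hP.testI' _ (hpos _) ψ h2 ht, fun j => ?_, ?_⟩
  · filter_upwards [nonneg_iff_ae.1 (hP.nonneg _ (hpos (ns j)).le ψ h2 h0),
      hP.le _ (hpos (ns j)).le ψ h2 1 zero_le_one (by
        filter_upwards [eψ] with x hx
        rw [hx]; exact (i1 x).2)] with x a1 a2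
    exact ⟨a1, a2⟩
  · filter_upwards [hae, eψ] with x a1 a2
    rw [← a2]; exact a1

/-- `1 + N k = exp l` -/
theorem exists_explog (hC : IsGamma C) {κ : ℝ} (hB : C.BEi κ) {k : M →ₘ[m] ℝ} (hk : k ∈ C.TestI)
    (h0 : ∀ᵐ x ∂m, 0 ≤ k x) {N : ℝ} (hN : 0 ≤ N) :
    ∃ l ∈ C.TestI, ex l = 1 + N • k ∧ ∀ᵐ x ∂m, Real.exp (l x) = 1 + N * k x := by
  obtain ⟨l, hl, el⟩ := hC.exists_log hB (hC.testI_smul hB N hk) (c := 1) one_pos (by
    filter_upwards [smul_ae k N, h0] with x a1 a2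
    rw [a1]
    nlinarith [mul_nonneg hN a2])
  have e1 : ex l = 1 + N • k := by rw [← el]; ring
  refine ⟨l, hl, e1, ?_⟩
  filter_upwards [ex_ae l, smul_ae k N, AEEqFun.coeFn_add (1 : M →ₘ[m] ℝ) (N • k),
    (AEEqFun.coeFn_one : ⇑(1 : M →ₘ[m] ℝ) =ᵐ[m] 1)] with x a1 a2 a3 a4
  rw [← a1, e1, a3, Pi.add_apply, a2, a4, Pi.one_apply]

section

variable [SFinite m] {s : ℝ} {q β : ℝ → M → ℝ}

theorem prod_sub {a b : ℝ} (ha : a ∈ Ioo s 1) (hb : b ∈ Ioo s 1) :
    (volume.restrict (Ioc a b)).prod m ≤ (volume.restrict (Ioo s 1)).prod m := by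
  have h : Ioc a b ⊆ Ioo s 1 := fun r hr => ⟨ha.1.trans hr.1, hr.2.trans_lt hb.2⟩
  exact Measure.prod_mono (Measure.restrict_mono h le_rfl) le_rfl

theorem int_w (iβ : Integrable (Function.uncurry β) ((volume.restrict (Ioo s 1)).prod m))
    {a b : ℝ} (ha : a ∈ Ioo s 1) (hb : b ∈ Ioo s 1) {w : M → ℝ} (hw : AEStronglyMeasurable w m)
    {c : ℝ} (hc : ∀ᵐ x ∂m, |w x| ≤ c) :
    Integrable (fun z : ℝ × M => w z.2 * β z.1 z.2) ((volume.restrict (Ioc a b)).prod m) ∧
      ∫ r in Ioc a b, ∫ x, w x * β r x ∂m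
        = ∫ z, w z.2 * β z.1 z.2 ∂((volume.restrict (Ioc a b)).prod m) := by
  have h1 : Integrable (fun z : ℝ × M => w z.2 * β z.1 z.2)
      ((volume.restrict (Ioc a b)).prod m) := by
    refine (iβ.mono_measure (prod_sub ha hb)).bdd_mul (c := c) hw.comp_snd ?_
    exact Measure.quasiMeasurePreserving_snd.ae hc
  exact ⟨h1, (integral_prod _ h1).symm⟩

/-- the functional `w ↦ ∫ w q_b - ∫ w q_a - ∫∫ w β` -/
noncomputable def Xw (m : Measure M) (q β : ℝ → M → ℝ) (a b : ℝ) (w : M → ℝ) : ℝ :=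
  (∫ x, w x * q b x ∂m) - (∫ x, w x * q a x ∂m) - ∫ r in Ioc a b, ∫ x, w x * β r x ∂m

theorem Xw_congr {a b : ℝ} {w w' : M → ℝ} (h : ∀ᵐ x ∂m, w x = w' x) :
    Xw m q β a b w = Xw m q β a b w' := by
  unfold Xw
  congr 1
  · congr 1
    · exact integral_congr_ae (by filter_upwards [h] with x hx; rw [hx])
    · exact integral_congr_ae (by filter_upwards [h] with x hx; rw [hx])
  · congr 1
    ext r
    exact integral_congr_ae (by filter_upwards [h] with x hx; rw [hx])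

theorem Xw_add (iβ : Integrable (Function.uncurry β) ((volume.restrict (Ioo s 1)).prod m))
    {a b : ℝ} (ha : a ∈ Ioo s 1) (hb : b ∈ Ioo s 1) (qa : Integrable (q a) m)
    (qb : Integrable (q b) m) {w : M → ℝ} (hw : AEStronglyMeasurable w m)
    {c : ℝ} (hc : ∀ᵐ x ∂m, |w x| ≤ c) (N : ℝ) :
    Xw m q β a b (fun x => 1 + N * w x) = Xw m q β a b (fun _ => 1) + N * Xw m q β a b w := by
  have h1 := int_w iβ ha hb (w := fun _ => (1 : ℝ)) aestronglyMeasurable_const (c := 1)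
    (Eventually.of_forall fun _ => by simp)
  have h2 := int_w iβ ha hb hw hc
  have hc0 : ∀ᵐ x ∂m, |1 + N * w x| ≤ 1 + |N| * c := by
    filter_upwards [hc] with x hx
    refine (abs_add_le _ _).trans ?_
    rw [abs_one, abs_mul]
    gcongr
  have h3 := int_w iβ ha hb (w := fun x => 1 + N * w x)
    (aestronglyMeasurable_const.add (aestronglyMeasurable_const.mul hw)) hc0
  unfold Xw
  rw [h1.2, h2.2, h3.2]
  have e1 : ∀ {f : M → ℝ}, Integrable f m →
      ∫ x, (1 + N * w x) * f x ∂m = (∫ x, 1 * f x ∂m) + N * ∫ x, w x * f x ∂m := by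
    intro f hf
    rw [← integral_const_mul, ← integral_add (by simpa using hf) ((hf.bdd_mul hw hc).const_mul N)]
    refine integral_congr_ae (Eventually.of_forall fun x => ?_)
    show (1 + N * w x) * f x = 1 * f x + N * (w x * f x)
    ring
  have e2 : ∫ z, (1 + N * w z.2) * β z.1 z.2 ∂((volume.restrict (Ioc a b)).prod m)
      = (∫ z, 1 * β z.1 z.2 ∂((volume.restrict (Ioc a b)).prod m))
        + N * ∫ z, w z.2 * β z.1 z.2 ∂((volume.restrict (Ioc a b)).prod m) := by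
    rw [← integral_const_mul, ← integral_add h1.1 (h2.1.const_mul N)]
    refine integral_congr_ae (Eventually.of_forall fun z => ?_)
    show (1 + N * w z.2) * β z.1 z.2 = 1 * β z.1 z.2 + N * (w z.2 * β z.1 z.2)
    ring
  rw [e1 qa, e1 qb, e2]
  ring

theorem nonpos_of_lin {x y : ℝ} (h : ∀ N : ℕ, x + (N : ℝ) * y ≤ 0) : y ≤ 0 := by
  by_contra hy
  push Not at hy
  obtain ⟨N, hN⟩ := exists_nat_gt (-x / y)
  have h1 := h N
  rw [div_lt_iff₀ hy] at hN
  linarith

/-- continuity in the weight -/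
theorem Xw_tendsto (iβ : Integrable (Function.uncurry β) ((volume.restrict (Ioo s 1)).prod m))
    {a b : ℝ} (ha : a ∈ Ioo s 1) (hb : b ∈ Ioo s 1) (qa : Integrable (q a) m)
    (qb : Integrable (q b) m) {w : ℕ → M → ℝ} {w0 : M → ℝ}
    (hw : ∀ j, AEStronglyMeasurable (w j) m) (hw0 : AEStronglyMeasurable w0 m)
    (hc : ∀ j, ∀ᵐ x ∂m, |w j x| ≤ 1) (hc0 : ∀ᵐ x ∂m, |w0 x| ≤ 1)
    (hl : ∀ᵐ x ∂m, Tendsto (fun j => w j x) atTop (𝓝 (w0 x))) :
    Tendsto (fun j => Xw m q β a b (w j)) atTop (𝓝 (Xw m q β a b w0)) := by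
  have e1 : ∀ {f : M → ℝ}, Integrable f m →
      Tendsto (fun j => ∫ x, w j x * f x ∂m) atTop (𝓝 (∫ x, w0 x * f x ∂m)) := by
    intro f hf
    refine tendsto_integral_of_dominated_convergence (fun x => |f x|)
      (fun j => (hw j).mul hf.1) hf.abs (fun j => ?_) ?_
    · filter_upwards [hc j] with x hx
      rw [Real.norm_eq_abs, abs_mul]
      exact mul_le_of_le_one_left (abs_nonneg _) hx
    · filter_upwards [hl] with x hx using hx.mul_const _
  have e2 : Tendsto (fun j => ∫ r in Ioc a b, ∫ x, w j x * β r x ∂m) atTop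
      (𝓝 (∫ r in Ioc a b, ∫ x, w0 x * β r x ∂m)) := by
    rw [(int_w iβ ha hb hw0 hc0).2]
    simp_rw [fun j => (int_w iβ ha hb (hw j) (hc j)).2]
    have hβ := iβ.mono_measure (prod_sub ha hb)
    refine tendsto_integral_of_dominated_convergence (fun z => |β z.1 z.2|)
      (fun j => (int_w iβ ha hb (hw j) (hc j)).1.1) hβ.abs (fun j => ?_) ?_
    · filter_upwards [Measure.quasiMeasurePreserving_snd.ae (hc j)] with z hz
      rw [Real.norm_eq_abs, abs_mul]
      exact mul_le_of_le_one_left (abs_nonneg _) hz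
    · filter_upwards [Measure.quasiMeasurePreserving_snd.ae hl] with z hz using hz.mul_const _
  exact ((e1 qb).sub (e1 qa)).sub e2

/-- **Localisation** of an integrated inequality with the weights `exp l`. -/
theorem loc_exp [MeasurableSpace.CountablyGenerated M] [SigmaFinite m] (hC : IsGamma C) {κ : ℝ}
    (hB : C.BEi κ) (hP : Heat C K P) (hq : Measurable (Function.uncurry q))
    (hβ : Measurable (Function.uncurry β))
    (iq : ∀ᵐ t ∂(volume.restrict (Ioo s 1)), Integrable (q t) m)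
    (iβ : Integrable (Function.uncurry β) ((volume.restrict (Ioo s 1)).prod m))
    (h : ∀ l ∈ C.TestI, ∀ᵐ a ∂(volume.restrict (Ioo s 1)), ∀ᵐ b ∂(volume.restrict (Ioo s 1)),
      a < b → (∫ x, Real.exp (l x) * q b x ∂m) - (∫ x, Real.exp (l x) * q a x ∂m)
        ≤ ∫ r in Ioc a b, ∫ x, Real.exp (l x) * β r x ∂m) :
    ∀ᵐ x ∂m, ∀ᵐ a ∂(volume.restrict (Ioo s 1)), ∀ᵐ b ∂(volume.restrict (Ioo s 1)), a < b →
      q b x - q a x ≤ ∫ r in Ioc a b, β r x := by
  -- weights in `TestI`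
  have hk : ∀ k ∈ C.TestI, (∀ᵐ x ∂m, 0 ≤ k x ∧ k x ≤ 1) →
      ∀ᵐ a ∂(volume.restrict (Ioo s 1)), ∀ᵐ b ∂(volume.restrict (Ioo s 1)), a < b →
        Xw m q β a b k ≤ 0 := by
    intro k hk hk1
    have hk0 : ∀ᵐ x ∂m, 0 ≤ k x := by filter_upwards [hk1] with x hx using hx.1
    have hc : ∀ᵐ x ∂m, |k x| ≤ 1 := by
      filter_upwards [hk1] with x hx
      rw [abs_of_nonneg hx.1]; exact hx.2
    choose l hl el hle using fun N : ℕ => exists_explog hC hB hk hk0 (N := (N : ℝ)) N.cast_nonneg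
    have h1 : ∀ᵐ a ∂(volume.restrict (Ioo s 1)), ∀ N : ℕ, ∀ᵐ b ∂(volume.restrict (Ioo s 1)),
        a < b → (∫ x, Real.exp (l N x) * q b x ∂m) - (∫ x, Real.exp (l N x) * q a x ∂m)
        ≤ ∫ r in Ioc a b, ∫ x, Real.exp (l N x) * β r x ∂m :=
      ae_all_iff.2 fun N => h (l N) (hl N)
    filter_upwards [h1, iq, ae_restrict_mem measurableSet_Ioo] with a ha qa hsa
    filter_upwards [ae_all_iff.2 ha, iq, ae_restrict_mem measurableSet_Ioo] with b hb qb hsb hab
    refine nonpos_of_lin (x := Xw m q β a b fun _ => 1) fun N => ?_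
    rw [← Xw_add iβ hsa hsb qa qb k.aestronglyMeasurable hc,
      ← Xw_congr (w := fun x => Real.exp (l N x)) (hle N)]
    have := hb N hab
    unfold Xw
    linarith
  obtain ⟨𝒜, h𝒜c, h𝒜⟩ := exists_countable_measureDense (μ := m)
  have hd : m.MeasureDense {A | A ∈ 𝒜 ∧ m A ≠ ∞} := by
    refine ⟨fun A hA => h𝒜.measurable _ hA.1, fun A hA hAf ε hε => ?_⟩
    obtain ⟨B, hB1, hB2⟩ := h𝒜.approx A hA hAf ε hε
    refine ⟨B, ⟨hB1, ?_⟩, hB2⟩
    have h1 : m B ≤ m A + m (symmDiff A B) := by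
      refine (measure_mono ?_).trans (measure_union_le A (symmDiff A B))
      intro x hx
      by_cases hxA : x ∈ A
      · exact Or.inl hxA
      · exact Or.inr (Or.inr ⟨hx, hxA⟩)
    exact (h1.trans_lt (ENNReal.add_lt_top.2 ⟨hAf.lt_top, hB2.trans ENNReal.ofReal_lt_top⟩)).ne
  refine H416.localise_le (h𝒜c.mono fun A hA => hA.1) hd hq hβ iq iβ ?_
  rintro A ⟨hA, hAf⟩
  have hAm := h𝒜.measurable _ hA
  obtain ⟨k, k1, k2, k3⟩ := exists_weights hP hAm hAf.lt_top
  have hwm : AEStronglyMeasurable (A.indicator fun _ => (1 : ℝ)) m :=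
    (measurable_const.indicator hAm).aestronglyMeasurable
  have hc : ∀ j, ∀ᵐ x ∂m, |k j x| ≤ 1 := fun j => by
    filter_upwards [k2 j] with x hx
    rw [abs_of_nonneg hx.1]; exact hx.2
  have hc0 : ∀ᵐ x ∂m, |A.indicator (fun _ => (1 : ℝ)) x| ≤ 1 := by
    refine Eventually.of_forall fun x => ?_
    by_cases hx : x ∈ A
    · rw [indicator_of_mem hx, abs_one]
    · rw [indicator_of_notMem hx, abs_zero]; exact zero_le_one
  have h1 : ∀ᵐ a ∂(volume.restrict (Ioo s 1)), ∀ j, ∀ᵐ b ∂(volume.restrict (Ioo s 1)), a < b →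
      Xw m q β a b (k j) ≤ 0 := ae_all_iff.2 fun j => hk (k j) (k1 j) (k2 j)
  filter_upwards [h1, iq, ae_restrict_mem measurableSet_Ioo] with a ha qa hsa
  filter_upwards [ae_all_iff.2 ha, iq, ae_restrict_mem measurableSet_Ioo] with b hb qb hsb hab
  have h2 := Xw_tendsto iβ hsa hsb qa qb (fun j => (k j).aestronglyMeasurable) hwm hc hc0 k3
  have h3 : Xw m q β a b (A.indicator fun _ => (1 : ℝ)) ≤ 0 := le_of_tendsto' h2 fun j => hb j hab
  have e2 : ∀ F : M → ℝ, ∫ x, A.indicator (fun _ => (1 : ℝ)) x * F x ∂m = ∫ x in A, F x ∂m := by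
    intro F
    rw [← integral_indicator hAm]
    refine integral_congr_ae (Eventually.of_forall fun x => ?_)
    by_cases hx : x ∈ A
    · simp only [indicator_of_mem hx, one_mul]
    · simp only [indicator_of_notMem hx, zero_mul]
  unfold Xw at h3
  simp only [e2] at h3
  linarith

/-- **Localisation for nonnegative weights** of the end point inequality. -/
theorem loc_end [SigmaFinite m] (hC : IsGamma C) {κ : ℝ} (hB : C.BEi κ)
    (iq : ∀ᵐ t ∂(volume.restrict (Ioo s 1)), Integrable (q t) m)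
    (iβ : Integrable (Function.uncurry β) ((volume.restrict (Ioo s 1)).prod m))
    {w : M →ₘ[m] ℝ} (hw : w ∈ C.TestI) (hw0 : ∀ᵐ x ∂m, 0 ≤ w x) {z0 z1 : ℝ} {Z : (M →ₘ[m] ℝ) → ℝ}
    (hZ : ∀ N : ℝ, 0 ≤ N → Z (1 + N • w) = z0 + N * z1)
    (h : ∀ l ∈ C.TestI, ∀ᵐ a ∂(volume.restrict (Ioo s 1)),
      Z (ex l) - (∫ x, Real.exp (l x) * q a x ∂m)
        ≤ ∫ r in a..1, ∫ x, Real.exp (l x) * β r x ∂m) :
    ∀ᵐ a ∂(volume.restrict (Ioo s 1)), z1 ≤ (∫ x, w x * q a x ∂m)
        + ∫ r in a..1, ∫ x, w x * β r x ∂m := by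
  choose l hl el hle using fun N : ℕ => exists_explog hC hB hw hw0 (N := (N : ℝ)) N.cast_nonneg
  obtain ⟨c, hc⟩ := mem_top_iff.1 (hC.test_A hw.1).2
  filter_upwards [ae_all_iff.2 fun N => h (l N) (hl N), iq, ae_restrict_mem measurableSet_Ioo]
    with a ha qa hsa
  have hsub : (volume.restrict (Ioc a 1)).prod m ≤ (volume.restrict (Ioo s 1)).prod m := by
    refine Measure.prod_mono ?_ le_rfl
    rw [← Measure.restrict_congr_set (μ := volume) (Ioo_ae_eq_Ioc (a := a) (b := (1 : ℝ)))]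
    have hs' : Ioo a 1 ⊆ Ioo s 1 := fun r hr => ⟨hsa.1.trans hr.1, hr.2⟩
    exact Measure.restrict_mono hs' le_rfl
  have h1 : Integrable (Function.uncurry β) ((volume.restrict (Ioc a 1)).prod m) :=
    iβ.mono_measure hsub
  have h2 : Integrable (fun z : ℝ × M => w z.2 * β z.1 z.2) ((volume.restrict (Ioc a 1)).prod m) :=
    h1.bdd_mul (c := c) w.aestronglyMeasurable.comp_snd (Measure.quasiMeasurePreserving_snd.ae hc)
  have key : ∀ N : ℕ, (z0 - (∫ x, q a x ∂m) - ∫ r in a..1, ∫ x, β r x ∂m) + (N : ℝ) *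
      (z1 - (∫ x, w x * q a x ∂m) - ∫ r in a..1, ∫ x, w x * β r x ∂m) ≤ 0 := by
    intro N
    have h3 := ha N
    rw [el N, hZ _ N.cast_nonneg] at h3
    have e1 : ∫ x, Real.exp (l N x) * q a x ∂m = (∫ x, q a x ∂m) + N * ∫ x, w x * q a x ∂m := by
      rw [← integral_const_mul, ← integral_add qa ((qa.bdd_mul w.aestronglyMeasurable hc).const_mul _)]
      refine integral_congr_ae ?_
      filter_upwards [hle N] with x hx
      show Real.exp (l N x) * q a x = q a x + N * (w x * q a x)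
      rw [hx]; ring
    have e2 : ∫ r in a..1, ∫ x, Real.exp (l N x) * β r x ∂m
        = (∫ r in a..1, ∫ x, β r x ∂m) + N * ∫ r in a..1, ∫ x, w x * β r x ∂m := by
      rw [intervalIntegral.integral_of_le hsa.2.le, intervalIntegral.integral_of_le hsa.2.le,
        intervalIntegral.integral_of_le hsa.2.le]
      have f1 : ∫ r in Ioc a 1, ∫ x, β r x ∂m
          = ∫ z, β z.1 z.2 ∂((volume.restrict (Ioc a 1)).prod m) := (integral_prod _ h1).symm
      have f2 : ∫ r in Ioc a 1, ∫ x, w x * β r x ∂m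
          = ∫ z, w z.2 * β z.1 z.2 ∂((volume.restrict (Ioc a 1)).prod m) :=
        (integral_prod _ h2).symm
      have f3 : ∫ r in Ioc a 1, ∫ x, Real.exp (l N x) * β r x ∂m
          = ∫ r in Ioc a 1, ∫ x, (β r x + N * (w x * β r x)) ∂m := by
        congr 1
        ext r
        refine integral_congr_ae ?_
        filter_upwards [hle N] with x hx
        rw [hx]; ring
      have h4 : Integrable (fun z : ℝ × M => β z.1 z.2 + N * (w z.2 * β z.1 z.2))
          ((volume.restrict (Ioc a 1)).prod m) := h1.add (h2.const_mul _)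
      have f4 : ∫ r in Ioc a 1, ∫ x, (β r x + N * (w x * β r x)) ∂m
          = ∫ z, (β z.1 z.2 + N * (w z.2 * β z.1 z.2)) ∂((volume.restrict (Ioc a 1)).prod m) :=
        (integral_prod _ h4).symm
      have h1' : Integrable (fun z : ℝ × M => β z.1 z.2) ((volume.restrict (Ioc a 1)).prod m) := h1
      rw [f1, f2, f3, f4, ← integral_const_mul, ← integral_add h1' (h2.const_mul _)]
    rw [e1, e2] at h3
    linarith
  have := nonpos_of_lin key
  linarith

end

end Vale.Agent.P233.H249
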