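import Vale.Agent.P233.Gig.IfC
import Vale.Agent.P233.H249.Loc6
import Vale.Agent.P233.H249.Flow6

/-! P233, block C6: intermediate statements (helper249). Only definitions. -/

set_option linter.all false

open MeasureTheory Filter Topology Set
open scoped ENNReal NNReal InnerProductSpace

universe u

namespace Vale.Agent.P233.PC

open Vale.Agent.P233.PA (en OutA PotLim)

section defs6

variable {M : Type u} [MetricSpace M] [MeasurableSpace M] {m : Measure M}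
variable {E : Type} [NormedAddCommGroup E] [InnerProductSpace ℝ E]

/-- `|∇z_t|`, explicitly (the same as helper183's `cz`) -/
noncomputable def cz6 (p : M) (s₀ C₀ t : ℝ) (y : M) : ℝ :=
  open Classical in if dist p y ^ 2 < 2 * C₀ * (t + s₀) then dist p y / (t + s₀) else 0

/-- `H_t(∇h,∇h)` along the flow -/
noncomputable def qf6 (Gr : (M →ₘ[m] ℝ) → M → E) (Hs : (M →ₘ[m] ℝ) → ℝ → M → E)
    (Y : ℝ → M → M) (h : M →ₘ[m] ℝ) (t : ℝ) (x : M) : ℝ :=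
  ⟪Hs h t (Y t x), Gr h (Y t x)⟫_ℝ

/-- the velocity `∇z_t` and `Hess h(∇z_t)` as jointly measurable fields -/
noncomputable def vf6 (m : Measure M) (Gr : (M →ₘ[m] ℝ) → M → E) (p : M) (s₀ C₀ t : ℝ) (y : M) :
    E := cz6 p s₀ C₀ t y • Gr (dc m p s₀ C₀) y

noncomputable def wf6 (m : Measure M) (Gr : (M →ₘ[m] ℝ) → M → E)
    (HO : (M →ₘ[m] ℝ) → M → E →L[ℝ] E) (h : M →ₘ[m] ℝ) (p : M) (s₀ C₀ t : ℝ) (y : M) : E :=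
  cz6 p s₀ C₀ t y • HO h y (Gr (dc m p s₀ C₀) y)

/-- the right hand side of the Riccati inequality along the flow, without and with `-|H|²` -/
noncomputable def df6 (m : Measure M) (Gr : (M →ₘ[m] ℝ) → M → E)
    (HO : (M →ₘ[m] ℝ) → M → E →L[ℝ] E) (Hs : (M →ₘ[m] ℝ) → ℝ → M → E) (κ : ℝ) (p : M)
    (s₀ C₀ : ℝ) (Y : ℝ → M → M) (h : M →ₘ[m] ℝ) (t : ℝ) (x : M) : ℝ :=
  2 * ⟪Hs h t (Y t x), wf6 m Gr HO h p s₀ C₀ t (Y t x)⟫_ℝ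
    - κ * (‖Gr h (Y t x)‖ ^ 2 * ‖vf6 m Gr p s₀ C₀ t (Y t x)‖ ^ 2
        - ⟪Gr h (Y t x), vf6 m Gr p s₀ C₀ t (Y t x)⟫_ℝ ^ 2)

noncomputable def bf6 (m : Measure M) (Gr : (M →ₘ[m] ℝ) → M → E)
    (HO : (M →ₘ[m] ℝ) → M → E →L[ℝ] E) (Hs : (M →ₘ[m] ℝ) → ℝ → M → E) (κ : ℝ) (p : M)
    (s₀ C₀ : ℝ) (Y : ℝ → M → M) (h : M →ₘ[m] ℝ) (t : ℝ) (x : M) : ℝ :=
  df6 m Gr HO Hs κ p s₀ C₀ Y h t x - ‖Hs h t (Y t x)‖ ^ 2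

/-- space-time integrability of everything that occurs -/
structure Int6 (m : Measure M) (Gr : (M →ₘ[m] ℝ) → M → E)
    (HO : (M →ₘ[m] ℝ) → M → E →L[ℝ] E) (Hs : (M →ₘ[m] ℝ) → ℝ → M → E) (κ : ℝ) (p : M)
    (s₀ C₀ : ℝ) (Y : ℝ → M → M) (h : M →ₘ[m] ℝ) (s : ℝ) : Prop where
  H : MemLp (fun z : ℝ × M => Hs h z.1 (Y z.1 z.2)) 2 ((volume.restrict (Ioc s 1)).prod m)
  G : MemLp (fun z : ℝ × M => Gr h (Y z.1 z.2)) 2 ((volume.restrict (Ioc s 1)).prod m)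
  w : MemLp (fun z : ℝ × M => wf6 m Gr HO h p s₀ C₀ z.1 (Y z.1 z.2)) 2
    ((volume.restrict (Ioc s 1)).prod m)
  q : Integrable (fun z : ℝ × M => qf6 Gr Hs Y h z.1 z.2) ((volume.restrict (Ioc s 1)).prod m)
  d : Integrable (fun z : ℝ × M => df6 m Gr HO Hs κ p s₀ C₀ Y h z.1 z.2)
    ((volume.restrict (Ioc s 1)).prod m)
  b : Integrable (fun z : ℝ × M => bf6 m Gr HO Hs κ p s₀ C₀ Y h z.1 z.2)
    ((volume.restrict (Ioc s 1)).prod m)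

/-- the integrated Riccati inequality -/
def RicInt6 (m : Measure M) (Gr : (M →ₘ[m] ℝ) → M → E)
    (HO : (M →ₘ[m] ℝ) → M → E →L[ℝ] E) (Hs : (M →ₘ[m] ℝ) → ℝ → M → E) (κ : ℝ) (p : M)
    (s₀ C₀ : ℝ) (Y : ℝ → M → M) (h : M →ₘ[m] ℝ) (s : ℝ) : Prop :=
  ∀ l ∈ (sob m).TestI, ∀ᵐ a ∂(volume.restrict (Ioo s 1)), ∀ᵐ b ∂(volume.restrict (Ioo s 1)),
    a < b → (∫ x, Real.exp (l x) * qf6 Gr Hs Y h b x ∂m)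
      - (∫ x, Real.exp (l x) * qf6 Gr Hs Y h a x ∂m)
        ≤ ∫ r in Ioc a b, ∫ x, Real.exp (l x) * bf6 m Gr HO Hs κ p s₀ C₀ Y h r x ∂m

/-- the integrated inequality up to the end point -/
def EndInt6 (m : Measure M) (Gr : (M →ₘ[m] ℝ) → M → E)
    (HO : (M →ₘ[m] ℝ) → M → E →L[ℝ] E) (Hs : (M →ₘ[m] ℝ) → ℝ → M → E) (κ : ℝ) (p : M)
    (s₀ C₀ : ℝ) (Y : ℝ → M → M) (h : M →ₘ[m] ℝ) (s : ℝ) : Prop :=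
  ∀ l ∈ (sob m).TestI, ∀ᵐ a ∂(volume.restrict (Ioo s 1)),
    (sob m).wHc (zc m p s₀ C₀ 1) h (ex l) - (∫ x, Real.exp (l x) * qf6 Gr Hs Y h a x ∂m)
      ≤ ∫ r in a..1, ∫ x, Real.exp (l x) * bf6 m Gr HO Hs κ p s₀ C₀ Y h r x ∂m

end defs6

/-! ### pieces (each has one owner) -/

/-- (S6) the end point at level `n` (owner helper788) -/
def Pc6_ss : Prop :=
  ∀ (M : Type u) [MetricSpace M] [CompleteSpace M] [SecondCountableTopology M] [MeasurableSpace M]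
    [BorelSpace M] (m : Measure M) (K N κ : ℝ) (P : ℝ → (M →ₘ[m] ℝ) → (M →ₘ[m] ℝ))
    (p : M) (s₀ C₀ : ℝ), CHyp M m K N P p s₀ C₀ →
    ∀ (E : Type) [NormedAddCommGroup E] [InnerProductSpace ℝ E] [CompleteSpace E]
    (Gr : (M →ₘ[m] ℝ) → M → E) (V : (M →ₘ[m] ℝ) → (M →ₘ[m] ℝ) → M → E)
    (D : (M →ₘ[m] ℝ) → (M →ₘ[m] ℝ))
    (HO : (M →ₘ[m] ℝ) → M → E →L[ℝ] E) (e : ℕ → M →ₘ[m] ℝ), EHyp m K N Gr V D HO e →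
    ∀ (u : ℕ → ℝ → M →ₘ[m] ℝ) (φ : (M →ₘ[m] ℝ) → ℕ → ℝ → M →ₘ[m] ℝ),
      OutA m K N P p s₀ C₀ u φ → LevB m Gr V D κ u φ →
    ∀ l ∈ (sob m).TestI, ∀ h ∈ (sob m).TestI,
      Tendsto (fun n => (sob m).SS (en n) (φ l n) (u n) h 1) atTop
        (𝓝 ((sob m).wHc (zc m p s₀ C₀ 1) h (ex l)))

/-- (F6) `RicFlow.fin` from the integrated inequality (owner helper788; use `loc_end`) -/
def Pc6_fin : Prop :=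
  ∀ (M : Type u) [MetricSpace M] [CompleteSpace M] [SecondCountableTopology M] [MeasurableSpace M]
    [BorelSpace M] (m : Measure M) (K N κ : ℝ) (P : ℝ → (M →ₘ[m] ℝ) → (M →ₘ[m] ℝ))
    (p : M) (s₀ C₀ : ℝ), CHyp M m K N P p s₀ C₀ →
    ∀ (E : Type) [NormedAddCommGroup E] [InnerProductSpace ℝ E] [CompleteSpace E]
    (Gr : (M →ₘ[m] ℝ) → M → E) (V : (M →ₘ[m] ℝ) → (M →ₘ[m] ℝ) → M → E)
    (D : (M →ₘ[m] ℝ) → (M →ₘ[m] ℝ))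
    (HO : (M →ₘ[m] ℝ) → M → E →L[ℝ] E) (e : ℕ → M →ₘ[m] ℝ), EHyp m K N Gr V D HO e →
    ∀ (φ ρ : ℝ → M →ₘ[m] ℝ) (R : ℝ → ℝ → (M →ₘ[m] ℝ) → (M →ₘ[m] ℝ)) (Y : ℝ → M → M)
      (Hs : (M →ₘ[m] ℝ) → ℝ → M → E),
      Lim m K N p s₀ C₀ φ ρ R → Maps ρ R Y → RFlow m K N p s₀ C₀ Y →
    ∀ h ∈ (sob m).TestI, (∀ s ∈ Ioo (0 : ℝ) 1, Int6 m Gr HO Hs κ p s₀ C₀ Y h s) →
      (∀ s ∈ Ioo (0 : ℝ) 1, EndInt6 m Gr HO Hs κ p s₀ C₀ Y h s) →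
      ∀ w ∈ (sob m).TestI, 0 ≤ w → ∃ A : ℝ, ∀ᵐ s ∂(volume.restrict (Ioo (1 / 2 : ℝ) 1)),
        Integrable (fun x => w x * ⟪Hs h s (Y s x), Gr h (Y s x)⟫_ℝ) m ∧
        (sob m).wH (zc m p s₀ C₀ 1) h w
          ≤ (∫ x, w x * ⟪Hs h s (Y s x), Gr h (Y s x)⟫_ℝ ∂m) + A * (1 - s)

/-- (R6) `RicFlow.ric` and `ricOff` from the localised inequality -/
def Pc6_ric : Prop :=
  ∀ (M : Type u) [MetricSpace M] [CompleteSpace M] [SecondCountableTopology M] [MeasurableSpace M]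
    [BorelSpace M] (m : Measure M) (K N κ : ℝ) (P : ℝ → (M →ₘ[m] ℝ) → (M →ₘ[m] ℝ))
    (p : M) (s₀ C₀ : ℝ), CHyp M m K N P p s₀ C₀ →
    ∀ (E : Type) [NormedAddCommGroup E] [InnerProductSpace ℝ E] [CompleteSpace E]
    (Gr : (M →ₘ[m] ℝ) → M → E) (V : (M →ₘ[m] ℝ) → (M →ₘ[m] ℝ) → M → E)
    (D : (M →ₘ[m] ℝ) → (M →ₘ[m] ℝ))
    (HO : (M →ₘ[m] ℝ) → M → E →L[ℝ] E) (e : ℕ → M →ₘ[m] ℝ), EHyp m K N Gr V D HO e →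
    ∀ (φ ρ : ℝ → M →ₘ[m] ℝ) (R : ℝ → ℝ → (M →ₘ[m] ℝ) → (M →ₘ[m] ℝ)) (Y : ℝ → M → M)
      (Hs : (M →ₘ[m] ℝ) → ℝ → M → E),
      Lim m K N p s₀ C₀ φ ρ R → Maps ρ R Y → RFlow m K N p s₀ C₀ Y →
    ∀ h ∈ (sob m).TestI,
      (∀ s ∈ Ioo (0 : ℝ) 1, ∀ᵐ x ∂m, ∀ᵐ a ∂(volume.restrict (Ioo s 1)),
        ∀ᵐ b ∂(volume.restrict (Ioo s 1)), a < b → qf6 Gr Hs Y h b x - qf6 Gr Hs Y h a x
          ≤ ∫ r in Ioc a b, bf6 m Gr HO Hs κ p s₀ C₀ Y h r x) →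
      (∀ᵐ x ∂m, dist p x < r1 s₀ C₀ →
        ∀ᵐ s ∂(volume.restrict (Ioc (0 : ℝ) 1)), ∀ᵐ t ∂(volume.restrict (Ioc (0 : ℝ) 1)), s < t →
        ⟪Hs h t (Y t x), Gr h (Y t x)⟫_ℝ - ⟪Hs h s (Y s x), Gr h (Y s x)⟫_ℝ ≤
          ∫ τ in s..t, (2 * spd1 p s₀ x *
                ⟪Hs h τ (Y τ x), HO h (Y τ x) (Gr (dc m p s₀ C₀) (Y τ x))⟫_ℝ
            - ‖Hs h τ (Y τ x)‖ ^ 2 - κ * spd1 p s₀ x ^ 2 * (‖Gr h (Y τ x)‖ ^ 2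
                - ⟪Gr h (Y τ x), Gr (dc m p s₀ C₀) (Y τ x)⟫_ℝ ^ 2))) ∧
      (∀ᵐ x ∂m, r1 s₀ C₀ ≤ dist p x →
        ∀ᵐ s ∂(volume.restrict (Ioc (0 : ℝ) 1)), ∀ᵐ t ∂(volume.restrict (Ioc (0 : ℝ) 1)), s < t →
        ⟪Hs h t x, Gr h x⟫_ℝ - ⟪Hs h s x, Gr h x⟫_ℝ ≤ ∫ τ in s..t, - ‖Hs h τ x‖ ^ 2)

end Vale.Agent.P233.PC
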