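import Vale.Agent.P233.MathlibUsed2

/-! P233, block C6: the real variable lemma for the limit of a differential inequality of which
only time integrals converge. -/

set_option linter.all false

open MeasureTheory Filter Topology Set

namespace Vale.Agent.P233.H249

theorem ii_sub {f : ℝ → ℝ} {s c : ℝ} (hf : IntervalIntegrable f volume s c) {x y : ℝ}
    (hx : x ∈ Icc s c) (hy : y ∈ Icc s c) : IntervalIntegrable f volume x y := by
  have hsc : s ≤ c := hx.1.trans hx.2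
  refine hf.mono_set ?_
  rw [uIcc_of_le hsc]
  exact uIcc_subset_Icc hx hy

theorem rv_core {s a b d η en : ℝ} {A D Q : ℝ → ℝ}
    (hsa : s ≤ a) (hd : 0 ≤ d) (hab : a + d ≤ b) (hb1 : b ≤ 1)
    (iD : IntervalIntegrable D volume s 1) (iQ : IntervalIntegrable Q volume s 1)
    (hQ : ∀ t ∈ Icc s 1, 0 ≤ Q t)
    (hine : ∀ x y, s ≤ x → x ≤ y → y ≤ 1 → A y - A x ≤ (∫ t in x..y, (D t - Q t)) + en)
    (mD : ∀ x y, s ≤ x → x ≤ y → y ≤ 1 → y - x ≤ d → |∫ t in x..y, D t| ≤ η)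
    {x y : ℝ} (hx : x ∈ Icc a (a + d)) (hy : y ∈ Icc b (b + d)) (hy1 : y ≤ 1) :
    A y - A x ≤ (∫ t in a..b, D t) + 2 * η - (∫ t in (a + d)..b, Q t) + en := by
  have hx1 : x ≤ 1 := by linarith [hx.2]
  have hsx : s ≤ x := by linarith [hx.1]
  have hxy : x ≤ y := by linarith [hx.2, hy.1]
  have hsb : s ≤ b := by linarith
  have hsy : s ≤ y := by linarith
  have mx : x ∈ Icc s 1 := ⟨hsx, hx1⟩
  have my : y ∈ Icc s 1 := ⟨hsy, hy1⟩
  have ma : a ∈ Icc s 1 := ⟨hsa, by linarith⟩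
  have mb : b ∈ Icc s 1 := ⟨hsb, hb1⟩
  have mad : a + d ∈ Icc s 1 := ⟨by linarith, by linarith⟩
  have h1 := hine x y hsx hxy hy1
  rw [intervalIntegral.integral_sub (ii_sub iD mx my) (ii_sub iQ mx my)] at h1
  have h2 : ∫ t in x..y, D t = (∫ t in a..b, D t) - (∫ t in a..x, D t) + ∫ t in b..y, D t := by
    have e1 : (∫ t in a..x, D t) + ∫ t in x..y, D t = ∫ t in a..y, D t :=
      intervalIntegral.integral_add_adjacent_intervals (ii_sub iD ma mx) (ii_sub iD mx my)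
    have e2 : (∫ t in a..b, D t) + ∫ t in b..y, D t = ∫ t in a..y, D t :=
      intervalIntegral.integral_add_adjacent_intervals (ii_sub iD ma mb) (ii_sub iD mb my)
    linarith
  have h3 : ∫ t in (a + d)..b, Q t ≤ ∫ t in x..y, Q t := by
    have e1 : (∫ t in x..(a + d), Q t) + ∫ t in (a + d)..b, Q t = ∫ t in x..b, Q t :=
      intervalIntegral.integral_add_adjacent_intervals (ii_sub iQ mx mad) (ii_sub iQ mad mb)
    have e2 : (∫ t in x..b, Q t) + ∫ t in b..y, Q t = ∫ t in x..y, Q t :=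
      intervalIntegral.integral_add_adjacent_intervals (ii_sub iQ mx mb) (ii_sub iQ mb my)
    have e3 : 0 ≤ ∫ t in x..(a + d), Q t :=
      intervalIntegral.integral_nonneg hx.2 fun t ht => hQ t ⟨hsx.trans ht.1, ht.2.trans mad.2⟩
    have e4 : 0 ≤ ∫ t in b..y, Q t :=
      intervalIntegral.integral_nonneg hy.1 fun t ht => hQ t ⟨hsb.trans ht.1, ht.2.trans hy1⟩
    linarith
  have h4 := abs_le.1 (mD a x hsa hx.1 hx1 (by linarith [hx.2]))
  have h5 := abs_le.1 (mD b y hsb hy.1 hy1 (by linarith [hy.2]))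
  linarith [h4.1, h5.2]

/-- averaging over the left end -/
theorem rv_avg_left {A : ℝ → ℝ} {a d c v : ℝ} (hd : 0 < d)
    (iA : IntervalIntegrable A volume a (a + d)) (h : ∀ x ∈ Icc a (a + d), v - A x ≤ c) :
    v ≤ d⁻¹ * (∫ x in a..(a + d), A x) + c := by
  have h1 : ∫ x in a..(a + d), (v - c) ≤ ∫ x in a..(a + d), A x :=
    intervalIntegral.integral_mono_on (by linarith) intervalIntegrable_const iA
      fun x hx => by linarith [h x hx]
  rw [intervalIntegral.integral_const, smul_eq_mul, add_sub_cancel_left] at h1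
  have h2 : d⁻¹ * (d * (v - c)) ≤ d⁻¹ * ∫ x in a..(a + d), A x :=
    mul_le_mul_of_nonneg_left h1 (inv_nonneg.2 hd.le)
  rw [← mul_assoc, inv_mul_cancel₀ hd.ne', one_mul] at h2
  linarith

/-- averaging over the right end -/
theorem rv_avg_right {A : ℝ → ℝ} {b d c : ℝ} (hd : 0 < d)
    (iA : IntervalIntegrable A volume b (b + d)) (h : ∀ x ∈ Icc b (b + d), A x ≤ c) :
    d⁻¹ * (∫ x in b..(b + d), A x) ≤ c := by
  have h1 : ∫ x in b..(b + d), A x ≤ ∫ x in b..(b + d), c :=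
    intervalIntegral.integral_mono_on (by linarith) iA intervalIntegrable_const
      fun x hx => h x hx
  rw [intervalIntegral.integral_const, smul_eq_mul, add_sub_cancel_left] at h1
  have h2 : d⁻¹ * (∫ x in b..(b + d), A x) ≤ d⁻¹ * (d * c) :=
    mul_le_mul_of_nonneg_left h1 (inv_nonneg.2 hd.le)
  rwa [← mul_assoc, inv_mul_cancel₀ hd.ne', one_mul] at h2

/-- The limit of averages at a Lebesgue point. -/
theorem rv_leb {A : ℝ → ℝ} {s a c : ℝ} (iA : IntervalIntegrable A volume s c)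
    (ha : a ∈ Ioo s c) (h : HasDerivAt (fun x => ∫ t in s..x, A t) (A a) a) :
    Tendsto (fun d : ℝ => d⁻¹ * ∫ x in a..(a + d), A x) (𝓝[>] 0) (𝓝 (A a)) := by
  have h1 := h.tendsto_slope_zero_right
  refine h1.congr' ?_
  have h2 : ∀ᶠ d : ℝ in 𝓝[>] 0, d < c - a := by
    filter_upwards [Ioo_mem_nhdsGT (sub_pos.2 ha.2)] with d hd using hd.2
  filter_upwards [h2, self_mem_nhdsWithin] with d hd hd0
  have hd0' : 0 < d := hd0
  have e : (∫ t in s..a, A t) + ∫ t in a..(a + d), A t = ∫ t in s..(a + d), A t :=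
    intervalIntegral.integral_add_adjacent_intervals
      (ii_sub iA ⟨le_rfl, (ha.1.trans ha.2).le⟩ ⟨ha.1.le, ha.2.le⟩)
      (ii_sub iA ⟨ha.1.le, ha.2.le⟩ ⟨by linarith [ha.1], by linarith⟩)
  rw [smul_eq_mul]
  congr 1
  linarith

/-- Continuity of the integral of `Q` in the left end. -/
theorem rv_cont {Q : ℝ → ℝ} {s a b : ℝ} (iQ : IntervalIntegrable Q volume s 1) (ha : a ∈ Ico s 1)
    (hb : b ∈ Icc s 1) :
    Tendsto (fun d : ℝ => ∫ t in (a + d)..b, Q t) (𝓝[>] 0) (𝓝 (∫ t in a..b, Q t)) := by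
  have h0 : ContinuousOn (fun x => ∫ t in s..x, Q t) (Icc s 1) := by
    have := intervalIntegral.continuousOn_primitive_interval' iQ (left_mem_uIcc)
    rwa [uIcc_of_le (ha.1.trans ha.2.le)] at this
  have h1 : Tendsto (fun d : ℝ => a + d) (𝓝[>] 0) (𝓝[Icc s 1] a) := by
    refine tendsto_nhdsWithin_iff.2 ⟨?_, ?_⟩
    · have : Tendsto (fun d : ℝ => a + d) (𝓝 0) (𝓝 (a + 0)) :=
        (continuous_const.add continuous_id).tendsto 0
      rw [add_zero] at this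
      exact this.mono_left nhdsWithin_le_nhds
    · filter_upwards [Ioo_mem_nhdsGT (sub_pos.2 ha.2)] with d hd
      exact ⟨by linarith [ha.1, hd.1], by linarith [hd.2]⟩
  have h2 := (h0 a ⟨ha.1, ha.2.le⟩).tendsto.comp h1
  have h3 : Tendsto (fun d : ℝ => (∫ t in s..b, Q t) - ∫ t in s..(a + d), Q t) (𝓝[>] 0)
      (𝓝 ((∫ t in s..b, Q t) - ∫ t in s..a, Q t)) := h2.const_sub _
  have e1 : (∫ t in s..b, Q t) - ∫ t in s..a, Q t = ∫ t in a..b, Q t := by
    have := intervalIntegral.integral_add_adjacent_intervals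
      (ii_sub iQ ⟨le_rfl, ha.1.trans ha.2.le⟩ ⟨ha.1, ha.2.le⟩) (ii_sub iQ ⟨ha.1, ha.2.le⟩ hb)
    linarith
  rw [e1] at h3
  refine h3.congr' ?_
  filter_upwards [Ioo_mem_nhdsGT (sub_pos.2 ha.2)] with d hd
  have md : a + d ∈ Icc s 1 := ⟨by linarith [ha.1, hd.1], by linarith [hd.2]⟩
  have := intervalIntegral.integral_add_adjacent_intervals
    (ii_sub iQ ⟨le_rfl, ha.1.trans ha.2.le⟩ md) (ii_sub iQ md hb)
  linarith

/-- THE REAL VARIABLE LEMMA. -/
theorem rv_main {U : Filter ℕ} [U.NeBot] {s : ℝ} (hs : s < 1) {A D Q : ℕ → ℝ → ℝ}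
    {A0 D0 Q0 : ℝ → ℝ} {e : ℕ → ℝ} (he : Tendsto e U (𝓝 0))
    (hA : ∀ᶠ n in U, IntervalIntegrable (A n) volume s 1)
    (hD : ∀ᶠ n in U, IntervalIntegrable (D n) volume s 1)
    (hQ : ∀ᶠ n in U, IntervalIntegrable (Q n) volume s 1)
    (hQ0 : ∀ᶠ n in U, ∀ t ∈ Icc s 1, 0 ≤ Q n t)
    (hine : ∀ᶠ n in U, ∀ a b, s ≤ a → a ≤ b → b ≤ 1 →
      A n b - A n a ≤ (∫ t in a..b, (D n t - Q n t)) + e n)
    (iA : IntervalIntegrable A0 volume s 1) (iD : IntervalIntegrable D0 volume s 1)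
    (iQ : IntervalIntegrable Q0 volume s 1)
    (lA : ∀ a b, s ≤ a → a ≤ b → b ≤ 1 →
      Tendsto (fun n => ∫ t in a..b, A n t) U (𝓝 (∫ t in a..b, A0 t)))
    (lD : ∀ a b, s ≤ a → a ≤ b → b ≤ 1 →
      Tendsto (fun n => ∫ t in a..b, D n t) U (𝓝 (∫ t in a..b, D0 t)))
    (lQ : ∀ a b, s ≤ a → a ≤ b → b ≤ 1 → ∀ η > 0, ∀ᶠ n in U,
      (∫ t in a..b, Q0 t) - η ≤ ∫ t in a..b, Q n t)
    (mD : ∀ η > 0, ∃ δ > 0, ∀ᶠ n in U, ∀ a b, s ≤ a → a ≤ b → b ≤ 1 → b - a ≤ δ →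
      |∫ t in a..b, D n t| ≤ η)
    {A1 : ℝ} (l1 : Tendsto (fun n => A n 1) U (𝓝 A1)) :
    ∃ G : Set ℝ, G ⊆ Ioo s 1 ∧ (∀ᵐ t ∂(volume.restrict (Ioo s 1)), t ∈ G) ∧
      (∀ a ∈ G, ∀ b ∈ G, a < b → A0 b - A0 a ≤ ∫ t in a..b, (D0 t - Q0 t)) ∧
      (∀ a ∈ G, A1 - A0 a ≤ ∫ t in a..1, (D0 t - Q0 t)) := by
  refine ⟨{a | a ∈ Ioo s 1 ∧ HasDerivAt (fun x => ∫ t in s..x, A0 t) (A0 a) a},
    fun a ha => ha.1, ?_, ?_, ?_⟩
  · rw [ae_restrict_iff' measurableSet_Ioo]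
    filter_upwards [iA.ae_hasDerivAt_integral] with t ht hts
    refine ⟨hts, ht ?_ s left_mem_uIcc⟩
    rw [uIcc_of_le hs.le]
    exact Ioo_subset_Icc_self hts
  · rintro a ⟨ha, hda⟩ b ⟨hb, hdb⟩ hab
    have h1 : ∀ η > 0, ∃ δ > 0, ∀ d, 0 < d → d < δ →
        d⁻¹ * (∫ x in b..(b + d), A0 x) ≤ d⁻¹ * (∫ x in a..(a + d), A0 x)
          + ((∫ t in a..b, D0 t) + 2 * η - (∫ t in (a + d)..b, Q0 t) + η) := by
      intro η hη
      obtain ⟨δ, hδ, hm⟩ := mD η hη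
      refine ⟨min δ (min (b - a) (1 - b)), lt_min hδ (lt_min (by linarith) (by linarith [hb.2])),
        fun d hd hdδ => ?_⟩
      have hd1 : d < δ := hdδ.trans_le (min_le_left _ _)
      have hd2 : d < b - a := hdδ.trans_le ((min_le_right _ _).trans (min_le_left _ _))
      have hd3 : d < 1 - b := hdδ.trans_le ((min_le_right _ _).trans (min_le_right _ _))
      have k1 : ∀ᶠ n in U, d⁻¹ * (∫ x in b..(b + d), A n x) ≤
          d⁻¹ * (∫ x in a..(a + d), A n x)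
          + ((∫ t in a..b, D n t) + 2 * η - (∫ t in (a + d)..b, Q n t) + e n) := by
        filter_upwards [hA, hD, hQ, hQ0, hine, hm] with n a1 a2 a3 a4 a5 a6
        refine rv_avg_right hd (ii_sub a1 ⟨hb.1.le, hb.2.le⟩ ⟨by linarith [hb.1], by linarith⟩) ?_
        intro y hy
        refine rv_avg_left hd (ii_sub a1 ⟨ha.1.le, ha.2.le⟩ ⟨by linarith [ha.1], by linarith [hb.2]⟩) ?_
        intro x hx
        exact rv_core ha.1.le hd.le (by linarith) hb.2.le a2 a3 a4 a5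
          (fun x y h1 h2 h3 h4 => a6 x y h1 h2 h3 (h4.trans hd1.le)) hx hy (by linarith [hy.2])
      have k2 := lQ (a + d) b (by linarith [ha.1]) (by linarith) hb.2.le η hη
      have k3 : ∀ᶠ n in U, d⁻¹ * (∫ x in b..(b + d), A n x) ≤
          d⁻¹ * (∫ x in a..(a + d), A n x)
          + ((∫ t in a..b, D n t) + 2 * η - ((∫ t in (a + d)..b, Q0 t) - η) + e n) := by
        filter_upwards [k1, k2] with n b1 b2
        linarith
      have k4 : Tendsto (fun n => d⁻¹ * (∫ x in b..(b + d), A n x)) U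
          (𝓝 (d⁻¹ * (∫ x in b..(b + d), A0 x))) :=
        (lA b (b + d) hb.1.le (by linarith) (by linarith)).const_mul _
      have k5 : Tendsto (fun n => d⁻¹ * (∫ x in a..(a + d), A n x)
          + ((∫ t in a..b, D n t) + 2 * η - ((∫ t in (a + d)..b, Q0 t) - η) + e n)) U
          (𝓝 (d⁻¹ * (∫ x in a..(a + d), A0 x)
          + ((∫ t in a..b, D0 t) + 2 * η - ((∫ t in (a + d)..b, Q0 t) - η) + 0))) := by
        refine ((lA a (a + d) ha.1.le (by linarith) (by linarith [hb.2])).const_mul _).add ?_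
        exact (((lD a b ha.1.le hab.le hb.2.le).add_const _).sub_const _).add he
      have k6 := le_of_tendsto_of_tendsto k4 k5 k3
      linarith
    have h2 : ∀ η > 0, A0 b ≤ A0 a + ((∫ t in a..b, D0 t) + 2 * η - (∫ t in a..b, Q0 t) + η) := by
      intro η hη
      obtain ⟨δ, hδ, h⟩ := h1 η hη
      refine le_of_tendsto_of_tendsto (rv_leb iA hb hdb) ((rv_leb iA ha hda).add
        ((tendsto_const_nhds.sub (rv_cont iQ ⟨ha.1.le, ha.2⟩ ⟨hb.1.le, hb.2.le⟩)).add_const _)) ?_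
      filter_upwards [Ioo_mem_nhdsGT hδ] with d hd
      exact h d hd.1 hd.2
    have h3 : A0 b - A0 a ≤ (∫ t in a..b, D0 t) - ∫ t in a..b, Q0 t := by
      refine le_of_forall_pos_le_add fun η hη => ?_
      have := h2 (η / 3) (by positivity)
      linarith
    rwa [← intervalIntegral.integral_sub (ii_sub iD ⟨ha.1.le, ha.2.le⟩ ⟨hb.1.le, hb.2.le⟩)
      (ii_sub iQ ⟨ha.1.le, ha.2.le⟩ ⟨hb.1.le, hb.2.le⟩)] at h3
  · rintro a ⟨ha, hda⟩
    have h1 : ∀ η > 0, ∃ δ > 0, ∀ d, 0 < d → d < δ →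
        A1 ≤ d⁻¹ * (∫ x in a..(a + d), A0 x)
          + ((∫ t in a..1, D0 t) + 2 * η - (∫ t in (a + d)..1, Q0 t) + η) := by
      intro η hη
      obtain ⟨δ, hδ, hm⟩ := mD η hη
      refine ⟨min δ (1 - a), lt_min hδ (by linarith [ha.2]), fun d hd hdδ => ?_⟩
      have hd1 : d < δ := hdδ.trans_le (min_le_left _ _)
      have hd2 : d < 1 - a := hdδ.trans_le (min_le_right _ _)
      have k1 : ∀ᶠ n in U, A n 1 ≤ d⁻¹ * (∫ x in a..(a + d), A n x)
          + ((∫ t in a..1, D n t) + 2 * η - (∫ t in (a + d)..1, Q n t) + e n) := by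
        filter_upwards [hA, hD, hQ, hQ0, hine, hm] with n a1 a2 a3 a4 a5 a6
        refine rv_avg_left hd (ii_sub a1 ⟨ha.1.le, ha.2.le⟩ ⟨by linarith [ha.1], by linarith⟩) ?_
        intro x hx
        exact rv_core ha.1.le hd.le (by linarith) le_rfl a2 a3 a4 a5
          (fun x y h1 h2 h3 h4 => a6 x y h1 h2 h3 (h4.trans hd1.le)) hx
          (⟨le_rfl, by linarith⟩ : (1 : ℝ) ∈ Icc 1 (1 + d)) le_rfl
      have k2 := lQ (a + d) 1 (by linarith [ha.1]) (by linarith) le_rfl η hη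
      have k3 : ∀ᶠ n in U, A n 1 ≤ d⁻¹ * (∫ x in a..(a + d), A n x)
          + ((∫ t in a..1, D n t) + 2 * η - ((∫ t in (a + d)..1, Q0 t) - η) + e n) := by
        filter_upwards [k1, k2] with n b1 b2
        linarith
      have k5 : Tendsto (fun n => d⁻¹ * (∫ x in a..(a + d), A n x)
          + ((∫ t in a..1, D n t) + 2 * η - ((∫ t in (a + d)..1, Q0 t) - η) + e n)) U
          (𝓝 (d⁻¹ * (∫ x in a..(a + d), A0 x)
          + ((∫ t in a..1, D0 t) + 2 * η - ((∫ t in (a + d)..1, Q0 t) - η) + 0))) := by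
        refine ((lA a (a + d) ha.1.le (by linarith) (by linarith)).const_mul _).add ?_
        exact (((lD a 1 ha.1.le ha.2.le le_rfl).add_const _).sub_const _).add he
      have k6 := le_of_tendsto_of_tendsto l1 k5 k3
      linarith
    have h2 : ∀ η > 0, A1 ≤ A0 a + ((∫ t in a..1, D0 t) + 2 * η - (∫ t in a..1, Q0 t) + η) := by
      intro η hη
      obtain ⟨δ, hδ, h⟩ := h1 η hη
      refine ge_of_tendsto ((rv_leb iA ha hda).add
        ((tendsto_const_nhds.sub (rv_cont iQ ⟨ha.1.le, ha.2⟩ ⟨hs.le, le_rfl⟩)).add_const _)) ?_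
      filter_upwards [Ioo_mem_nhdsGT hδ] with d hd
      exact h d hd.1 hd.2
    have h3 : A1 - A0 a ≤ (∫ t in a..1, D0 t) - ∫ t in a..1, Q0 t := by
      refine le_of_forall_pos_le_add fun η hη => ?_
      have := h2 (η / 3) (by positivity)
      linarith
    rwa [← intervalIntegral.integral_sub (ii_sub iD ⟨ha.1.le, ha.2.le⟩ ⟨hs.le, le_rfl⟩)
      (ii_sub iQ ⟨ha.1.le, ha.2.le⟩ ⟨hs.le, le_rfl⟩)] at h3

end Vale.Agent.P233.H249
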