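import Vale.Agent.P233.H249.If6
import Vale.Agent.P233.H249.RV
import Vale.Agent.P233.H249.Est6
import Vale.Agent.P233.H183.Sec
import Vale.Agent.P233.H719.TU4
import Vale.Agent.P233.H671.C6bStat
import Vale.Agent.P233.H134.C4a

/-! P233, block C6 (helper249): static facts and the space-time integrability `Int6`. -/

set_option linter.all false

open MeasureTheory Filter Topology Set
open scoped ENNReal NNReal InnerProductSpace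

universe u

namespace Vale.Agent.P233.H249

open Vale.Agent.P233.PA (en OutA PotLim)
open Vale.Agent.P233.PC

section st

variable {M : Type u} [MetricSpace M] [SecondCountableTopology M] [MeasurableSpace M]
  [BorelSpace M] {m : Measure M} {K N κ : ℝ} {P : ℝ → (M →ₘ[m] ℝ) → (M →ₘ[m] ℝ)} {p : M}
  {s₀ C₀ : ℝ}
  {E : Type} [NormedAddCommGroup E] [InnerProductSpace ℝ E]
  {Gr : (M →ₘ[m] ℝ) → M → E} {V : (M →ₘ[m] ℝ) → (M →ₘ[m] ℝ) → M → E}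
  {D : (M →ₘ[m] ℝ) → (M →ₘ[m] ℝ)} {HO : (M →ₘ[m] ℝ) → M → E →L[ℝ] E} {e : ℕ → M →ₘ[m] ℝ}
  {h : M →ₘ[m] ℝ}

/-- the static facts about one `h ∈ TestI` -/
structure St6 (m : Measure M) (p : M) (s₀ C₀ : ℝ) (Gr : (M →ₘ[m] ℝ) → M → E)
    (HO : (M →ₘ[m] ℝ) → M → E →L[ℝ] E) (h : M →ₘ[m] ℝ) (L : M → ℝ) (G : ℝ) : Prop where
  gm : StronglyMeasurable (Gr h)
  g2 : MemLp (Gr h) 2 m
  G0 : 0 ≤ G
  gb : ∀ᵐ x ∂m, ‖Gr h x‖ ≤ G
  dm : StronglyMeasurable (Gr (dc m p s₀ C₀))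
  db : ∀ᵐ x ∂m, ‖Gr (dc m p s₀ C₀) x‖ ≤ 1
  L2 : MemLp L 2 m
  Lb : ∀ᵐ x ∂m, ‖HO h x‖ ≤ L x
  hm : AEStronglyMeasurable (fun x => HO h x (Gr (dc m p s₀ C₀) x)) m
  hb : ∀ᵐ x ∂m, ‖HO h x (Gr (dc m p s₀ C₀) x)‖ ≤ L x
  h2 : MemLp (fun x => HO h x (Gr (dc m p s₀ C₀) x)) 2 m

theorem exists_St6 (hyp : CHyp M m K N P p s₀ C₀) (hE : EHyp m K N Gr V D HO e)
    (hh : h ∈ (sob m).TestI) : ∃ L G, St6 m p s₀ C₀ Gr HO h L G := by
  have hC := H719.std_gamma hyp.std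
  have hd := H183.dc_mem_A hyp.std.hfin p s₀ C₀
  have hW : h ∈ (sob m).W := (hC.test_A hh.1).1
  obtain ⟨c, hc⟩ := hE.stat.hess.norm
  obtain ⟨L, hL2, hLb, -⟩ := hc h hh.1
  obtain ⟨B, hB⟩ := mem_top_iff.1 (hC.test_Γ_top hh.1)
  have dm := hE.stat.gmeas _ hd.1
  have db : ∀ᵐ x ∂m, ‖Gr (dc m p s₀ C₀) x‖ ≤ 1 := by
    filter_upwards [H183.Γ_cl_le hyp.std.hfin (H183.dtr_lip p (r1 s₀ C₀))
      (fun _ h => H183.dtr_zero h), hE.stat.grad.inner _ hd.1 _ hd.1] with x a1 a2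
    have a3 : (sob m).Γ (dc m p s₀ C₀) (dc m p s₀ C₀) x ≤ 1 := by
      have : (sob m).Γ (dc m p s₀ C₀) (dc m p s₀ C₀) x ≤ ((1 : ℝ≥0) : ℝ) ^ 2 := a1
      simpa using this
    rw [real_inner_self_eq_norm_sq] at a2
    rw [← a2] at a3
    exact (sq_le_one_iff₀ (norm_nonneg _)).1 a3
  have hm : AEStronglyMeasurable (fun x => HO h x (Gr (dc m p s₀ C₀) x)) m :=
    H561.clm_apply_aemeas (A := fun y : M => HO h y) (fun w => hE.stat.hess.meas h hh.1 w) dm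
  have hb : ∀ᵐ x ∂m, ‖HO h x (Gr (dc m p s₀ C₀) x)‖ ≤ L x := by
    filter_upwards [hLb, db] with x a1 a2
    calc ‖HO h x (Gr (dc m p s₀ C₀) x)‖ ≤ ‖HO h x‖ * ‖Gr (dc m p s₀ C₀) x‖ :=
          (HO h x).le_opNorm _
      _ ≤ ‖HO h x‖ * 1 := by gcongr
      _ ≤ L x := by rw [mul_one]; exact a1
  refine ⟨L, √B, hE.stat.gmeas _ hW, hE.stat.grad.mem _ hW, Real.sqrt_nonneg _, ?_, dm, db, hL2,
    hLb, hm, hb, hL2.of_le hm ?_⟩
  · filter_upwards [hE.stat.grad.inner _ hW _ hW, hB] with x a1 a2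
    rw [real_inner_self_eq_norm_sq] at a1
    refine Real.le_sqrt_of_sq_le ?_
    rw [a1]
    exact (le_abs_self _).trans a2
  · filter_upwards [hb] with x a1
    exact a1.trans (le_abs_self _)

theorem cz6_eq (t : ℝ) (y : M) : cz6 p s₀ C₀ t y = H183.cz p s₀ C₀ t y := rfl

theorem cz6_meas : Measurable fun z : ℝ × M => cz6 p s₀ C₀ z.1 z.2 :=
  H183.cz_measurable p s₀ C₀

theorem cz6_abs (hyp : CHyp M m K N P p s₀ C₀) {t : ℝ} (ht : t ∈ Icc (0 : ℝ) 1) (y : M) :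
    |cz6 p s₀ C₀ t y| ≤ r1 s₀ C₀ / s₀ := by
  rw [cz6_eq, abs_of_nonneg (H183.cz_nonneg hyp.hs ht y)]
  exact H183.cz_le hyp.hs hyp.hC0 ht y

/-- the compression of the flow on `[s,1]` -/
theorem compr {Y : ℝ → M → M} (hN : 0 < N) (hF : RFlow m K N p s₀ C₀ Y) {s : ℝ} (hs : 0 < s) :
    ∀ t ∈ Ioc s 1, ∀ A : Set M, MeasurableSet A →
      m (Y t ⁻¹' A) ≤ ENNReal.ofReal (cK K C₀ * s ^ (-N)) * m A := by
  intro t ht A hA
  refine (hF.dens t ⟨hs.trans ht.1, ht.2⟩ A hA).trans ?_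
  refine mul_le_mul_left (ENNReal.ofReal_le_ofReal ?_) _
  exact mul_le_mul_of_nonneg_left (Real.rpow_le_rpow_of_nonpos hs ht.1.le (by linarith))
    (Real.exp_pos _).le

end st

section int6

variable {M : Type u} [MetricSpace M] [SecondCountableTopology M] [MeasurableSpace M]
  [BorelSpace M] {m : Measure M} {K N κ : ℝ} {P : ℝ → (M →ₘ[m] ℝ) → (M →ₘ[m] ℝ)} {p : M}
  {s₀ C₀ : ℝ}
  {E : Type} [NormedAddCommGroup E] [InnerProductSpace ℝ E]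
  {Gr : (M →ₘ[m] ℝ) → M → E} {V : (M →ₘ[m] ℝ) → (M →ₘ[m] ℝ) → M → E}
  {D : (M →ₘ[m] ℝ) → (M →ₘ[m] ℝ)} {HO : (M →ₘ[m] ℝ) → M → E →L[ℝ] E} {e : ℕ → M →ₘ[m] ℝ}
  {h : M →ₘ[m] ℝ} {u : ℕ → ℝ → M →ₘ[m] ℝ} {φ : (M →ₘ[m] ℝ) → ℕ → ℝ → M →ₘ[m] ℝ}
  {U : Ultrafilter ℕ} {Y : ℝ → M → M} {Hs : (M →ₘ[m] ℝ) → ℝ → M → E} {Λ : ℝ → M → ℝ}
  {L : M → ℝ} {G s : ℝ}

/-- `wf6` as a space-time field -/
theorem wf6_memLp [SFinite m] (hyp : CHyp M m K N P p s₀ C₀) (hT : St6 m p s₀ C₀ Gr HO h L G)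
    (hs : 0 < s) : MemLp (fun z : ℝ × M => wf6 m Gr HO h p s₀ C₀ z.1 z.2) 2
      ((volume.restrict (Ioc s 1)).prod m) := by
  have h1 : MemLp (fun z : ℝ × M => HO h z.2 (Gr (dc m p s₀ C₀) z.2)) 2
      ((volume.restrict (Ioc s 1)).prod m) := hT.h2.comp_snd _
  refine (h1.const_smul (r1 s₀ C₀ / s₀)).of_le
    (cz6_meas.aestronglyMeasurable.smul h1.1) ?_
  have h2 : ∀ᵐ z ∂((volume.restrict (Ioc s 1)).prod m), z.1 ∈ Ioc s 1 :=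
    Measure.quasiMeasurePreserving_fst.ae (ae_restrict_mem measurableSet_Ioc)
  filter_upwards [h2] with z hz
  show ‖cz6 p s₀ C₀ z.1 z.2 • HO h z.2 (Gr (dc m p s₀ C₀) z.2)‖ ≤ _
  rw [Pi.smul_apply, norm_smul, norm_smul]
  gcongr
  rw [Real.norm_eq_abs, Real.norm_eq_abs]
  exact (cz6_abs hyp ⟨hs.le.trans hz.1.le, hz.2⟩ z.2).trans (le_abs_self _)

theorem gh_memLp [SFinite m] (hT : St6 m p s₀ C₀ Gr HO h L G) :
    MemLp (fun z : ℝ × M => Gr h z.2) 2 ((volume.restrict (Ioc s 1)).prod m) :=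
  hT.g2.comp_snd _

theorem hs_memLp [SFinite m] (hyp : CHyp M m K N P p s₀ C₀) (hF : RFlow m K N p s₀ C₀ Y)
    (hH : HLim m U Gr V u φ Y e Hs Λ) (hT : St6 m p s₀ C₀ Gr HO h L G)
    (hh : h ∈ (sob m).TestI) (hs : s ∈ Ioo (0 : ℝ) 1) :
    MemLp (fun z : ℝ × M => Hs h z.1 (Y z.1 z.2)) 2 ((volume.restrict (Ioc s 1)).prod m) := by
  have hYm := TY_meas hF.meas
  have mH : StronglyMeasurable fun z : ℝ × M => Hs h z.1 (Y z.1 z.2) :=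
    (hH.meas h hh).comp_measurable hYm
  have mΛ : Measurable fun z : ℝ × M => Λ z.1 (Y z.1 z.2) := hH.measΛ.comp hYm
  have mG : StronglyMeasurable fun z : ℝ × M => Gr h (Y z.1 z.2) :=
    hT.gm.comp_measurable hF.meas
  have hcomp := compr hyp.std.hN hF hs.1
  have b1 : ∀ᵐ z ∂((volume.restrict (Ioc s 1)).prod m),
      ‖Hs h z.1 (Y z.1 z.2)‖ ≤ Λ z.1 (Y z.1 z.2) * ‖Gr h (Y z.1 z.2)‖ := by
    refine (Measure.ae_prod_iff_ae_ae (p := fun z : ℝ × M =>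
      ‖Hs h z.1 (Y z.1 z.2)‖ ≤ Λ z.1 (Y z.1 z.2) * ‖Gr h (Y z.1 z.2)‖)
      (measurableSet_le mH.norm.measurable (mΛ.mul mG.norm.measurable))).2 ?_
    exact ae_restrict_of_ae_restrict_of_subset (Ioc_subset_Ioc_left hs.1.le) (hH.bd h hh)
  have b2 : ∀ᵐ z ∂((volume.restrict (Ioc s 1)).prod m), ‖Gr h (Y z.1 z.2)‖ ≤ G := by
    refine ae_TY (p := fun _ y => ‖Gr h y‖ ≤ G) hF.meas hcomp ?_
    exact Measure.quasiMeasurePreserving_snd.ae hT.gb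
  have iΛ : MemLp (fun z : ℝ × M => Λ z.1 (Y z.1 z.2)) 2 ((volume.restrict (Ioc s 1)).prod m) := by
    rw [memLp_two_iff_integrable_sq mΛ.aestronglyMeasurable]
    refine ⟨(mΛ.pow_const 2).aestronglyMeasurable, ?_⟩
    rw [hasFiniteIntegral_iff_ofReal (ae_of_all _ fun z => sq_nonneg _)]
    rw [lintegral_prod _ (mΛ.pow_const 2).ennreal_ofReal.aemeasurable]
    exact hH.int s hs
  refine (iΛ.const_mul G).of_le mH.aestronglyMeasurable ?_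
  filter_upwards [b1, b2] with z a1 a2
  have hΛ := hH.nonneg z.1 (Y z.1 z.2)
  calc ‖Hs h z.1 (Y z.1 z.2)‖ ≤ Λ z.1 (Y z.1 z.2) * ‖Gr h (Y z.1 z.2)‖ := a1
    _ ≤ Λ z.1 (Y z.1 z.2) * G := by gcongr
    _ = G * Λ z.1 (Y z.1 z.2) := mul_comm _ _
    _ ≤ ‖G * Λ z.1 (Y z.1 z.2)‖ := le_abs_self _

/-- **Int6** -/
theorem int6 [SFinite m] (hyp : CHyp M m K N P p s₀ C₀) (hF : RFlow m K N p s₀ C₀ Y)
    (hH : HLim m U Gr V u φ Y e Hs Λ) (hT : St6 m p s₀ C₀ Gr HO h L G)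
    (hh : h ∈ (sob m).TestI) (hs : s ∈ Ioo (0 : ℝ) 1) : Int6 m Gr HO Hs κ p s₀ C₀ Y h s := by
  have hcomp := compr hyp.std.hN hF hs.1
  have iH := hs_memLp hyp hF hH hT hh hs
  have iG : MemLp (fun z : ℝ × M => Gr h (Y z.1 z.2)) 2 ((volume.restrict (Ioc s 1)).prod m) :=
    memLp_TY (F := fun z : ℝ × M => Gr h z.2) hF.meas ENNReal.ofReal_ne_top hcomp (gh_memLp hT)
  have iw : MemLp (fun z : ℝ × M => wf6 m Gr HO h p s₀ C₀ z.1 (Y z.1 z.2)) 2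
      ((volume.restrict (Ioc s 1)).prod m) :=
    memLp_TY (F := fun z : ℝ × M => wf6 m Gr HO h p s₀ C₀ z.1 z.2) hF.meas ENNReal.ofReal_ne_top
      hcomp (wf6_memLp hyp hT hs.1)
  -- the velocity
  have mv : StronglyMeasurable fun z : ℝ × M => vf6 m Gr p s₀ C₀ z.1 (Y z.1 z.2) := by
    have h1 : StronglyMeasurable fun z : ℝ × M => vf6 m Gr p s₀ C₀ z.1 z.2 :=
      cz6_meas.stronglyMeasurable.smul (hT.dm.comp_measurable measurable_snd)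
    exact h1.comp_measurable (TY_meas hF.meas)
  have bv : ∀ᵐ z ∂((volume.restrict (Ioc s 1)).prod m),
      ‖vf6 m Gr p s₀ C₀ z.1 (Y z.1 z.2)‖ ≤ r1 s₀ C₀ / s₀ := by
    refine ae_TY (p := fun t y => ‖vf6 m Gr p s₀ C₀ t y‖ ≤ r1 s₀ C₀ / s₀) hF.meas hcomp ?_
    have h2 : ∀ᵐ z ∂((volume.restrict (Ioc s 1)).prod m), z.1 ∈ Ioc s 1 :=
      Measure.quasiMeasurePreserving_fst.ae (ae_restrict_mem measurableSet_Ioc)
    have h3 : ∀ᵐ z ∂((volume.restrict (Ioc s 1)).prod m), ‖Gr (dc m p s₀ C₀) z.2‖ ≤ 1 :=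
      Measure.quasiMeasurePreserving_snd.ae hT.db
    filter_upwards [h2, h3] with z a1 a2
    unfold vf6
    rw [norm_smul, Real.norm_eq_abs]
    have h4 := cz6_abs hyp (t := z.1) ⟨hs.1.le.trans a1.1.le, a1.2⟩ z.2
    calc |cz6 p s₀ C₀ z.1 z.2| * ‖Gr (dc m p s₀ C₀) z.2‖ ≤ (r1 s₀ C₀ / s₀) * 1 := by
          gcongr
          exact (abs_nonneg _).trans h4
      _ = _ := mul_one _
  have iX : Integrable (fun z : ℝ × M => ‖Gr h (Y z.1 z.2)‖ ^ 2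
      * ‖vf6 m Gr p s₀ C₀ z.1 (Y z.1 z.2)‖ ^ 2
        - ⟪Gr h (Y z.1 z.2), vf6 m Gr p s₀ C₀ z.1 (Y z.1 z.2)⟫_ℝ ^ 2)
      ((volume.restrict (Ioc s 1)).prod m) := by
    have i1 : Integrable (fun z : ℝ × M => ‖Gr h (Y z.1 z.2)‖ ^ 2)
        ((volume.restrict (Ioc s 1)).prod m) := (memLp_two_iff_integrable_sq_norm iG.1).1 iG
    refine (i1.const_mul ((r1 s₀ C₀ / s₀) ^ 2)).mono' ?_ ?_
    · exact ((iG.1.norm.pow 2).mul (mv.aestronglyMeasurable.norm.pow 2)).sub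
        ((iG.1.inner mv.aestronglyMeasurable).pow 2)
    · filter_upwards [bv] with z hz
      have h5 := Xs_nonneg (Gr h (Y z.1 z.2)) (vf6 m Gr p s₀ C₀ z.1 (Y z.1 z.2))
      have h6 := Xs_le (Gr h (Y z.1 z.2)) (vf6 m Gr p s₀ C₀ z.1 (Y z.1 z.2))
      show ‖Xs (Gr h (Y z.1 z.2)) (vf6 m Gr p s₀ C₀ z.1 (Y z.1 z.2))‖ ≤ _
      rw [Real.norm_of_nonneg h5]
      refine h6.trans ?_
      rw [mul_comm]
      gcongr
  have iq : Integrable (fun z : ℝ × M => qf6 Gr Hs Y h z.1 z.2)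
      ((volume.restrict (Ioc s 1)).prod m) := int_inner2 iH iG
  have id6 : Integrable (fun z : ℝ × M => df6 m Gr HO Hs κ p s₀ C₀ Y h z.1 z.2)
      ((volume.restrict (Ioc s 1)).prod m) :=
    ((int_inner2 iH iw).const_mul 2).sub (iX.const_mul κ)
  exact ⟨iH, iG, iw, iq, id6, id6.sub ((memLp_two_iff_integrable_sq_norm iH.1).1 iH)⟩

end int6

end Vale.Agent.P233.H249
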