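import Vale.Agent.P233.H249.M6a

/-! P233, block C6 (helper249): continuity in time of the test fields, and the estimates at one
level and one time. -/

set_option linter.all false

open MeasureTheory Filter Topology Set
open scoped ENNReal NNReal InnerProductSpace

universe u

namespace Vale.Agent.P233.H249

open Vale.Agent.P233.PA (en OutA PotLim)
open Vale.Agent.P233.PC

section gen

variable {M : Type u} [MeasurableSpace M] {m : Measure M}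

/-- `L²` continuity of `c_t • F` -/
theorem smul_cont {F' : Type*} [NormedAddCommGroup F'] [NormedSpace ℝ F'] {S : Set ℝ}
    {c : ℝ → M → ℝ} {F0 : M → F'} (hF0 : MemLp F0 2 m)
    (hc : ∀ t ∈ S, AEStronglyMeasurable (c t) m) {B : ℝ} (hB : ∀ t ∈ S, ∀ x, |c t x| ≤ B)
    {t : ℝ} (ht : t ∈ S)
    (hl : ∀ᵐ x ∂m, F0 x = 0 ∨ Tendsto (fun τ => c τ x) (𝓝[S] t) (𝓝 (c t x))) :
    Tendsto (fun τ => ∫ x, ‖c τ x • F0 x - c t x • F0 x‖ ^ 2 ∂m) (𝓝[S] t) (𝓝 0) := by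
  have h0 : ∫ x : M, (0 : ℝ) ∂m = 0 := by simp
  rw [← h0]
  have hmem : ∀ᶠ τ in 𝓝[S] t, τ ∈ S := self_mem_nhdsWithin
  refine tendsto_integral_filter_of_dominated_convergence (fun x => (2 * B) ^ 2 * ‖F0 x‖ ^ 2)
    ?_ ?_ (((memLp_two_iff_integrable_sq_norm hF0.1).1 hF0).const_mul _) ?_
  · filter_upwards [hmem] with τ hτ
    exact ((((hc τ hτ).smul hF0.1).sub ((hc t ht).smul hF0.1)).norm.pow 2)
  · filter_upwards [hmem] with τ hτ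
    filter_upwards with x
    rw [← sub_smul, norm_smul, mul_pow, Real.norm_of_nonneg (by positivity)]
    gcongr
    rw [Real.norm_eq_abs]
    have h1 := abs_sub (c τ x) (c t x)
    have h2 := hB τ hτ x
    have h3 := hB t ht x
    linarith
  · filter_upwards [hl] with x hx
    rcases hx with hx | hx
    · simp only [hx, smul_zero, sub_zero, norm_zero]
      rw [zero_pow two_ne_zero]
      exact tendsto_const_nhds
    · have h1 : Tendsto (fun τ => ‖(c τ x - c t x) • F0 x‖ ^ 2) (𝓝[S] t)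
          (𝓝 (‖(c t x - c t x) • F0 x‖ ^ 2)) :=
        (((hx.sub_const _).smul_const _).norm).pow 2
      simpa [sub_smul] using h1

end gen

section ball

variable {M : Type u} [MetricSpace M] [SecondCountableTopology M] [MeasurableSpace M]
  [BorelSpace M] {m : Measure M} {p : M}

/-- bounded curves with bounded support -/
theorem ball_mem {F' : Type*} [NormedAddCommGroup F'] 
    (hfin : ∀ (x : M) (r : ℝ), m (Metric.ball x r) < ∞) {f : M → F'}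
    (hm : AEStronglyMeasurable f m) {B R : ℝ} (hB : ∀ x, ‖f x‖ ≤ B)
    (hR : ∀ x, R ≤ dist p x → f x = 0) (q : ℝ≥0∞) : MemLp f q m := by
  have hball : MeasurableSet (Metric.ball p R) := Metric.isOpen_ball.measurableSet
  refine (memLp_indicator_const q hball B (Or.inr (hfin p R).ne)).of_le hm ?_
  filter_upwards with x
  by_cases hx : dist p x < R
  · rw [indicator_of_mem (by rwa [Metric.mem_ball, dist_comm])]
    exact (hB x).trans (le_abs_self _)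
  · rw [hR x (not_lt.1 hx), norm_zero]
    exact norm_nonneg _

theorem ball_cont {F' : Type*} [NormedAddCommGroup F'] 
    (hfin : ∀ (x : M) (r : ℝ), m (Metric.ball x r) < ∞) {f : ℝ → M → F'}
    (hm : ∀ t, AEStronglyMeasurable (f t) m) {B R : ℝ} (hB : ∀ t x, ‖f t x‖ ≤ B)
    (hR : ∀ t x, R ≤ dist p x → f t x = 0) (hc : ∀ x, Continuous fun t => f t x) (t : ℝ) :
    Tendsto (fun τ => ∫ x, ‖f τ x - f t x‖ ^ 2 ∂m) (𝓝 t) (𝓝 0) := by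
  have h0 : ∫ x : M, (0 : ℝ) ∂m = 0 := by simp
  rw [← h0]
  have hball : MeasurableSet (Metric.ball p R) := Metric.isOpen_ball.measurableSet
  have hind : Integrable ((Metric.ball p R).indicator fun _ : M => (2 * B) ^ 2) m :=
    (integrableOn_const (hfin p _).ne).integrable_indicator hball
  refine tendsto_integral_filter_of_dominated_convergence
    ((Metric.ball p R).indicator fun _ : M => (2 * B) ^ 2) ?_ ?_ hind ?_
  · exact Eventually.of_forall fun τ => ((hm τ).sub (hm t)).norm.pow 2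
  · refine Eventually.of_forall fun τ => ?_
    filter_upwards with x
    rw [Real.norm_of_nonneg (by positivity)]
    by_cases hx : dist p x < R
    · rw [indicator_of_mem (by rwa [Metric.mem_ball, dist_comm])]
      gcongr
      have h1 := norm_sub_le (f τ x) (f t x)
      have h2 := hB τ x
      have h3 := hB t x
      linarith
    · rw [hR τ x (not_lt.1 hx), hR t x (not_lt.1 hx),
        indicator_of_notMem (by rwa [Metric.mem_ball, dist_comm])]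
      simp
  · filter_upwards with x
    have h1 : Tendsto (fun τ => ‖f τ x - f t x‖ ^ 2) (𝓝 t) (𝓝 (‖f t x - f t x‖ ^ 2)) :=
      ((((hc x).tendsto t).sub_const _).norm).pow 2
    simpa using h1

end ball

section lev

variable {M : Type u} [MetricSpace M] [SecondCountableTopology M] [MeasurableSpace M]
  [BorelSpace M] {m : Measure M} {K N κ : ℝ} {P : ℝ → (M →ₘ[m] ℝ) → (M →ₘ[m] ℝ)} {p : M}
  {s₀ C₀ : ℝ}
  {E : Type} [NormedAddCommGroup E] [InnerProductSpace ℝ E]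
  {Gr : (M →ₘ[m] ℝ) → M → E} {V : (M →ₘ[m] ℝ) → (M →ₘ[m] ℝ) → M → E}
  {D : (M →ₘ[m] ℝ) → (M →ₘ[m] ℝ)} {HO : (M →ₘ[m] ℝ) → M → E →L[ℝ] E} {e : ℕ → M →ₘ[m] ℝ}
  {h : M →ₘ[m] ℝ} {L : M → ℝ} {G s t : ℝ}

theorem cz6_tendsto (hyp : CHyp M m K N P p s₀ C₀) (hE : EHyp m K N Gr V D HO e)
    (ht : t ∈ Icc (0 : ℝ) 1) : ∀ᵐ x ∂m, Gr (dc m p s₀ C₀) x = 0 ∨
      Tendsto (fun τ => cz6 p s₀ C₀ τ x) (𝓝[Icc 0 1] t) (𝓝 (cz6 p s₀ C₀ t x)) := by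
  have hC := (H719.std_gamma hyp.std).toIsDir
  have hd := H183.dc_mem_A hyp.std.hfin p s₀ C₀
  filter_upwards [H183.Γ_loc0 hC hd.1 hd.1 (√(2 * C₀ * (t + s₀)) - r1 s₀ C₀),
    H183.dtr_ae (m := m) p (r1 s₀ C₀), H183.Γ_dtr_zero hC hyp.std.hfin p (r1 s₀ C₀) hd.1,
    hE.stat.grad.norm_sq hd.1] with x a1 a2 a3 a4
  by_cases hx : dist p x = √(2 * C₀ * (t + s₀))
  · left
    have h2 : (sob m).Γ (dc m p s₀ C₀) (dc m p s₀ C₀) x = 0 := by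
      rcases le_or_gt (r1 s₀ C₀) (dist p x) with h | h
      · exact a3 h
      · refine a1 ?_
        rw [← hx]
        exact a2.trans (H183.dtr_eq h.le)
    rw [h2] at a4
    exact norm_eq_zero.1 (pow_eq_zero_iff (two_ne_zero) |>.1 a4)
  · right
    exact H183.cz_tendsto (p := p) hyp.hs hyp.hC0 ht hx

/-- `w_t ∈ L²` -/
theorem wf6_mem (hyp : CHyp M m K N P p s₀ C₀) (hT : St6 m p s₀ C₀ Gr HO h L G)
    (ht : t ∈ Icc (0 : ℝ) 1) : MemLp (wf6 m Gr HO h p s₀ C₀ t) 2 m := by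
  refine (hT.h2.const_smul (r1 s₀ C₀ / s₀)).of_le
    ((cz6_meas.comp measurable_prodMk_left).aestronglyMeasurable.smul hT.hm) ?_
  filter_upwards with x
  show ‖cz6 p s₀ C₀ t x • HO h x (Gr (dc m p s₀ C₀) x)‖ ≤ _
  rw [Pi.smul_apply, norm_smul, norm_smul]
  gcongr
  rw [Real.norm_eq_abs, Real.norm_eq_abs]
  exact (cz6_abs hyp ht x).trans (le_abs_self _)

/-- `w_t` is a continuous curve in `L²` -/
theorem wf6_cont (hyp : CHyp M m K N P p s₀ C₀) (hE : EHyp m K N Gr V D HO e)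
    (hT : St6 m p s₀ C₀ Gr HO h L G) (hs : 0 < s) (ht : t ∈ Icc s 1) :
    Tendsto (fun τ => ∫ x, ‖wf6 m Gr HO h p s₀ C₀ τ x - wf6 m Gr HO h p s₀ C₀ t x‖ ^ 2 ∂m)
      (𝓝[Icc s 1] t) (𝓝 0) := by
  have hsub : Icc s 1 ⊆ Icc 0 1 := Icc_subset_Icc_left hs.le
  refine smul_cont (B := r1 s₀ C₀ / s₀) hT.h2
    (fun τ _ => (cz6_meas.comp measurable_prodMk_left).aestronglyMeasurable)
    (fun τ hτ x => cz6_abs hyp (hsub hτ) x) ht ?_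
  filter_upwards [cz6_tendsto hyp hE (hsub ht)] with x hx
  rcases hx with hx | hx
  · left; rw [hx, map_zero]
  · right; exact hx.mono_left (nhdsWithin_mono _ hsub)

theorem Xs_smul (x a : E) (c : ℝ) : Xs x (c • a) = c ^ 2 * Xs x a := by
  unfold Xs
  rw [norm_smul, inner_smul_right, mul_pow, Real.norm_eq_abs, sq_abs]
  ring

theorem cl_ae {f : M → ℝ} (hf : AEStronglyMeasurable f m) : ∀ᵐ x ∂m, cl m f x = f x := by
  unfold cl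
  rw [dif_pos hf]
  exact AEEqFun.coeFn_mk _ _

/-- the class of `|X|²|∇z_t|² - ⟨X,∇z_t⟩²` -/
noncomputable def bS (m : Measure M) (Gr : (M →ₘ[m] ℝ) → M → E) (p : M) (s₀ C₀ : ℝ)
    (h : M →ₘ[m] ℝ) (t : ℝ) : M →ₘ[m] ℝ :=
  cl m fun x => Xs (Gr h x) (vf6 m Gr p s₀ C₀ t x)

theorem vf6_meas (hT : St6 m p s₀ C₀ Gr HO h L G) (t : ℝ) :
    StronglyMeasurable (vf6 m Gr p s₀ C₀ t) :=
  (cz6_meas.comp measurable_prodMk_left).stronglyMeasurable.smul hT.dm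

theorem Xs_meas {F G' : M → E} (hF : AEStronglyMeasurable F m) (hG : AEStronglyMeasurable G' m) :
    AEStronglyMeasurable (fun x => Xs (F x) (G' x)) m :=
  ((hF.norm.pow 2).mul (hG.norm.pow 2)).sub ((hF.inner hG).pow 2)

theorem bS_ae (hT : St6 m p s₀ C₀ Gr HO h L G) (t : ℝ) :
    ∀ᵐ x ∂m, bS m Gr p s₀ C₀ h t x = Xs (Gr h x) (vf6 m Gr p s₀ C₀ t x) :=
  cl_ae (Xs_meas hT.gm.aestronglyMeasurable (vf6_meas hT t).aestronglyMeasurable)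

/-- `X0 = |X|²|∇d|² - ⟨X,∇d⟩²` is in `L¹ ∩ L²` -/
theorem X0_mem (hT : St6 m p s₀ C₀ Gr HO h L G) :
    MemLp (fun x => Xs (Gr h x) (Gr (dc m p s₀ C₀) x)) 1 m ∧
    MemLp (fun x => Xs (Gr h x) (Gr (dc m p s₀ C₀) x)) 2 m := by
  have hm := Xs_meas (m := m) hT.gm.aestronglyMeasurable hT.dm.aestronglyMeasurable
  have i1 : Integrable (fun x => ‖Gr h x‖ ^ 2) m := (memLp_two_iff_integrable_sq_norm hT.g2.1).1 hT.g2
  have b1 : ∀ᵐ x ∂m, ‖Xs (Gr h x) (Gr (dc m p s₀ C₀) x)‖ ≤ ‖Gr h x‖ ^ 2 := by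
    filter_upwards [hT.db] with x hx
    rw [Real.norm_of_nonneg (Xs_nonneg _ _)]
    refine (Xs_le _ _).trans ?_
    have : ‖Gr (dc m p s₀ C₀) x‖ ^ 2 ≤ 1 := pow_le_one₀ (norm_nonneg _) hx
    nlinarith [sq_nonneg ‖Gr h x‖]
  refine ⟨memLp_one_iff_integrable.2 (i1.mono' hm b1), ?_⟩
  refine (hT.g2.norm.const_mul G).of_le hm ?_
  filter_upwards [b1, hT.gb] with x a1 a2
  refine a1.trans ?_
  rw [Real.norm_eq_abs, abs_mul, abs_of_nonneg hT.G0, abs_of_nonneg (norm_nonneg _), sq]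
  gcongr

theorem bS_eq (hT : St6 m p s₀ C₀ Gr HO h L G) (t : ℝ) :
    ∀ᵐ x ∂m, bS m Gr p s₀ C₀ h t x = cz6 p s₀ C₀ t x ^ 2 * Xs (Gr h x) (Gr (dc m p s₀ C₀) x) := by
  filter_upwards [bS_ae hT t] with x hx
  rw [hx]
  exact Xs_smul _ _ _

theorem bS_mem (hyp : CHyp M m K N P p s₀ C₀) (hT : St6 m p s₀ C₀ Gr HO h L G)
    (ht : t ∈ Icc (0 : ℝ) 1) {q : ℝ≥0∞}
    (hq : MemLp (fun x => Xs (Gr h x) (Gr (dc m p s₀ C₀) x)) q m) :
    MemLp (bS m Gr p s₀ C₀ h t) q m := by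
  refine (hq.const_mul ((r1 s₀ C₀ / s₀) ^ 2)).of_le (AEEqFun.aestronglyMeasurable _) ?_
  filter_upwards [bS_eq hT t] with x hx
  rw [hx, norm_mul, norm_mul]
  refine mul_le_mul_of_nonneg_right ?_ (norm_nonneg _)
  rw [Real.norm_eq_abs, Real.norm_eq_abs, abs_pow, abs_pow]
  exact pow_le_pow_left₀ (abs_nonneg _) ((cz6_abs hyp ht x).trans (le_abs_self _)) 2

theorem bS_cont (hyp : CHyp M m K N P p s₀ C₀) (hE : EHyp m K N Gr V D HO e)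
    (hT : St6 m p s₀ C₀ Gr HO h L G) (hs : 0 < s) (ht : t ∈ Icc s 1) :
    Tendsto (fun τ => I ((bS m Gr p s₀ C₀ h τ - bS m Gr p s₀ C₀ h t) ^ 2))
      (𝓝[Icc s 1] t) (𝓝 0) := by
  have hsub : Icc s 1 ⊆ Icc 0 1 := Icc_subset_Icc_left hs.le
  have h1 : Tendsto (fun τ => ∫ x, ‖cz6 p s₀ C₀ τ x ^ 2 • Xs (Gr h x) (Gr (dc m p s₀ C₀) x)
      - cz6 p s₀ C₀ t x ^ 2 • Xs (Gr h x) (Gr (dc m p s₀ C₀) x)‖ ^ 2 ∂m) (𝓝[Icc s 1] t) (𝓝 0) := by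
    refine smul_cont (c := fun τ x => cz6 p s₀ C₀ τ x ^ 2) (B := (r1 s₀ C₀ / s₀) ^ 2)
      (X0_mem hT).2
      (fun τ _ => ((cz6_meas.comp measurable_prodMk_left).pow_const 2).aestronglyMeasurable)
      (fun τ hτ x => ?_) ht ?_
    · rw [abs_pow]
      have := cz6_abs hyp (hsub hτ) x
      gcongr
    · filter_upwards [cz6_tendsto hyp hE (hsub ht)] with x hx
      rcases hx with hx | hx
      · left; rw [hx]; unfold Xs; simp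
      · right; exact (hx.pow 2).mono_left (nhdsWithin_mono _ hsub)
  refine h1.congr fun τ => ?_
  refine integral_congr_ae ?_
  filter_upwards [sq_ae (bS m Gr p s₀ C₀ h τ - bS m Gr p s₀ C₀ h t),
    sub_ae (bS m Gr p s₀ C₀ h τ) (bS m Gr p s₀ C₀ h t), bS_eq hT τ, bS_eq hT t] with x a1 a2 a3 a4
  rw [a1, a2, a3, a4, Real.norm_eq_abs, sq_abs, smul_eq_mul, smul_eq_mul]

/-! ### one level, one time -/

variable {ρ θ : M →ₘ[m] ℝ} {B : ℝ}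

theorem I_AρΓ (A ρ g : M →ₘ[m] ℝ) {a : M → ℝ} (hA : ∀ᵐ x ∂m, A x = a x) :
    I (A * ρ * g) = ∫ x, ρ x * (a x * g x) ∂m := by
  refine integral_congr_ae ?_
  filter_upwards [mul_ae (A * ρ) g, mul_ae A ρ, hA] with x a1 a2 a3
  rw [a1, a2, a3]; ring

/-- `P_n - P'_n` -/
theorem lev_P (hyp : CHyp M m K N P p s₀ C₀) (hE : EHyp m K N Gr V D HO e)
    (hT : St6 m p s₀ C₀ Gr HO h L G) (hh : h ∈ (sob m).TestI) (hρ : Wt m B ρ)
    (hθ : θ ∈ (sob m).TestI) (ht : t ∈ Icc (0 : ℝ) 1) {A : M →ₘ[m] ℝ}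
    (hA : ∀ᵐ x ∂m, A x = L x ^ 2)
    {Lc : ℝ} (hLc : ∀ᵐ x ∂m, (sob m).Γ (θ - zc m p s₀ C₀ t) (θ - zc m p s₀ C₀ t) x ≤ Lc)
    {η : ℝ} (hη : 0 < η) :
    |I (ρ * ipE m (V h θ) (V θ h)) - I (ρ * ipE m (V θ h) (wf6 m Gr HO h p s₀ C₀ t))| ≤
      η / 2 * I (ρ * ipE m (V θ h) (V θ h)) + (2 * η)⁻¹ * I (A * ρ *
        (sob m).Γ (θ - zc m p s₀ C₀ t) (θ - zc m p s₀ C₀ t)) := by
  have hC := H719.std_gamma hyp.std
  have hz : zc m p s₀ C₀ t ∈ (sob m).W :=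
    (H183.zc_mem_A hC.toIsDir hyp.std.hfin hyp.hs hyp.hC0 ht).1
  have hθW : θ ∈ (sob m).W := (hC.test_A hθ.1).1
  have hF := hE.hu.mem θ hθ.1 h hh.1
  have hG := hE.hu.mem h hh.1 θ hθ.1
  have hw := wf6_mem hyp hT ht
  have hLi : Integrable (fun x => L x ^ 2) m := (memLp_two_iff_integrable_sq hT.L2.1).1 hT.L2
  have hsub := hC.sub_mem hθW hz
  rw [I_rip ρ hG.1 hF.1, I_rip ρ hF.1 hw.1, I_rip ρ hF.1 hF.1, I_AρΓ A ρ _ hA]
  have hB : Integrable (fun x => L x ^ 2 *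
      (sob m).Γ (θ - zc m p s₀ C₀ t) (θ - zc m p s₀ C₀ t) x) m :=
    (int_A_norm hρ hLi (fun x => sq_nonneg _)
      ((sob m).Γ (θ - zc m p s₀ C₀ t) (θ - zc m p s₀ C₀ t)).aestronglyMeasurable
      (hC.Γ_nonneg_ae hsub) hLc).1
  have hle : ∀ᵐ x ∂m, ‖V h θ x - wf6 m Gr HO h p s₀ C₀ t x‖ ^ 2 ≤ L x ^ 2 *
      (sob m).Γ (θ - zc m p s₀ C₀ t) (θ - zc m p s₀ C₀ t) x := by
    filter_upwards [H671.V_eq hC hE.hu hE.stat hh.1 hθ.1, hT.Lb,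
      H183.Gr_zc hE.stat.grad hC.toIsDir hyp.std.hfin hyp.hs hyp.hC0 ht (p := p),
      hE.stat.grad.sub hC.toIsDir hθW hz, hE.stat.grad.norm_sq hsub] with x a1 a2 a3 a4 a5
    have e1 : wf6 m Gr HO h p s₀ C₀ t x = HO h x (Gr (zc m p s₀ C₀ t) x) := by
      rw [a3, map_smul]; rfl
    rw [a1, e1, ← map_sub, ← a4, ← a5, ← mul_pow]
    gcongr
    calc ‖HO h x (Gr (θ - zc m p s₀ C₀ t) x)‖ ≤ ‖HO h x‖ * ‖Gr (θ - zc m p s₀ C₀ t) x‖ :=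
          (HO h x).le_opNorm _
      _ ≤ L x * ‖Gr (θ - zc m p s₀ C₀ t) x‖ := by gcongr
  refine (P_est hρ hF hG hw hB hle hη).trans (le_of_eq ?_)
  congr 2
  refine integral_congr_ae (Eventually.of_forall fun x => ?_)
  show ρ x * ‖V θ h x‖ ^ 2 = ρ x * ⟪V θ h x, V θ h x⟫_ℝ
  rw [real_inner_self_eq_norm_sq]

/-- the curvature term of the level -/
theorem lev_S (hyp : CHyp M m K N P p s₀ C₀) (hE : EHyp m K N Gr V D HO e)
    (hT : St6 m p s₀ C₀ Gr HO h L G) (hh : h ∈ (sob m).TestI) (hρ : Wt m B ρ) (hB0 : 0 ≤ B)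
    (hθ : θ ∈ (sob m).TestI) (ht : t ∈ Icc (0 : ℝ) 1)
    {Lc : ℝ} (hLc : ∀ᵐ x ∂m, (sob m).Γ (θ - zc m p s₀ C₀ t) (θ - zc m p s₀ C₀ t) x ≤ Lc)
    {L1 : ℝ} (hL1 : 0 ≤ L1) (hθ1 : ∀ᵐ x ∂m, (sob m).Γ θ θ x ≤ L1)
    (hz1 : ∀ᵐ x ∂m, (sob m).Γ (zc m p s₀ C₀ t) (zc m p s₀ C₀ t) x ≤ L1)
    {η : ℝ} (hη : 0 < η) :
    |I (ρ * ((sob m).Γ h h * (sob m).Γ θ θ - (sob m).Γ h θ ^ 2))
      - I (bS m Gr p s₀ C₀ h t * ρ)| ≤
      4 * L1 * η * (B * I ((sob m).Γ h h)) + η⁻¹ * I ((sob m).Γ h h * ρ *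
        (sob m).Γ (θ - zc m p s₀ C₀ t) (θ - zc m p s₀ C₀ t)) := by
  have hC := H719.std_gamma hyp.std
  have hz : zc m p s₀ C₀ t ∈ (sob m).W :=
    (H183.zc_mem_A hC.toIsDir hyp.std.hfin hyp.hs hyp.hC0 ht).1
  have hθW : θ ∈ (sob m).W := (hC.test_A hθ.1).1
  have hhW : h ∈ (sob m).W := (hC.test_A hh.1).1
  have hsub := hC.sub_mem hθW hz
  have hG := hE.stat.grad
  have ghi : Integrable (fun x => ‖Gr h x‖ ^ 2) m := (memLp_two_iff_integrable_sq_norm hT.g2.1).1 hT.g2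
  have gzv : ∀ᵐ x ∂m, vf6 m Gr p s₀ C₀ t x = Gr (zc m p s₀ C₀ t) x := by
    filter_upwards [H183.Gr_zc hG hC.toIsDir hyp.std.hfin hyp.hs hyp.hC0 ht (p := p)] with x hx
    rw [hx]; rfl
  have e1 : I (ρ * ((sob m).Γ h h * (sob m).Γ θ θ - (sob m).Γ h θ ^ 2))
      = ∫ x, ρ x * Xs (Gr h x) (Gr θ x) ∂m := by
    refine integral_congr_ae ?_
    filter_upwards [mul_ae ρ ((sob m).Γ h h * (sob m).Γ θ θ - (sob m).Γ h θ ^ 2),
      sub_ae ((sob m).Γ h h * (sob m).Γ θ θ) ((sob m).Γ h θ ^ 2),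
      mul_ae ((sob m).Γ h h) ((sob m).Γ θ θ), sq_ae ((sob m).Γ h θ), hG.norm_sq hhW,
      hG.norm_sq hθW, hG.inner _ hhW _ hθW] with x a1 a2 a3 a4 a5 a6 a7
    rw [a1, a2, a3, a4]
    unfold Xs
    rw [a5, a6, a7]
  have e2 : I (bS m Gr p s₀ C₀ h t * ρ) = ∫ x, ρ x * Xs (Gr h x) (vf6 m Gr p s₀ C₀ t x) ∂m := by
    refine integral_congr_ae ?_
    filter_upwards [mul_ae (bS m Gr p s₀ C₀ h t) ρ, bS_ae hT t] with x a1 a2
    rw [a1, a2, mul_comm]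
  have hA : ∀ᵐ x ∂m, (sob m).Γ h h x = ‖Gr h x‖ ^ 2 := by
    filter_upwards [hG.norm_sq hhW] with x hx
    rw [hx]
  have hB : Integrable (fun x => ‖Gr h x‖ ^ 2 *
      (sob m).Γ (θ - zc m p s₀ C₀ t) (θ - zc m p s₀ C₀ t) x) m :=
    (int_A_norm hρ ghi (fun x => sq_nonneg _)
      ((sob m).Γ (θ - zc m p s₀ C₀ t) (θ - zc m p s₀ C₀ t)).aestronglyMeasurable
      (hC.Γ_nonneg_ae hsub) hLc).1
  have gθ2 := hG.mem _ hθW
  have hθ1' : ∀ᵐ x ∂m, ‖Gr θ x‖ ^ 2 ≤ L1 := by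
    filter_upwards [hθ1, hG.norm_sq hθW] with x a1 a2
    rwa [a2]
  have hz1' : ∀ᵐ x ∂m, ‖vf6 m Gr p s₀ C₀ t x‖ ^ 2 ≤ L1 := by
    filter_upwards [hz1, hG.norm_sq hz, gzv] with x a1 a2 a3
    rwa [a3, a2]
  have hle : ∀ᵐ x ∂m, ‖Gr h x‖ ^ 2 * ‖Gr θ x - vf6 m Gr p s₀ C₀ t x‖ ^ 2 ≤ ‖Gr h x‖ ^ 2 *
      (sob m).Γ (θ - zc m p s₀ C₀ t) (θ - zc m p s₀ C₀ t) x := by
    filter_upwards [gzv, hG.sub hC.toIsDir hθW hz, hG.norm_sq hsub] with x a1 a2 a3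
    rw [a1, ← a2, a3]
  have key := S_est hρ hT.g2 gθ2.1 (vf6_meas hT t).aestronglyMeasurable hθ1' hz1' hB hle hη
  rw [e1, e2, I_AρΓ ((sob m).Γ h h) ρ _ hA]
  refine key.trans ?_
  gcongr
  have h3 : ∫ x, ‖Gr h x‖ ^ 2 ∂m = I ((sob m).Γ h h) := hG.int_norm_sq hhW
  rw [← h3]
  exact hρ.int_le ghi (Eventually.of_forall fun x => sq_nonneg _)

/-- bound of the mixed term -/
theorem lev_Pb (hyp : CHyp M m K N P p s₀ C₀) (hE : EHyp m K N Gr V D HO e)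
    (hT : St6 m p s₀ C₀ Gr HO h L G) (hh : h ∈ (sob m).TestI) (hρ : Wt m B ρ) (hB0 : 0 ≤ B)
    (hθ : θ ∈ (sob m).TestI) {L1 : ℝ} (hL1 : 0 ≤ L1) (hθ1 : ∀ᵐ x ∂m, (sob m).Γ θ θ x ≤ L1)
    {η : ℝ} (hη : 0 < η) :
    |I (ρ * ipE m (V h θ) (V θ h))| ≤
      η / 2 * I (ρ * ipE m (V θ h) (V θ h)) + (2 * η)⁻¹ * (B * ∫ x, L x ^ 2 * L1 ∂m) := by
  have hC := H719.std_gamma hyp.std
  have hθW : θ ∈ (sob m).W := (hC.test_A hθ.1).1
  have hF := hE.hu.mem θ hθ.1 h hh.1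
  have hG := hE.hu.mem h hh.1 θ hθ.1
  have hLi : Integrable (fun x => L x ^ 2) m := (memLp_two_iff_integrable_sq hT.L2.1).1 hT.L2
  rw [I_rip ρ hG.1 hF.1, I_rip ρ hF.1 hF.1]
  have hle : ∀ᵐ x ∂m, ‖V h θ x‖ ^ 2 ≤ L x ^ 2 * L1 := by
    filter_upwards [H671.V_eq hC hE.hu hE.stat hh.1 hθ.1, hT.Lb, hE.stat.grad.norm_sq hθW, hθ1]
      with x a1 a2 a3 a4
    rw [a1]
    calc ‖HO h x (Gr θ x)‖ ^ 2 ≤ (L x * ‖Gr θ x‖) ^ 2 := by
          gcongr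
          calc ‖HO h x (Gr θ x)‖ ≤ ‖HO h x‖ * ‖Gr θ x‖ := (HO h x).le_opNorm _
            _ ≤ L x * ‖Gr θ x‖ := by gcongr
      _ = L x ^ 2 * ‖Gr θ x‖ ^ 2 := mul_pow _ _ _
      _ ≤ L x ^ 2 * L1 := by rw [a3]; gcongr
  have hi := hLi.mul_const L1
  refine (P_bd hρ hF hG hi hle hη).trans ?_
  have e3 : ∫ x, ρ x * ⟪V θ h x, V θ h x⟫_ℝ ∂m = ∫ x, ρ x * ‖V θ h x‖ ^ 2 ∂m := by
    refine integral_congr_ae (Eventually.of_forall fun x => ?_)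
    show ρ x * ⟪V θ h x, V θ h x⟫_ℝ = _
    rw [real_inner_self_eq_norm_sq]
  rw [e3]
  gcongr
  exact hρ.int_le hi (Eventually.of_forall fun x => by positivity)

/-- bound of the curvature term -/
theorem lev_Sb (hyp : CHyp M m K N P p s₀ C₀) (hE : EHyp m K N Gr V D HO e)
    (hT : St6 m p s₀ C₀ Gr HO h L G) (hh : h ∈ (sob m).TestI) (hρ : Wt m B ρ) (hB0 : 0 ≤ B)
    (hθ : θ ∈ (sob m).TestI) {L1 : ℝ} (hL1 : 0 ≤ L1) (hθ1 : ∀ᵐ x ∂m, (sob m).Γ θ θ x ≤ L1) :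
    |I (ρ * ((sob m).Γ h h * (sob m).Γ θ θ - (sob m).Γ h θ ^ 2))| ≤
      L1 * (B * I ((sob m).Γ h h)) := by
  have hC := H719.std_gamma hyp.std
  have hθW : θ ∈ (sob m).W := (hC.test_A hθ.1).1
  have hhW : h ∈ (sob m).W := (hC.test_A hh.1).1
  have hG := hE.stat.grad
  have ghi : Integrable (fun x => ‖Gr h x‖ ^ 2) m := (memLp_two_iff_integrable_sq_norm hT.g2.1).1 hT.g2
  have e1 : I (ρ * ((sob m).Γ h h * (sob m).Γ θ θ - (sob m).Γ h θ ^ 2))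
      = ∫ x, ρ x * Xs (Gr h x) (Gr θ x) ∂m := by
    refine integral_congr_ae ?_
    filter_upwards [mul_ae ρ ((sob m).Γ h h * (sob m).Γ θ θ - (sob m).Γ h θ ^ 2),
      sub_ae ((sob m).Γ h h * (sob m).Γ θ θ) ((sob m).Γ h θ ^ 2),
      mul_ae ((sob m).Γ h h) ((sob m).Γ θ θ), sq_ae ((sob m).Γ h θ), hG.norm_sq hhW,
      hG.norm_sq hθW, hG.inner _ hhW _ hθW] with x a1 a2 a3 a4 a5 a6 a7
    rw [a1, a2, a3, a4]
    unfold Xs
    rw [a5, a6, a7]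
  have gθ2 := hG.mem _ hθW
  have hθ1' : ∀ᵐ x ∂m, ‖Gr θ x‖ ^ 2 ≤ L1 := by
    filter_upwards [hθ1, hG.norm_sq hθW] with x a1 a2
    rwa [a2]
  rw [e1]
  refine (S_bd hρ hT.g2 gθ2.1 hθ1').2.trans ?_
  gcongr
  have h3 : ∫ x, ‖Gr h x‖ ^ 2 ∂m = I ((sob m).Γ h h) := hG.int_norm_sq hhW
  rw [← h3]
  exact hρ.int_le ghi (Eventually.of_forall fun x => sq_nonneg _)

/-- `Q_n ≤ G² E|Hess θ|²` -/
theorem lev_Q (hyp : CHyp M m K N P p s₀ C₀) (hE : EHyp m K N Gr V D HO e)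
    (hT : St6 m p s₀ C₀ Gr HO h L G) (hh : h ∈ (sob m).TestI) (hρ : Wt m B ρ)
    (hθ : θ ∈ (sob m).TestI) :
    I (ρ * ipE m (V θ h) (V θ h)) ≤ G ^ 2 * I (ρ * D θ ^ 2) := by
  have hF := hE.hu.mem θ hθ.1 h hh.1
  have hD2 := hE.hd.mem θ hθ.1
  have iD : Integrable (fun x => G ^ 2 * D θ x ^ 2) m :=
    ((memLp_two_iff_integrable_sq hD2.1).1 hD2).const_mul _
  rw [I_rip ρ hF.1 hF.1]
  have e1 : G ^ 2 * I (ρ * D θ ^ 2) = ∫ x, ρ x * (G ^ 2 * D θ x ^ 2) ∂m := by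
    unfold I
    rw [← integral_const_mul]
    refine integral_congr_ae ?_
    filter_upwards [mul_ae ρ (D θ ^ 2), sq_ae (D θ)] with x a1 a2
    rw [a1, a2]; ring
  rw [e1]
  refine hρ.mono (int_inner2 hF hF) iD ?_
  filter_upwards [hE.hd.norm θ hθ.1 h hh.1, hT.gb, nonneg_iff_ae.1 (hE.hd.nonneg θ hθ.1)]
    with x a1 a2 a3
  rw [real_inner_self_eq_norm_sq]
  calc ‖V θ h x‖ ^ 2 ≤ (D θ x * ‖Gr h x‖) ^ 2 := by gcongr
    _ ≤ (D θ x * G) ^ 2 := by gcongr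
    _ = G ^ 2 * D θ x ^ 2 := by ring

theorem lev_Q0 (hE : EHyp m K N Gr V D HO e) (hh : h ∈ (sob m).TestI) (hρ : Wt m B ρ)
    (hθ : θ ∈ (sob m).TestI) : 0 ≤ I (ρ * ipE m (V θ h) (V θ h)) := by
  have hF := hE.hu.mem θ hθ.1 h hh.1
  rw [I_rip ρ hF.1 hF.1]
  exact hρ.int_nonneg (Eventually.of_forall fun x => real_inner_self_nonneg)

/-- `S_n = E⟨Hess θ(X),X⟩` -/
theorem lev_A (hyp : CHyp M m K N P p s₀ C₀) (hE : EHyp m K N Gr V D HO e)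
    (hh : h ∈ (sob m).TestI) (hθ : θ ∈ (sob m).TestI) :
    I (ρ * (sob m).hess θ h h) = I (ρ * ipE m (V θ h) (Gr h)) := by
  have hC := H719.std_gamma hyp.std
  have hhW : h ∈ (sob m).W := (hC.test_A hh.1).1
  have hF := hE.hu.mem θ hθ.1 h hh.1
  refine integral_congr_ae ?_
  filter_upwards [mul_ae ρ ((sob m).hess θ h h), mul_ae ρ (ipE m (V θ h) (Gr h)),
    ipE_ae hF.1 (hE.stat.grad.mem _ hhW).1, hE.hu.inner θ hθ.1 h hh.1 h hh.1] with x a1 a2 a3 a4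
  rw [a1, a2, a3, a4]

end lev

end Vale.Agent.P233.H249
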