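import Vale.Agent.P233.H249.M6b

/-! P233, block C6 (helper249): the facts of a level, continuity in time, and the weak limits. -/

set_option linter.all false

open MeasureTheory Filter Topology Set
open scoped ENNReal NNReal InnerProductSpace

universe u

namespace Vale.Agent.P233.H249

open Vale.Agent.P233.PA (en OutA PotLim)
open Vale.Agent.P233.PC

section real

theorem tendsto_near {U : Filter ℕ} {x y : ℕ → ℝ} {L : ℝ} (hy : Tendsto y U (𝓝 L))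
    (h : ∀ η > 0, ∀ᶠ n in U, |x n - y n| ≤ η) : Tendsto x U (𝓝 L) := by
  have h1 : Tendsto (fun n => x n - y n) U (𝓝 0) := by
    rw [Metric.tendsto_nhds]
    intro ε hε
    filter_upwards [h (ε / 2) (by positivity)] with n hn
    rw [Real.dist_eq, sub_zero]
    linarith
  have h2 := h1.add hy
  simpa using h2

theorem int_bd {F Q : ℝ → ℝ} {s a b η c cQ : ℝ} (hF : IntervalIntegrable F volume s 1)
    (iQ : IntervalIntegrable Q volume s 1) (hQ0 : ∀ t ∈ Icc s 1, 0 ≤ Q t)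
    (hcQ : ∫ t in s..1, Q t ≤ cQ) (h : ∀ t ∈ Icc s 1, |F t| ≤ η * Q t + c) (hη : 0 ≤ η)
    (hsa : s ≤ a) (hab : a ≤ b) (hb : b ≤ 1) : |∫ t in a..b, F t| ≤ η * cQ + c * (b - a) := by
  have ha' : a ∈ Icc s 1 := ⟨hsa, hab.trans hb⟩
  have hb' : b ∈ Icc s 1 := ⟨hsa.trans hab, hb⟩
  have iF := ii_sub hF ha' hb'
  have iQ' := ii_sub iQ ha' hb'
  have hs1 : s ∈ Icc s 1 := ⟨le_rfl, (hsa.trans hab).trans hb⟩
  have h11 : (1 : ℝ) ∈ Icc s 1 := ⟨(hsa.trans hab).trans hb, le_rfl⟩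
  have h1 : |∫ t in a..b, F t| ≤ ∫ t in a..b, |F t| :=
    intervalIntegral.abs_integral_le_integral_abs hab
  have h2 : ∫ t in a..b, |F t| ≤ ∫ t in a..b, (η * Q t + c) := by
    refine intervalIntegral.integral_mono_on hab iF.abs
      ((iQ'.const_mul η).add intervalIntegrable_const) fun t ht => ?_
    exact h t ⟨hsa.trans ht.1, ht.2.trans hb⟩
  have h3 : ∫ t in a..b, (η * Q t + c) = η * (∫ t in a..b, Q t) + c * (b - a) := by
    rw [intervalIntegral.integral_add (iQ'.const_mul η) intervalIntegrable_const,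
      intervalIntegral.integral_const_mul, intervalIntegral.integral_const, smul_eq_mul]
    ring
  have h4 : ∫ t in a..b, Q t ≤ ∫ t in s..1, Q t := by
    have e1 := intervalIntegral.integral_add_adjacent_intervals (ii_sub iQ hs1 ha') iQ'
    have e2 := intervalIntegral.integral_add_adjacent_intervals (ii_sub iQ hs1 hb')
      (ii_sub iQ hb' h11)
    have p1 : 0 ≤ ∫ t in s..a, Q t := intervalIntegral.integral_nonneg hsa fun t ht =>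
      hQ0 t ⟨ht.1, ht.2.trans (hab.trans hb)⟩
    have p2 : 0 ≤ ∫ t in b..1, Q t := intervalIntegral.integral_nonneg hb fun t ht =>
      hQ0 t ⟨(hsa.trans hab).trans ht.1, ht.2⟩
    linarith
  have h5 : η * (∫ t in a..b, Q t) ≤ η * cQ := mul_le_mul_of_nonneg_left (h4.trans hcQ) hη
  linarith

end real

section lev

variable {M : Type u} [MetricSpace M] [SecondCountableTopology M] [MeasurableSpace M]
  [BorelSpace M] {m : Measure M} {K N κ : ℝ} {P : ℝ → (M →ₘ[m] ℝ) → (M →ₘ[m] ℝ)} {p : M}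
  {s₀ C₀ : ℝ}
  {E : Type} [NormedAddCommGroup E] [InnerProductSpace ℝ E]
  {Gr : (M →ₘ[m] ℝ) → M → E} {V : (M →ₘ[m] ℝ) → (M →ₘ[m] ℝ) → M → E}
  {D : (M →ₘ[m] ℝ) → (M →ₘ[m] ℝ)} {HO : (M →ₘ[m] ℝ) → M → E →L[ℝ] E} {e : ℕ → M →ₘ[m] ℝ}
  {h l : M →ₘ[m] ℝ} {u : ℕ → ℝ → M →ₘ[m] ℝ} {φ : (M →ₘ[m] ℝ) → ℕ → ℝ → M →ₘ[m] ℝ}
  {L : M → ℝ} {G s : ℝ}

/-- the facts of one level on `[s,1]` -/
structure Lev6 (m : Measure M) (p : M) (s₀ C₀ : ℝ) (V : (M →ₘ[m] ℝ) → (M →ₘ[m] ℝ) → M → E)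
    (κ : ℝ) (u : ℕ → ℝ → M →ₘ[m] ℝ) (φ : (M →ₘ[m] ℝ) → ℕ → ℝ → M →ₘ[m] ℝ) (l h : M →ₘ[m] ℝ)
    (s B L1 cQ : ℝ) (n : ℕ) : Prop where
  wt : ∀ t ∈ Icc s 1, Wt m B (rn u φ l n t)
  th : ∀ t ∈ Icc s 1, tn u φ l n t ∈ (sob m).TestI
  r2 : ∀ τ ∈ Icc s 1, ∀ t ∈ Icc s 1, MemLp (rn u φ l n τ - rn u φ l n t : M →ₘ[m] ℝ) 2 m
  gθ : ∀ t ∈ Icc s 1, ∀ᵐ x ∂m, (sob m).Γ (tn u φ l n t) (tn u φ l n t) x ≤ L1
  gd : ∀ t ∈ Icc s 1, ∀ᵐ x ∂m, (sob m).Γ (tn u φ l n t - zc m p s₀ C₀ t)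
    (tn u φ l n t - zc m p s₀ C₀ t) x ≤ 4 * L1
  cr : ∀ t ∈ Icc s 1, Tendsto (fun τ => I ((rn u φ l n τ - rn u φ l n t) ^ 2)) (𝓝[Icc s 1] t)
    (𝓝 0)
  V2 : ∀ t ∈ Icc s 1, MemLp (V (tn u φ l n t) h) 2 m
  cV : ∀ t ∈ Icc s 1, Tendsto (fun τ => ∫ x, ‖V (tn u φ l n τ) h x - V (tn u φ l n t) h x‖ ^ 2 ∂m)
    (𝓝[Icc s 1] t) (𝓝 0)
  cF : ContinuousOn ((sob m).FR V κ (en n) (φ l n) (u n) h) (Icc s 1)
  cS : ContinuousOn ((sob m).SS (en n) (φ l n) (u n) h) (Icc s 1)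
  hQ : ∫ t in s..1, I (rn u φ l n t * ipE m (V (tn u φ l n t) h) (V (tn u φ l n t) h)) ≤ cQ

theorem exists_lev6 (hyp : CHyp M m K N P p s₀ C₀) (hE : EHyp m K N Gr V D HO e)
    (hA : OutA m K N P p s₀ C₀ u φ) (hB : LevB m Gr V D κ u φ)
    (hl : l ∈ (sob m).TestI) (hh : h ∈ (sob m).TestI) (hT : St6 m p s₀ C₀ Gr HO h L G)
    (hs : s ∈ Ioo (0 : ℝ) 1) :
    ∃ B L1 cQ : ℝ, 0 ≤ B ∧ 0 ≤ L1 ∧ 0 ≤ cQ ∧
      (∀ t ∈ Icc (0 : ℝ) 1, ∀ᵐ x ∂m, (sob m).Γ (zc m p s₀ C₀ t) (zc m p s₀ C₀ t) x ≤ L1) ∧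
      ∀ᶠ n in atTop, Lev6 m p s₀ C₀ V κ u φ l h s B L1 cQ n := by
  have hC := H719.std_gamma hyp.std
  have hsub : Icc s 1 ⊆ Icc 0 1 := Icc_subset_Icc_left hs.1.le
  obtain ⟨B, hB0, hBd⟩ := H719.dens_bd hyp hA hl hs.1
  obtain ⟨La, hLa0, hu, hz⟩ := H719.z_bd hyp hA
  obtain ⟨Lb, hLb0, hφ⟩ := H719.φ_bd hyp hA hl
  obtain ⟨c3, hc3⟩ := hB.b3 l hl s hs
  obtain ⟨e6, -, he6⟩ := hB.b6 l hl h hh s hs
  refine ⟨B, La ^ 2 + Lb ^ 2, |G ^ 2 * c3|, hB0, by positivity, abs_nonneg _, fun t ht => ?_, ?_⟩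
  · filter_upwards [hz t ht] with x hx
    nlinarith [sq_nonneg Lb]
  filter_upwards [hBd, hu, hφ, hc3, he6, hB.mem l hl, hB.fld l hl h hh, hB.reg l hl]
    with n a1 a2 a3 a4 a5 a6 a7 a8
  have hth : ∀ t ∈ Icc s 1, tn u φ l n t ∈ (sob m).TestI := fun t ht => (a6 t (hsub ht)).2.1
  have hwt : ∀ t ∈ Icc s 1, Wt m B (rn u φ l n t) := fun t ht =>
    ⟨nonneg_iff_ae.1 H719.rh_nonneg, a1 t ht⟩
  have hgθ : ∀ t ∈ Icc s 1, ∀ᵐ x ∂m, (sob m).Γ (tn u φ l n t) (tn u φ l n t) x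
      ≤ La ^ 2 + Lb ^ 2 := by
    intro t ht
    have φW : φ l n t ∈ (sob m).W := (hC.test_A (a8.φ_mem t (hsub ht)).1).1
    have uW : u n t ∈ (sob m).W := (hC.test_A (a8.u_mem t (hsub ht)).1).1
    have e1 : (sob m).Γ (tn u φ l n t) (tn u φ l n t)
        = (4 : ℝ)⁻¹ • (sob m).Γ (φ l n t + u n t) (φ l n t + u n t) := by
      unfold tn Vale.Agent.P233.th
      have hW := hC.add_mem _ φW _ uW
      rw [hC.smul_left _ _ hW _ (hC.smul_mem _ _ hW), hC.Γ_smul_right _ hW hW, smul_smul]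
      norm_num
    filter_upwards [H183.Γ_add_le' hC.toIsDir φW uW, a2 t (hsub ht), a3 t (hsub ht),
      smul_ae ((sob m).Γ (φ l n t + u n t) (φ l n t + u n t)) (4 : ℝ)⁻¹] with x b1 b2 b3 b4
    rw [e1, b4]
    linarith [sq_nonneg La, sq_nonneg Lb]
  refine ⟨hwt, hth, ?_, hgθ, ?_, ?_, ?_, ?_, a5.1, a5.2.1, ?_⟩
  · intro τ hτ t ht
    have b1 := hC.memLp _ (hC.test_A (a6 τ (hsub hτ)).2.2.1.1).1
    have b2 := hC.memLp _ (hC.test_A (a6 t (hsub ht)).2.2.1.1).1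
    have b3 := mem_sub b1 b2
    have e2 : rn u φ l n τ - rn u φ l n t = (rn u φ l n τ - 1) - (rn u φ l n t - 1) := by abel
    rw [e2]; exact b3
  · intro t ht
    have θW : tn u φ l n t ∈ (sob m).W := (hC.test_A (hth t ht).1).1
    have zW := H719.zc_W hA (hsub ht)
    filter_upwards [hC.toIsDir.Γ_sub_le θW zW, hgθ t ht, hz t (hsub ht)] with x b1 b2 b3
    have := sq_nonneg Lb
    linarith
  · intro t ht
    exact (a7 t (hsub ht)).2.2.mono_left (nhdsWithin_mono _ hsub)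
  · intro t ht
    exact hE.hu.mem _ (hth t ht).1 h hh.1
  · intro t ht
    have h1 := (a7 t (hsub ht)).1.mono_left (nhdsWithin_mono t hsub)
    have h2 : Tendsto (fun τ => (eLpNorm (fun x => V (tn u φ l n τ) h x - V (tn u φ l n t) h x) 2
        m).toReal ^ 2) (𝓝[Icc s 1] t) (𝓝 0) := by
      have h3 := (ENNReal.tendsto_toReal ENNReal.zero_ne_top).comp h1
      have h4 := h3.pow 2
      simpa using h4
    refine h2.congr' ?_
    filter_upwards [self_mem_nhdsWithin] with τ hτ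
    exact (n2_eq ((hE.hu.mem _ (hth τ hτ).1 h hh.1).sub (hE.hu.mem _ (hth t ht).1 h hh.1))).symm
  · obtain ⟨e, he1, he2, he3⟩ := a4
    have i1 : IntervalIntegrable (fun t => G ^ 2 * e t) volume s 1 :=
      (he1.intervalIntegrable_of_Icc hs.2.le).const_mul _
    have hb : ∀ t ∈ Icc s 1, I (rn u φ l n t * ipE m (V (tn u φ l n t) h) (V (tn u φ l n t) h))
        ≤ G ^ 2 * e t := by
      intro t ht
      refine (lev_Q hyp hE hT hh (hwt t ht) (hth t ht)).trans ?_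
      have h5 := he3 t ht
      have r0 : 0 ≤ rn u φ l n t := H719.rh_nonneg
      have h6 : 0 ≤ en n ^ 2 * I (rn u φ l n t * D (LL (en n) (φ l n) (u n) t) ^ 2) :=
        mul_nonneg (sq_nonneg _) (I_nonneg (mul_nonneg r0 (sq_nonneg' _)))
      have h7 : 0 ≤ en n ^ 2 * I (rn u φ l n t * (sob m).lap (LL (en n) (φ l n) (u n) t) ^ 2) :=
        mul_nonneg (sq_nonneg _) (I_nonneg (mul_nonneg r0 (sq_nonneg' _)))
      exact mul_le_mul_of_nonneg_left (by linarith) (sq_nonneg _)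
    have hb0 : ∀ t ∈ Icc s 1, 0 ≤ I (rn u φ l n t * ipE m (V (tn u φ l n t) h)
        (V (tn u φ l n t) h)) := fun t ht => lev_Q0 hE hh (hwt t ht) (hth t ht)
    by_cases hint : IntervalIntegrable (fun t => I (rn u φ l n t * ipE m (V (tn u φ l n t) h)
        (V (tn u φ l n t) h))) volume s 1
    · refine (intervalIntegral.integral_mono_on hs.2.le hint i1 hb).trans ?_
      rw [intervalIntegral.integral_const_mul]
      refine le_trans ?_ (le_abs_self _)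
      exact mul_le_mul_of_nonneg_left he2 (sq_nonneg _)
    · rw [intervalIntegral.integral_undef hint]
      exact abs_nonneg _

variable {B L1 cQ : ℝ} {n : ℕ}

theorem Lev6.contQ (H : Lev6 m p s₀ C₀ V κ u φ l h s B L1 cQ n) :
    ContinuousOn (fun t => I (rn u φ l n t * ipE m (V (tn u φ l n t) h) (V (tn u φ l n t) h)))
      (Icc s 1) :=
  cont_rip H.wt H.r2 H.cr H.V2 H.cV H.V2 H.cV

theorem Lev6.contG (H : Lev6 m p s₀ C₀ V κ u φ l h s B L1 cQ n) {F : ℝ → M → E}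
    (hF : ∀ t ∈ Icc s 1, MemLp (F t) 2 m)
    (hFc : ∀ t ∈ Icc s 1, Tendsto (fun τ => ∫ x, ‖F τ x - F t x‖ ^ 2 ∂m) (𝓝[Icc s 1] t) (𝓝 0)) :
    ContinuousOn (fun t => I (rn u φ l n t * ipE m (V (tn u φ l n t) h) (F t))) (Icc s 1) ∧
    ContinuousOn (fun t => I (rn u φ l n t * ipE m (F t) (F t))) (Icc s 1) :=
  ⟨cont_rip H.wt H.r2 H.cr H.V2 H.cV hF hFc, cont_rip H.wt H.r2 H.cr hF hFc hF hFc⟩

end lev

end Vale.Agent.P233.H249
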