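import Vale.Agent.P233.H249.M6c

/-! P233, block C6 (helper249): the weak limits on subintervals, and the uniform limit of the
curvature term. -/

set_option linter.all false

open MeasureTheory Filter Topology Set
open scoped ENNReal NNReal InnerProductSpace

universe u

namespace Vale.Agent.P233.H249

open Vale.Agent.P233.PA (en OutA PotLim)
open Vale.Agent.P233.PC

section lev

variable {M : Type u} [MetricSpace M] [SecondCountableTopology M] [MeasurableSpace M]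
  [BorelSpace M] {m : Measure M} {K N κ : ℝ} {P : ℝ → (M →ₘ[m] ℝ) → (M →ₘ[m] ℝ)} {p : M}
  {s₀ C₀ : ℝ}
  {E : Type} [NormedAddCommGroup E] [InnerProductSpace ℝ E]
  {Gr : (M →ₘ[m] ℝ) → M → E} {V : (M →ₘ[m] ℝ) → (M →ₘ[m] ℝ) → M → E}
  {D : (M →ₘ[m] ℝ) → (M →ₘ[m] ℝ)} {HO : (M →ₘ[m] ℝ) → M → E →L[ℝ] E} {e : ℕ → M →ₘ[m] ℝ}
  {h l : M →ₘ[m] ℝ} {u : ℕ → ℝ → M →ₘ[m] ℝ} {φ : (M →ₘ[m] ℝ) → ℕ → ℝ → M →ₘ[m] ℝ}
  {U : Ultrafilter ℕ} {Y : ℝ → M → M} {Hs : (M →ₘ[m] ℝ) → ℝ → M → E} {Λ : ℝ → M → ℝ}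
  {L : M → ℝ} {G s : ℝ}

theorem I_ipE_zero (ρ : M →ₘ[m] ℝ) (F : M → E) : I (ρ * ipE m F (fun _ => (0 : E))) = 0 := by
  have h1 : ipE m F (fun _ => (0 : E)) = 0 := by
    unfold ipE
    split_ifs with h2
    · have h3 : AEEqFun.mk (fun x => ⟪F x, (0 : E)⟫_ℝ) h2
          = AEEqFun.mk (fun _ : M => (0 : ℝ)) aestronglyMeasurable_const :=
        AEEqFun.mk_eq_mk.2 (ae_of_all _ fun x => inner_zero_right _)
      rw [h3]
      rfl
    · rfl
  rw [h1, mul_zero]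
  unfold I
  rw [integral_congr_ae (zero_ae (M := M) (m := m))]
  simp

theorem int_ind {f : ℝ → ℝ} {a b : ℝ} (hsa : s ≤ a) (hab : a ≤ b) (hb : b ≤ 1) :
    ∫ t in s..1, (Ioc a b).indicator f t = ∫ t in a..b, f t := by
  rw [intervalIntegral.integral_of_le ((hsa.trans hab).trans hb),
    intervalIntegral.integral_of_le hab, setIntegral_indicator measurableSet_Ioc,
    inter_eq_self_of_subset_right (Ioc_subset_Ioc hsa hb)]

/-- weak convergence on a subinterval -/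
theorem conv_ab [SFinite m] (hH : HLim m U Gr V u φ Y e Hs Λ) (hl : l ∈ (sob m).TestI)
    (hh : h ∈ (sob m).TestI) (hs : s ∈ Ioo (0 : ℝ) 1) {Φ : ℝ → M → E}
    (hΦ : StronglyMeasurable fun z : ℝ × M => Φ z.1 z.2)
    (hΦ2 : MemLp (fun z : ℝ × M => Φ z.1 z.2) 2 ((volume.restrict (Ioc s 1)).prod m))
    {a b : ℝ} (hsa : s ≤ a) (hab : a ≤ b) (hb : b ≤ 1) :
    Tendsto (fun n => ∫ t in a..b, I (rn u φ l n t * ipE m (V (tn u φ l n t) h) (Φ t))) U
      (𝓝 (∫ t in a..b, ∫ x, Real.exp (l x) * ⟪Hs h t (Y t x), Φ t (Y t x)⟫_ℝ ∂m)) := by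
  set Ψ : ℝ → M → E := fun t x => (Ioc a b).indicator (fun _ => Φ t x) t with hΨ
  have hS : MeasurableSet {z : ℝ × M | z.1 ∈ Ioc a b} := measurable_fst measurableSet_Ioc
  have e0 : (fun z : ℝ × M => Ψ z.1 z.2)
      = {z : ℝ × M | z.1 ∈ Ioc a b}.indicator (fun z => Φ z.1 z.2) := by
    funext z
    by_cases hz : z.1 ∈ Ioc a b
    · rw [indicator_of_mem (show z ∈ {z : ℝ × M | z.1 ∈ Ioc a b} from hz), hΨ]
      exact indicator_of_mem hz _
    · rw [indicator_of_notMem (show z ∉ {z : ℝ × M | z.1 ∈ Ioc a b} from hz), hΨ]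
      exact indicator_of_notMem hz _
  have m1 : StronglyMeasurable (fun z : ℝ × M => Ψ z.1 z.2) := by
    rw [e0]; exact hΦ.indicator hS
  have m2 : MemLp (fun z : ℝ × M => Ψ z.1 z.2) 2 ((volume.restrict (Ioc s 1)).prod m) := by
    rw [e0]; exact hΦ2.indicator hS
  have key := hH.conv l hl h hh s hs Ψ m1 m2
  have e1 : ∀ n, ∫ t in s..1, I (rn u φ l n t * ipE m (V (tn u φ l n t) h) (Ψ t))
      = ∫ t in a..b, I (rn u φ l n t * ipE m (V (tn u φ l n t) h) (Φ t)) := by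
    intro n
    rw [← int_ind hsa hab hb]
    congr 1
    funext t
    by_cases ht : t ∈ Ioc a b
    · rw [indicator_of_mem ht]
      have : Ψ t = Φ t := by funext x; exact indicator_of_mem ht _
      rw [this]
    · rw [indicator_of_notMem ht]
      have : Ψ t = fun _ => (0 : E) := by funext x; exact indicator_of_notMem ht _
      rw [this, I_ipE_zero]
  have e2 : ∫ t in s..1, ∫ x, Real.exp (l x) * ⟪Hs h t (Y t x), Ψ t (Y t x)⟫_ℝ ∂m
      = ∫ t in a..b, ∫ x, Real.exp (l x) * ⟪Hs h t (Y t x), Φ t (Y t x)⟫_ℝ ∂m := by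
    rw [← int_ind hsa hab hb]
    congr 1
    funext t
    by_cases ht : t ∈ Ioc a b
    · rw [indicator_of_mem ht]
      have : Ψ t = Φ t := by funext x; exact indicator_of_mem ht _
      rw [this]
    · rw [indicator_of_notMem ht]
      have : Ψ t = fun _ => (0 : E) := by funext x; exact indicator_of_notMem ht _
      rw [this]
      simp
  rw [e2] at key
  refine key.congr fun n => e1 n

/-- the same for the field `w_t`, which is only a.e. measurable -/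
theorem conv_w [SFinite m] (hyp : CHyp M m K N P p s₀ C₀) (hE : EHyp m K N Gr V D HO e)
    (hB : LevB m Gr V D κ u φ) (hU : (U : Filter ℕ) ≤ atTop)
    (hF : RFlow m K N p s₀ C₀ Y) (hT : St6 m p s₀ C₀ Gr HO h L G)
    (hH : HLim m U Gr V u φ Y e Hs Λ) (hl : l ∈ (sob m).TestI)
    (hh : h ∈ (sob m).TestI) (hs : s ∈ Ioo (0 : ℝ) 1)
    {a b : ℝ} (hsa : s ≤ a) (hab : a ≤ b) (hb : b ≤ 1) :
    Tendsto (fun n => ∫ t in a..b, I (rn u φ l n t * ipE m (V (tn u φ l n t) h)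
      (wf6 m Gr HO h p s₀ C₀ t))) U
      (𝓝 (∫ t in a..b, ∫ x, Real.exp (l x) *
        ⟪Hs h t (Y t x), wf6 m Gr HO h p s₀ C₀ t (Y t x)⟫_ℝ ∂m)) := by
  set Φ : ℝ → M → E := fun t y => cz6 p s₀ C₀ t y • hT.hm.mk _ y with hΦ
  have hmk := hT.hm.ae_eq_mk
  have m1 : StronglyMeasurable fun z : ℝ × M => Φ z.1 z.2 :=
    cz6_meas.stronglyMeasurable.smul (hT.hm.stronglyMeasurable_mk.comp_measurable measurable_snd)
  have heq : ∀ t, ∀ᵐ y ∂m, wf6 m Gr HO h p s₀ C₀ t y = Φ t y := by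
    intro t
    filter_upwards [hmk] with y hy
    show cz6 p s₀ C₀ t y • HO h y (Gr (dc m p s₀ C₀) y) = cz6 p s₀ C₀ t y • hT.hm.mk _ y
    rw [← hy]
  have m2 : MemLp (fun z : ℝ × M => Φ z.1 z.2) 2 ((volume.restrict (Ioc s 1)).prod m) := by
    refine (wf6_memLp hyp hT hs.1).ae_eq ?_
    have h1 : ∀ᵐ z ∂((volume.restrict (Ioc s 1)).prod m), HO h z.2 (Gr (dc m p s₀ C₀) z.2)
        = hT.hm.mk _ z.2 := Measure.quasiMeasurePreserving_snd.ae hmk
    filter_upwards [h1] with z hz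
    show cz6 p s₀ C₀ z.1 z.2 • HO h z.2 (Gr (dc m p s₀ C₀) z.2)
      = cz6 p s₀ C₀ z.1 z.2 • hT.hm.mk _ z.2
    rw [hz]
  have key := conv_ab hH hl hh hs m1 m2 hsa hab hb
  have e2 : ∫ t in a..b, ∫ x, Real.exp (l x) * ⟪Hs h t (Y t x), Φ t (Y t x)⟫_ℝ ∂m
      = ∫ t in a..b, ∫ x, Real.exp (l x) *
        ⟪Hs h t (Y t x), wf6 m Gr HO h p s₀ C₀ t (Y t x)⟫_ℝ ∂m := by
    refine intervalIntegral.integral_congr_ae (ae_of_all _ fun t ht => ?_)
    rw [uIoc_of_le hab] at ht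
    refine integral_congr_ae ?_
    filter_upwards [H183.flow_ae hF ⟨(hs.1.trans_le hsa).trans ht.1, ht.2.trans hb⟩ (heq t)]
      with x hx
    rw [hx]
  rw [e2] at key
  refine key.congr' ?_
  filter_upwards [hU (hB.mem l hl)] with n hn
  refine intervalIntegral.integral_congr fun t ht => ?_
  rw [uIcc_of_le hab] at ht
  have ht0 : t ∈ Icc (0 : ℝ) 1 := ⟨hs.1.le.trans (hsa.trans ht.1), ht.2.trans hb⟩
  have hV := hE.hu.mem _ (hn t ht0).2.1.1 h hh.1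
  have hw := wf6_mem hyp hT ht0
  have hΦm : AEStronglyMeasurable (Φ t) m := hw.1.congr (heq t)
  show I (rn u φ l n t * ipE m (V (tn u φ l n t) h) (Φ t)) = I (rn u φ l n t *
    ipE m (V (tn u φ l n t) h) (wf6 m Gr HO h p s₀ C₀ t))
  rw [I_rip _ hV.1 hΦm, I_rip _ hV.1 hw.1]
  refine integral_congr_ae ?_
  filter_upwards [heq t] with x hx
  rw [hx]

end lev

end Vale.Agent.P233.H249
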