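import Vale.Agent.P233.H249.M6d

/-! P233, block C6 (helper249): passage to the limit in the level inequality. -/

set_option linter.all false

open MeasureTheory Filter Topology Set
open scoped ENNReal NNReal InnerProductSpace

universe u

namespace Vale.Agent.P233.H249

open Vale.Agent.P233.PA (en OutA PotLim)
open Vale.Agent.P233.PC

section real

theorem lim_unif_int {U : Filter ℕ} {F : ℕ → ℝ → ℝ} {G : ℝ → ℝ} {s a b : ℝ}
    (hF : ∀ᶠ n in U, IntervalIntegrable (F n) volume s 1) (hG : IntervalIntegrable G volume s 1)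
    (h : ∀ δ > 0, ∀ᶠ n in U, ∀ t ∈ Icc s 1, |F n t - G t| ≤ δ)
    (hsa : s ≤ a) (hab : a ≤ b) (hb : b ≤ 1) :
    Tendsto (fun n => ∫ t in a..b, F n t) U (𝓝 (∫ t in a..b, G t)) := by
  have ha' : a ∈ Icc s 1 := ⟨hsa, hab.trans hb⟩
  have hb' : b ∈ Icc s 1 := ⟨hsa.trans hab, hb⟩
  refine tendsto_near tendsto_const_nhds fun η hη => ?_
  have hba : 0 ≤ b - a := by linarith
  filter_upwards [hF, h (η / (b - a + 1)) (by positivity)] with n h1 h2
  rw [← intervalIntegral.integral_sub (ii_sub h1 ha' hb') (ii_sub hG ha' hb')]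
  have h3 := intervalIntegral.norm_integral_le_of_norm_le_const (a := a) (b := b)
    (C := η / (b - a + 1)) (f := fun t => F n t - G t) (fun t ht => by
      rw [uIoc_of_le hab] at ht
      exact h2 t ⟨hsa.trans ht.1.le, ht.2.trans hb⟩)
  rw [Real.norm_eq_abs, abs_of_nonneg hba] at h3
  refine h3.trans ?_
  rw [div_mul_eq_mul_div, div_le_iff₀ (by positivity)]
  nlinarith

end real

section fubs

variable {M : Type u} [MeasurableSpace M] {m : Measure M} [SFinite m] {s a b : ℝ}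

theorem fub_sub {F1 F2 F : ℝ × M → ℝ} {c1 c2 : ℝ}
    (h1 : Integrable F1 ((volume.restrict (Ioc s 1)).prod m))
    (h2 : Integrable F2 ((volume.restrict (Ioc s 1)).prod m))
    (hF : ∀ z, F z = c1 * F1 z - c2 * F2 z)
    (hsa : s ≤ a) (hab : a ≤ b) (hb : b ≤ 1) :
    ∫ t in a..b, ∫ x, F (t, x) ∂m = c1 * (∫ t in a..b, ∫ x, F1 (t, x) ∂m)
      - c2 * ∫ t in a..b, ∫ x, F2 (t, x) ∂m := by
  have hFi : Integrable F ((volume.restrict (Ioc s 1)).prod m) := by
    have : F = fun z => c1 * F1 z - c2 * F2 z := funext hF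
    rw [this]
    exact (h1.const_mul c1).sub (h2.const_mul c2)
  rw [(fub hFi hsa hab hb).2, (fub h1 hsa hab hb).2, (fub h2 hsa hab hb).2]
  have i1 := h1.mono_measure (prodab_le (m := m) hsa hb)
  have i2 := h2.mono_measure (prodab_le (m := m) hsa hb)
  rw [← integral_const_mul, ← integral_const_mul,
    ← integral_sub (i1.const_mul c1) (i2.const_mul c2)]
  exact integral_congr_ae (ae_of_all _ hF)

end fubs

section lev

variable {M : Type u} [MetricSpace M] [SecondCountableTopology M] [MeasurableSpace M]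
  [BorelSpace M] {m : Measure M} {K N κ : ℝ} {P : ℝ → (M →ₘ[m] ℝ) → (M →ₘ[m] ℝ)} {p : M}
  {s₀ C₀ : ℝ}
  {E : Type} [NormedAddCommGroup E] [InnerProductSpace ℝ E]
  {Gr : (M →ₘ[m] ℝ) → M → E} {V : (M →ₘ[m] ℝ) → (M →ₘ[m] ℝ) → M → E}
  {D : (M →ₘ[m] ℝ) → (M →ₘ[m] ℝ)} {HO : (M →ₘ[m] ℝ) → M → E →L[ℝ] E} {e : ℕ → M →ₘ[m] ℝ}
  {h l : M →ₘ[m] ℝ} {u : ℕ → ℝ → M →ₘ[m] ℝ} {φ : (M →ₘ[m] ℝ) → ℕ → ℝ → M →ₘ[m] ℝ}
  {U : Ultrafilter ℕ} {Y : ℝ → M → M} {Hs : (M →ₘ[m] ℝ) → ℝ → M → E} {Λ : ℝ → M → ℝ}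
  {L : M → ℝ} {G s : ℝ}

/-- the weight `exp l` is bounded -/
theorem exp_bd (hC : IsGamma (sob m)) (hl : l ∈ (sob m).TestI) :
    ∃ c : ℝ, 0 ≤ c ∧ ∀ᵐ x ∂m, ‖Real.exp (l x)‖ ≤ c := by
  obtain ⟨c, hc⟩ := mem_top_iff.1 (hC.test_A hl.1).2
  refine ⟨Real.exp c, (Real.exp_pos _).le, ?_⟩
  filter_upwards [hc] with x hx
  rw [Real.norm_of_nonneg (Real.exp_pos _).le]
  exact Real.exp_le_exp.2 ((le_abs_self _).trans hx)

theorem exp_meas (l : M →ₘ[m] ℝ) : AEStronglyMeasurable (fun x => Real.exp (l x)) m :=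
  Real.continuous_exp.comp_aestronglyMeasurable l.aestronglyMeasurable

theorem wint [SFinite m] (hC : IsGamma (sob m)) (hl : l ∈ (sob m).TestI) {F : ℝ × M → ℝ}
    (hF : Integrable F ((volume.restrict (Ioc s 1)).prod m)) :
    Integrable (fun z : ℝ × M => Real.exp (l z.2) * F z) ((volume.restrict (Ioc s 1)).prod m) := by
  obtain ⟨c, hc0, hc⟩ := exp_bd hC hl
  exact hF.bdd_mul (c := c) (exp_meas l).comp_snd (Measure.quasiMeasurePreserving_snd.ae hc)

/-- the limit of the curvature term, uniformly on `[s,1]` -/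
theorem lim_S (hyp : CHyp M m K N P p s₀ C₀) (hE : EHyp m K N Gr V D HO e)
    (hA : OutA m K N P p s₀ C₀ u φ) (hU : (U : Filter ℕ) ≤ atTop)
    (hF : RFlow m K N p s₀ C₀ Y) (hSt : Strong p s₀ C₀ U u φ Y)
    (hT : St6 m p s₀ C₀ Gr HO h L G) (hl : l ∈ (sob m).TestI) (hs : s ∈ Ioo (0 : ℝ) 1)
    {δ : ℝ} (hδ : 0 < δ) : ∀ᶠ n in (U : Filter ℕ), ∀ t ∈ Icc s 1,
      |I (bS m Gr p s₀ C₀ h t * rn u φ l n t) - ∫ x, Real.exp (l x) *
        Xs (Gr h (Y t x)) (vf6 m Gr p s₀ C₀ t (Y t x)) ∂m| ≤ δ := by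
  have hsub : Icc s 1 ⊆ Icc 0 1 := Icc_subset_Icc_left hs.1.le
  have key := (H719.tu4_strong hyp hA hl hs.1 hs.2.le hU hSt (b := bS m Gr p s₀ C₀ h)
    (fun t ht => bS_mem hyp hT (hsub ht) (X0_mem hT).1)
    (fun t ht => bS_mem hyp hT (hsub ht) (X0_mem hT).2)
    (fun t ht => bS_cont hyp hE hT hs.1 ht)).2 δ hδ
  filter_upwards [key] with n hn t ht
  have e1 : ∫ x, bS m Gr p s₀ C₀ h t (Y t x) * Real.exp (l x) ∂m = ∫ x, Real.exp (l x) *
        Xs (Gr h (Y t x)) (vf6 m Gr p s₀ C₀ t (Y t x)) ∂m := by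
    refine integral_congr_ae ?_
    filter_upwards [H183.flow_ae hF ⟨hs.1.trans_le ht.1, ht.2⟩ (bS_ae hT t)] with x hx
    rw [hx, mul_comm]
  rw [← e1]
  exact hn t ht

/-- the weak lower semicontinuity of the quadratic term -/
theorem lim_Q [SFinite m] (hyp : CHyp M m K N P p s₀ C₀)
    (hA : OutA m K N P p s₀ C₀ u φ) (hU : (U : Filter ℕ) ≤ atTop)
    (hF : RFlow m K N p s₀ C₀ Y) (hSt : Strong p s₀ C₀ U u φ Y)
    (hH : HLim m U Gr V u φ Y e Hs Λ)
    (hT : St6 m p s₀ C₀ Gr HO h L G) (hl : l ∈ (sob m).TestI) (hh : h ∈ (sob m).TestI)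
    (hs : s ∈ Ioo (0 : ℝ) 1) {B L1 cQ : ℝ}
    (hLev : ∀ᶠ n in (U : Filter ℕ), Lev6 m p s₀ C₀ V κ u φ l h s B L1 cQ n)
    {a b : ℝ} (hsa : s ≤ a) (hab : a ≤ b) (hb : b ≤ 1) :
    ∀ η > 0, ∀ᶠ n in (U : Filter ℕ),
      (∫ t in a..b, ∫ x, Real.exp (l x) * ‖Hs h t (Y t x)‖ ^ 2 ∂m) - η
        ≤ ∫ t in a..b, I (rn u φ l n t * ipE m (V (tn u φ l n t) h) (V (tn u φ l n t) h)) := by
  have hC := H719.std_gamma hyp.std
  obtain ⟨cW, hcW0, hcW⟩ := exp_bd hC hl
  have hcW' : ∀ᵐ x ∂m, Real.exp (l x) ≤ cW := by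
    filter_upwards [hcW] with x hx
    exact (le_abs_self _).trans hx
  refine lscQ (H := fun z : ℝ × M => Hs h z.1 z.2) (W := fun x => Real.exp (l x)) (U := U)
    hF.meas ENNReal.ofReal_ne_top (compr hyp.std.hN hF hs.1) p
    (fun k => hyp.std.hfin p k) (hH.meas h hh) (hs_memLp hyp hF hH hT hh hs) (exp_meas l)
    (ae_of_all _ fun x => (Real.exp_pos _).le) hcW'
    (Q := fun n t => I (rn u φ l n t * ipE m (V (tn u φ l n t) h) (V (tn u φ l n t) h))) ?_
    hsa hab hb ?_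
  · filter_upwards [hLev] with n hn
    exact hn.contQ.intervalIntegrable_of_Icc hs.2.le
  · intro Φ hΦ hΦb hΦR
    obtain ⟨BΦ, hΦB⟩ := hΦb
    obtain ⟨R, hR⟩ := hΦR
    have mΦ : ∀ t, AEStronglyMeasurable (fun x => Φ (t, x)) m := fun t =>
      (hΦ.comp (Continuous.prodMk_right t)).aestronglyMeasurable
    have mem2 : ∀ t, MemLp (fun x => Φ (t, x)) 2 m := fun t =>
      ball_mem (p := p) hyp.std.hfin (mΦ t) (fun x => hΦB (t, x)) (fun x hx => hR (t, x) hx) 2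
    have hcont : ∀ t, Tendsto (fun τ => ∫ x, ‖Φ (τ, x) - Φ (t, x)‖ ^ 2 ∂m) (𝓝 t) (𝓝 0) := fun t =>
      ball_cont (p := p) (f := fun t x => Φ (t, x)) hyp.std.hfin mΦ (fun t x => hΦB (t, x))
        (fun t x hx => hR (t, x) hx) (fun x => hΦ.comp (Continuous.prodMk_left x)) t
    -- the class `|Φ_t|²`
    set bb : ℝ → M →ₘ[m] ℝ := fun t => ipE m (fun x => Φ (t, x)) (fun x => Φ (t, x)) with hbb
    have bae : ∀ t, ∀ᵐ x ∂m, bb t x = ‖Φ (t, x)‖ ^ 2 := by
      intro t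
      filter_upwards [ipE_ae (mΦ t) (mΦ t)] with x hx
      rw [hx, real_inner_self_eq_norm_sq]
    have hB0 : ∀ t x, ‖‖Φ (t, x)‖ ^ 2‖ ≤ BΦ ^ 2 := by
      intro t x
      rw [norm_pow, norm_norm]
      exact pow_le_pow_left₀ (norm_nonneg _) (hΦB _) 2
    have hR0 : ∀ t x, R ≤ dist p x → ‖Φ (t, x)‖ ^ 2 = 0 := by
      intro t x hx
      rw [hR (t, x) hx, norm_zero]
      norm_num
    have bmem : ∀ t (q : ℝ≥0∞), MemLp (bb t) q m := by
      intro t q
      have h1 : MemLp (fun x => ‖Φ (t, x)‖ ^ 2) q m :=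
        ball_mem (p := p) hyp.std.hfin ((mΦ t).norm.pow 2) (hB0 t) (hR0 t) q
      refine h1.ae_eq ?_
      filter_upwards [bae t] with x hx
      rw [hx]
    have bcont : ∀ t ∈ Icc s 1, Tendsto (fun τ => I ((bb τ - bb t) ^ 2)) (𝓝[Icc s 1] t)
        (𝓝 0) := by
      intro t ht
      have h1 := (ball_cont (p := p) (f := fun t x => ‖Φ (t, x)‖ ^ 2) hyp.std.hfin
        (fun t => (mΦ t).norm.pow 2) hB0 hR0
        (fun x => (hΦ.comp (Continuous.prodMk_left x)).norm.pow 2) t).mono_left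
        (nhdsWithin_le_nhds (s := Icc s 1))
      refine h1.congr fun τ => ?_
      refine integral_congr_ae ?_
      filter_upwards [sq_ae (bb τ - bb t), sub_ae (bb τ) (bb t), bae τ, bae t] with x a1 a2 a3 a4
      rw [a1, a2, a3, a4, Real.norm_eq_abs, sq_abs]
    have tu := (H719.tu4_strong hyp hA hl hs.1 hs.2.le hU hSt (b := bb)
      (fun t ht => bmem t 1) (fun t ht => bmem t 2) bcont).2
    -- space-time membership
    have hball : MeasurableSet (Metric.ball p R) := Metric.isOpen_ball.measurableSet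
    have sm : StronglyMeasurable Φ := hΦ.stronglyMeasurable
    have bsup : ∀ z : ℝ × M, ‖Φ z‖ ≤ ‖(Metric.ball p R).indicator (fun _ : M => BΦ) z.2‖ := by
      intro z
      by_cases hx : dist p z.2 < R
      · rw [indicator_of_mem (by rwa [Metric.mem_ball, dist_comm])]
        exact (hΦB z).trans (le_abs_self _)
      · rw [hR z (not_lt.1 hx), norm_zero]
        exact norm_nonneg _
    have mem2' : MemLp Φ 2 ((volume.restrict (Ioc s 1)).prod m) :=
      ((memLp_indicator_const 2 hball BΦ (Or.inr (hyp.std.hfin p R).ne)).comp_snd _).of_le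
        sm.aestronglyMeasurable (ae_of_all _ bsup)
    have lim1 := conv_ab hH hl hh hs (Φ := fun t x => Φ (t, x)) sm mem2' hsa hab hb
    refine ⟨fun n t => I (rn u φ l n t * ipE m (V (tn u φ l n t) h) (fun x => Φ (t, x))),
      fun n t => I (rn u φ l n t * bb t), ?_, lim1, ?_⟩
    · filter_upwards [hLev] with n hn
      obtain ⟨c1, c2⟩ := hn.contG (F := fun t x => Φ (t, x)) (fun t _ => mem2 t)
        (fun t _ => (hcont t).mono_left nhdsWithin_le_nhds)
      refine ⟨c1.intervalIntegrable_of_Icc hs.2.le, c2.intervalIntegrable_of_Icc hs.2.le, ?_⟩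
      intro t ht
      have ht' : t ∈ Icc s 1 := ⟨ht.1.le, ht.2⟩
      have hW := hn.wt t ht'
      have hV := hn.V2 t ht'
      have i1 := int_inner2 hV (mem2 t)
      have i2 := int_inner2 (mem2 t) (mem2 t)
      have i3 := int_inner2 hV hV
      show 2 * I (rn u φ l n t * ipE m (V (tn u φ l n t) h) (fun x => Φ (t, x)))
        - I (rn u φ l n t * ipE m (fun x => Φ (t, x)) (fun x => Φ (t, x)))
        ≤ I (rn u φ l n t * ipE m (V (tn u φ l n t) h) (V (tn u φ l n t) h))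
      rw [I_rip _ hV.1 (mΦ t), I_rip _ (mΦ t) (mΦ t), I_rip _ hV.1 hV.1, ← integral_const_mul,
        ← integral_sub ((hW.int i1).const_mul 2) (hW.int i2)]
      refine integral_mono_ae (((hW.int i1).const_mul 2).sub (hW.int i2)) (hW.int i3) ?_
      filter_upwards [hW.nonneg] with x hx
      have h5 : 0 ≤ ‖V (tn u φ l n t) h x - Φ (t, x)‖ ^ 2 := sq_nonneg _
      rw [@norm_sub_sq_real] at h5
      have h6 : ⟪V (tn u φ l n t) h x, V (tn u φ l n t) h x⟫_ℝ = ‖V (tn u φ l n t) h x‖ ^ 2 :=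
        real_inner_self_eq_norm_sq _
      have h7 : ⟪Φ (t, x), Φ (t, x)⟫_ℝ = ‖Φ (t, x)‖ ^ 2 := real_inner_self_eq_norm_sq _
      show 2 * (rn u φ l n t x * ⟪V (tn u φ l n t) h x, Φ (t, x)⟫_ℝ)
        - rn u φ l n t x * ⟪Φ (t, x), Φ (t, x)⟫_ℝ
        ≤ rn u φ l n t x * ⟪V (tn u φ l n t) h x, V (tn u φ l n t) h x⟫_ℝ
      rw [h6, h7]
      nlinarith [mul_le_mul_of_nonneg_left h5 hx]
    · -- the limit of the second term
      have iΦ : Integrable (fun z : ℝ × M => ‖Φ (z.1, Y z.1 z.2)‖ ^ 2)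
          ((volume.restrict (Ioc s 1)).prod m) := by
        have h1 := memLp_TY (F := Φ) hF.meas ENNReal.ofReal_ne_top
          (compr hyp.std.hN hF hs.1) mem2'
        exact (memLp_two_iff_integrable_sq_norm h1.1).1 h1
      have iG := (fub (wint hC hl iΦ) le_rfl hs.2.le le_rfl).1
      refine lim_unif_int (s := s) ?_ iG ?_ hsa hab hb
      · filter_upwards [hLev] with n hn
        exact (hn.contG (F := fun t x => Φ (t, x)) (fun t _ => mem2 t)
          (fun t _ => (hcont t).mono_left nhdsWithin_le_nhds)).2.intervalIntegrable_of_Icc hs.2.le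
      · intro δ hδ
        filter_upwards [tu δ hδ] with n hn t ht
        have e1 : ∫ x, bb t (Y t x) * Real.exp (l x) ∂m
            = ∫ x, Real.exp (l x) * ‖Φ (t, Y t x)‖ ^ 2 ∂m := by
          refine integral_congr_ae ?_
          filter_upwards [H183.flow_ae hF ⟨hs.1.trans_le ht.1, ht.2⟩ (bae t)] with x hx
          rw [hx, mul_comm]
        have h3 := hn t ht
        rw [e1, mul_comm] at h3
        exact h3

end lev

end Vale.Agent.P233.H249
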