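import Vale.Agent.P233.H249.M6e

/-! P233, block C6 (helper249): the integrated Riccati inequality. -/

set_option linter.all false

open MeasureTheory Filter Topology Set
open scoped ENNReal NNReal InnerProductSpace

universe u

namespace Vale.Agent.P233.H249

open Vale.Agent.P233.PA (en OutA PotLim)
open Vale.Agent.P233.PC

section lev

variable {M : Type u} [MetricSpace M] [SecondCountableTopology M] [MeasurableSpace M]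
  [BorelSpace M] {m : Measure M} {K N κ : ℝ} {P : ℝ → (M →ₘ[m] ℝ) → (M →ₘ[m] ℝ)} {p : M}
  {s₀ C₀ : ℝ}
  {E : Type} [NormedAddCommGroup E] [InnerProductSpace ℝ E]
  {Gr : (M →ₘ[m] ℝ) → M → E} {V : (M →ₘ[m] ℝ) → (M →ₘ[m] ℝ) → M → E}
  {D : (M →ₘ[m] ℝ) → (M →ₘ[m] ℝ)} {HO : (M →ₘ[m] ℝ) → M → E →L[ℝ] E} {e : ℕ → M →ₘ[m] ℝ}
  {h l : M →ₘ[m] ℝ} {u : ℕ → ℝ → M →ₘ[m] ℝ} {φ : (M →ₘ[m] ℝ) → ℕ → ℝ → M →ₘ[m] ℝ}
  {U : Ultrafilter ℕ} {Y : ℝ → M → M} {Hs : (M →ₘ[m] ℝ) → ℝ → M → E} {Λ : ℝ → M → ℝ}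
  {L : M → ℝ} {G s : ℝ}

/-- `D_n(t) = 2 E⟨Hess h(∇θ), Hess θ(∇h)⟩ - κ E(|∇h|²|∇θ|² - ⟨∇h,∇θ⟩²)` -/
noncomputable def Dn (m : Measure M) (V : (M →ₘ[m] ℝ) → (M →ₘ[m] ℝ) → M → E) (κ : ℝ)
    (u : ℕ → ℝ → M →ₘ[m] ℝ) (φ : (M →ₘ[m] ℝ) → ℕ → ℝ → M →ₘ[m] ℝ) (l h : M →ₘ[m] ℝ) (n : ℕ)
    (t : ℝ) : ℝ :=
  2 * I (rn u φ l n t * ipE m (V h (tn u φ l n t)) (V (tn u φ l n t) h))
    - κ * I (rn u φ l n t * ((sob m).Γ h h * (sob m).Γ (tn u φ l n t) (tn u φ l n t)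
      - (sob m).Γ h (tn u φ l n t) ^ 2))

noncomputable def Qn (m : Measure M) (V : (M →ₘ[m] ℝ) → (M →ₘ[m] ℝ) → M → E)
    (u : ℕ → ℝ → M →ₘ[m] ℝ) (φ : (M →ₘ[m] ℝ) → ℕ → ℝ → M →ₘ[m] ℝ) (l h : M →ₘ[m] ℝ) (n : ℕ)
    (t : ℝ) : ℝ :=
  I (rn u φ l n t * ipE m (V (tn u φ l n t) h) (V (tn u φ l n t) h))

theorem Dn_sub_Qn (n : ℕ) (t : ℝ) : Dn m V κ u φ l h n t - Qn m V u φ l h n t
    = (sob m).FR V κ (en n) (φ l n) (u n) h t := by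
  unfold Dn Qn Calc.FR rn tn
  ring

/-- the level estimate `|D_n - D'_n| ≤ η Q_n + ζ` -/
theorem Dn_near (hyp : CHyp M m K N P p s₀ C₀) (hE : EHyp m K N Gr V D HO e)
    (hA : OutA m K N P p s₀ C₀ u φ) (hB : LevB m Gr V D κ u φ) (hU : (U : Filter ℕ) ≤ atTop)
    (hF : RFlow m K N p s₀ C₀ Y) (hSt : Strong p s₀ C₀ U u φ Y)
    (hT : St6 m p s₀ C₀ Gr HO h L G) (hl : l ∈ (sob m).TestI) (hh : h ∈ (sob m).TestI)
    (hs : s ∈ Ioo (0 : ℝ) 1) {B L1 cQ : ℝ} (hB0 : 0 ≤ B) (hL1 : 0 ≤ L1)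
    (hz1 : ∀ t ∈ Icc (0 : ℝ) 1, ∀ᵐ x ∂m, (sob m).Γ (zc m p s₀ C₀ t) (zc m p s₀ C₀ t) x ≤ L1)
    (hLev : ∀ᶠ n in (U : Filter ℕ), Lev6 m p s₀ C₀ V κ u φ l h s B L1 cQ n)
    {η ζ : ℝ} (hη : 0 < η) (hζ : 0 < ζ) : ∀ᶠ n in (U : Filter ℕ), ∀ t ∈ Icc s 1,
      |Dn m V κ u φ l h n t - (2 * I (rn u φ l n t * ipE m (V (tn u φ l n t) h)
        (wf6 m Gr HO h p s₀ C₀ t)) - κ * ∫ x, Real.exp (l x) *
        Xs (Gr h (Y t x)) (vf6 m Gr p s₀ C₀ t (Y t x)) ∂m)| ≤ η * Qn m V u φ l h n t + ζ := by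
  have hC := H719.std_gamma hyp.std
  have hsub : Icc s 1 ⊆ Icc 0 1 := Icc_subset_Icc_left hs.1.le
  have hhW : h ∈ (sob m).W := (hC.test_A hh.1).1
  have hLi : Integrable (fun x => L x ^ 2) m := (memLp_two_iff_integrable_sq hT.L2.1).1 hT.L2
  -- the weights
  set A : M →ₘ[m] ℝ := cl m fun x => L x ^ 2 with hAd
  have hAae : ∀ᵐ x ∂m, A x = L x ^ 2 := cl_ae hLi.1
  have hA0 : 0 ≤ A := by
    rw [nonneg_iff_ae]
    filter_upwards [hAae] with x hx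
    rw [hx]; positivity
  have hA1 : MemLp A 1 m := by
    refine (memLp_one_iff_integrable.2 hLi).ae_eq ?_
    filter_upwards [hAae] with x hx
    rw [hx]
  have hΓ0 : 0 ≤ (sob m).Γ h h := hC.nonneg _ hhW
  have hΓ1 : MemLp ((sob m).Γ h h) 1 m := hC.mem1 _ hhW
  have hIΓ : 0 ≤ I ((sob m).Γ h h) := I_nonneg hΓ0
  -- the parameters
  set c1 : ℝ := |κ| * (4 * L1 * (B * I ((sob m).Γ h h))) with hc1
  have hc10 : 0 ≤ c1 := by positivity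
  set η' : ℝ := ζ / (4 * (c1 + 1)) with hη'
  have hη'0 : 0 < η' := by positivity
  have hc1η : c1 * η' ≤ ζ / 4 := by
    rw [hη', mul_div_assoc', div_le_iff₀ (by positivity)]
    nlinarith
  set δ1 : ℝ := η * ζ / 4 with hδ1
  have hδ10 : 0 < δ1 := by positivity
  set δ2 : ℝ := η' * ζ / (4 * (|κ| + 1)) with hδ2
  have hδ20 : 0 < δ2 := by positivity
  set δ3 : ℝ := ζ / (4 * (|κ| + 1)) with hδ3
  have hδ30 : 0 < δ3 := by positivity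
  filter_upwards [hLev, hU (H719.tu6 hyp hA hB hl hs hA0 hA1 hδ10),
    hU (H719.tu6 hyp hA hB hl hs hΓ0 hΓ1 hδ20), lim_S hyp hE hA hU hF hSt hT hl hs hδ30]
    with n a1 a2 a3 a4 t ht
  have b1 := lev_P hyp hE hT hh (a1.wt t ht) (a1.th t ht) (hsub ht) hAae (a1.gd t ht) hη
  have b2 := lev_S hyp hE hT hh (a1.wt t ht) hB0 (a1.th t ht) (hsub ht) (a1.gd t ht) hL1
    (a1.gθ t ht) (hz1 t (hsub ht)) hη'0
  have b3 := a2 t ht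
  have b4 := a3 t ht
  have b5 := a4 t ht
  set X1 := I (rn u φ l n t * ipE m (V h (tn u φ l n t)) (V (tn u φ l n t) h)) with hX1
  set X2 := I (rn u φ l n t * ipE m (V (tn u φ l n t) h) (wf6 m Gr HO h p s₀ C₀ t)) with hX2
  set S1 := I (rn u φ l n t * ((sob m).Γ h h * (sob m).Γ (tn u φ l n t) (tn u φ l n t)
      - (sob m).Γ h (tn u φ l n t) ^ 2)) with hS1
  set S2 := I (bS m Gr p s₀ C₀ h t * rn u φ l n t) with hS2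
  set S3 := ∫ x, Real.exp (l x) * Xs (Gr h (Y t x)) (vf6 m Gr p s₀ C₀ t (Y t x)) ∂m with hS3
  have hQ : Qn m V u φ l h n t = I (rn u φ l n t * ipE m (V (tn u φ l n t) h)
    (V (tn u φ l n t) h)) := rfl
  have hD : Dn m V κ u φ l h n t = 2 * X1 - κ * S1 := rfl
  rw [hD]
  have e1 : 2 * X1 - κ * S1 - (2 * X2 - κ * S3) = 2 * (X1 - X2) - κ * (S1 - S2)
      - κ * (S2 - S3) := by ring
  rw [e1]
  have t1 : |2 * (X1 - X2)| ≤ η * Qn m V u φ l h n t + ζ / 4 := by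
    rw [abs_mul, abs_two, hQ]
    have h6 : (2 * η)⁻¹ * I (A * rn u φ l n t * (sob m).Γ (tn u φ l n t - zc m p s₀ C₀ t)
        (tn u φ l n t - zc m p s₀ C₀ t)) ≤ (2 * η)⁻¹ * δ1 :=
      mul_le_mul_of_nonneg_left b3 (by positivity)
    have h7 : (2 * η)⁻¹ * δ1 = ζ / 8 := by
      rw [hδ1]; field_simp; norm_num
    linarith
  have t2 : |κ * (S1 - S2)| ≤ ζ / 4 + ζ / 4 := by
    rw [abs_mul]
    have h6 : η'⁻¹ * I ((sob m).Γ h h * rn u φ l n t * (sob m).Γ (tn u φ l n t - zc m p s₀ C₀ t)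
        (tn u φ l n t - zc m p s₀ C₀ t)) ≤ η'⁻¹ * δ2 :=
      mul_le_mul_of_nonneg_left b4 (by positivity)
    have h7 : η'⁻¹ * δ2 = ζ / (4 * (|κ| + 1)) := by
      rw [hδ2]; field_simp
    have h8 : |κ| * (ζ / (4 * (|κ| + 1))) ≤ ζ / 4 := by
      rw [mul_div_assoc', div_le_iff₀ (by positivity)]
      nlinarith [abs_nonneg κ]
    calc |κ| * |S1 - S2| ≤ |κ| * (4 * L1 * η' * (B * I ((sob m).Γ h h)) +
          ζ / (4 * (|κ| + 1))) := by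
          refine mul_le_mul_of_nonneg_left ?_ (abs_nonneg κ)
          linarith
      _ = c1 * η' + |κ| * (ζ / (4 * (|κ| + 1))) := by rw [hc1]; ring
      _ ≤ ζ / 4 + ζ / 4 := by linarith
  have t3 : |κ * (S2 - S3)| ≤ ζ / 4 := by
    rw [abs_mul]
    calc |κ| * |S2 - S3| ≤ |κ| * δ3 := mul_le_mul_of_nonneg_left b5 (abs_nonneg κ)
      _ ≤ ζ / 4 := by
        rw [hδ3, mul_div_assoc', div_le_iff₀ (by positivity)]
        nlinarith [abs_nonneg κ]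
  calc |2 * (X1 - X2) - κ * (S1 - S2) - κ * (S2 - S3)|
      ≤ |2 * (X1 - X2) - κ * (S1 - S2)| + |κ * (S2 - S3)| := abs_sub _ _
    _ ≤ |2 * (X1 - X2)| + |κ * (S1 - S2)| + |κ * (S2 - S3)| := by
        gcongr; exact abs_sub _ _
    _ ≤ η * Qn m V u φ l h n t + ζ := by linarith

/-- `|D_n| ≤ η Q_n + c_η` -/
theorem Dn_bd (hyp : CHyp M m K N P p s₀ C₀) (hE : EHyp m K N Gr V D HO e)
    (hT : St6 m p s₀ C₀ Gr HO h L G) (hh : h ∈ (sob m).TestI)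
    {B L1 cQ : ℝ} (hB0 : 0 ≤ B) (hL1 : 0 ≤ L1) {η : ℝ} (hη : 0 < η) :
    ∃ c : ℝ, 0 ≤ c ∧ ∀ n, Lev6 m p s₀ C₀ V κ u φ l h s B L1 cQ n → ∀ t ∈ Icc s 1,
      |Dn m V κ u φ l h n t| ≤ η * Qn m V u φ l h n t + c := by
  have hC := H719.std_gamma hyp.std
  have hhW : h ∈ (sob m).W := (hC.test_A hh.1).1
  have hIΓ : 0 ≤ I ((sob m).Γ h h) := I_nonneg (hC.nonneg _ hhW)
  have hLi : 0 ≤ ∫ x, L x ^ 2 * L1 ∂m := integral_nonneg fun x => by positivity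
  refine ⟨2 * ((2 * η)⁻¹ * (B * ∫ x, L x ^ 2 * L1 ∂m))
    + |κ| * (L1 * (B * I ((sob m).Γ h h))), by positivity, fun n H t ht => ?_⟩
  have b1 := lev_Pb hyp hE hT hh (H.wt t ht) hB0 (H.th t ht) hL1 (H.gθ t ht) hη
  have b2 := lev_Sb hyp hE hT hh (H.wt t ht) hB0 (H.th t ht) hL1 (H.gθ t ht)
  unfold Dn
  refine (abs_sub _ _).trans ?_
  rw [abs_mul, abs_mul, abs_two]
  have hQ : Qn m V u φ l h n t = I (rn u φ l n t * ipE m (V (tn u φ l n t) h)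
    (V (tn u φ l n t) h)) := rfl
  rw [hQ]
  have b3 := mul_le_mul_of_nonneg_left b2 (abs_nonneg κ)
  linarith

end lev

end Vale.Agent.P233.H249
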