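import Vale.Agent.P233.H249.M6f

/-! P233, block C6 (helper249): the integrated Riccati inequality `RicInt6` and the end point
`EndInt6`. -/

set_option linter.all false

open MeasureTheory Filter Topology Set
open scoped ENNReal NNReal InnerProductSpace

universe u

namespace Vale.Agent.P233.H249

open Vale.Agent.P233.PA (en OutA PotLim)
open Vale.Agent.P233.PC

section lev

variable {M : Type u} [MetricSpace M] [SecondCountableTopology M] [MeasurableSpace M]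
  [BorelSpace M] {m : Measure M} {K N κ : ℝ} {P : ℝ → (M →ₘ[m] ℝ) → (M →ₘ[m] ℝ)} {p : M}
  {s₀ C₀ : ℝ}
  {E : Type} [NormedAddCommGroup E] [InnerProductSpace ℝ E]
  {Gr : (M →ₘ[m] ℝ) → M → E} {V : (M →ₘ[m] ℝ) → (M →ₘ[m] ℝ) → M → E}
  {D : (M →ₘ[m] ℝ) → (M →ₘ[m] ℝ)} {HO : (M →ₘ[m] ℝ) → M → E →L[ℝ] E} {e : ℕ → M →ₘ[m] ℝ}
  {h l : M →ₘ[m] ℝ} {u : ℕ → ℝ → M →ₘ[m] ℝ} {φ : (M →ₘ[m] ℝ) → ℕ → ℝ → M →ₘ[m] ℝ}
  {U : Ultrafilter ℕ} {Y : ℝ → M → M} {Hs : (M →ₘ[m] ℝ) → ℝ → M → E} {Λ : ℝ → M → ℝ}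
  {L : M → ℝ} {G s : ℝ}

/-- integrability of the curvature term in space-time -/
theorem iX6 [SFinite m] (hI : Int6 m Gr HO Hs κ p s₀ C₀ Y h s) (hκ : True)
    (hyp : CHyp M m K N P p s₀ C₀) (hF : RFlow m K N p s₀ C₀ Y)
    (hT : St6 m p s₀ C₀ Gr HO h L G) (hs : s ∈ Ioo (0 : ℝ) 1) :
    Integrable (fun z : ℝ × M => Xs (Gr h (Y z.1 z.2)) (vf6 m Gr p s₀ C₀ z.1 (Y z.1 z.2)))
      ((volume.restrict (Ioc s 1)).prod m) := by
  have hcomp := compr hyp.std.hN hF hs.1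
  have iG := hI.G
  have mv : StronglyMeasurable fun z : ℝ × M => vf6 m Gr p s₀ C₀ z.1 (Y z.1 z.2) := by
    have h1 : StronglyMeasurable fun z : ℝ × M => vf6 m Gr p s₀ C₀ z.1 z.2 :=
      cz6_meas.stronglyMeasurable.smul (hT.dm.comp_measurable measurable_snd)
    exact h1.comp_measurable (TY_meas hF.meas)
  have bv : ∀ᵐ z ∂((volume.restrict (Ioc s 1)).prod m),
      ‖vf6 m Gr p s₀ C₀ z.1 (Y z.1 z.2)‖ ≤ r1 s₀ C₀ / s₀ := by
    refine ae_TY (p := fun t y => ‖vf6 m Gr p s₀ C₀ t y‖ ≤ r1 s₀ C₀ / s₀) hF.meas hcomp ?_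
    have h2 : ∀ᵐ z ∂((volume.restrict (Ioc s 1)).prod m), z.1 ∈ Ioc s 1 :=
      Measure.quasiMeasurePreserving_fst.ae (ae_restrict_mem measurableSet_Ioc)
    have h3 : ∀ᵐ z ∂((volume.restrict (Ioc s 1)).prod m), ‖Gr (dc m p s₀ C₀) z.2‖ ≤ 1 :=
      Measure.quasiMeasurePreserving_snd.ae hT.db
    filter_upwards [h2, h3] with z a1 a2
    unfold vf6
    rw [norm_smul, Real.norm_eq_abs]
    have h4 := cz6_abs hyp (t := z.1) ⟨hs.1.le.trans a1.1.le, a1.2⟩ z.2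
    calc |cz6 p s₀ C₀ z.1 z.2| * ‖Gr (dc m p s₀ C₀) z.2‖ ≤ (r1 s₀ C₀ / s₀) * 1 := by
          gcongr
          exact (abs_nonneg _).trans h4
      _ = _ := mul_one _
  have i1 : Integrable (fun z : ℝ × M => ‖Gr h (Y z.1 z.2)‖ ^ 2)
      ((volume.restrict (Ioc s 1)).prod m) := (memLp_two_iff_integrable_sq_norm iG.1).1 iG
  refine (i1.const_mul ((r1 s₀ C₀ / s₀) ^ 2)).mono' ?_ ?_
  · exact ((iG.1.norm.pow 2).mul (mv.aestronglyMeasurable.norm.pow 2)).sub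
      ((iG.1.inner mv.aestronglyMeasurable).pow 2)
  · filter_upwards [bv] with z hz
    rw [Real.norm_of_nonneg (Xs_nonneg _ _)]
    refine (Xs_le _ _).trans ?_
    rw [mul_comm]
    gcongr

/-- **The main theorem of C6.** -/
theorem main6 [SFinite m] (hyp : CHyp M m K N P p s₀ C₀) (hE : EHyp m K N Gr V D HO e)
    (hA : OutA m K N P p s₀ C₀ u φ) (hB : LevB m Gr V D κ u φ) (hU : (U : Filter ℕ) ≤ atTop)
    (hF : RFlow m K N p s₀ C₀ Y) (hSt : Strong p s₀ C₀ U u φ Y)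
    (hH : HLim m U Gr V u φ Y e Hs Λ)
    (hl : l ∈ (sob m).TestI) (hh : h ∈ (sob m).TestI) (hs : s ∈ Ioo (0 : ℝ) 1) {A1 : ℝ}
    (h1 : Tendsto (fun n => (sob m).SS (en n) (φ l n) (u n) h 1) atTop (𝓝 A1)) :
    ∃ Gs : Set ℝ, Gs ⊆ Ioo s 1 ∧ (∀ᵐ t ∂(volume.restrict (Ioo s 1)), t ∈ Gs) ∧
      (∀ a ∈ Gs, ∀ b ∈ Gs, a < b → (∫ x, Real.exp (l x) * qf6 Gr Hs Y h b x ∂m)
        - (∫ x, Real.exp (l x) * qf6 Gr Hs Y h a x ∂m)
        ≤ ∫ t in a..b, ∫ x, Real.exp (l x) * bf6 m Gr HO Hs κ p s₀ C₀ Y h t x ∂m) ∧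
      (∀ a ∈ Gs, A1 - (∫ x, Real.exp (l x) * qf6 Gr Hs Y h a x ∂m)
        ≤ ∫ t in a..1, ∫ x, Real.exp (l x) * bf6 m Gr HO Hs κ p s₀ C₀ Y h t x ∂m) := by
  have hC := H719.std_gamma hyp.std
  obtain ⟨L, G, hT⟩ := exists_St6 hyp hE hh
  have hI : Int6 m Gr HO Hs κ p s₀ C₀ Y h s := int6 hyp hF hH hT hh hs
  obtain ⟨B, L1, cQ, hB0, hL1, hcQ, hz1, hLev0⟩ := exists_lev6 hyp hE hA hB hl hh hT hs
  have hLev : ∀ᶠ n in (U : Filter ℕ), Lev6 m p s₀ C₀ V κ u φ l h s B L1 cQ n := hU hLev0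
  obtain ⟨er, her, hine⟩ := hB.b6 l hl h hh s hs
  -- space-time functions
  have iX := iX6 hI trivial hyp hF hT hs
  have iW : Integrable (fun z : ℝ × M => ⟪Hs h z.1 (Y z.1 z.2),
      wf6 m Gr HO h p s₀ C₀ z.1 (Y z.1 z.2)⟫_ℝ) ((volume.restrict (Ioc s 1)).prod m) :=
    int_inner2 hI.H hI.w
  have iH2 : Integrable (fun z : ℝ × M => ‖Hs h z.1 (Y z.1 z.2)‖ ^ 2)
      ((volume.restrict (Ioc s 1)).prod m) := (memLp_two_iff_integrable_sq_norm hI.H.1).1 hI.H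
  -- real functions
  set A0 : ℝ → ℝ := fun t => ∫ x, Real.exp (l x) * qf6 Gr Hs Y h t x ∂m with hA0
  set D0 : ℝ → ℝ := fun t => ∫ x, Real.exp (l x) * df6 m Gr HO Hs κ p s₀ C₀ Y h t x ∂m with hD0
  set Q0 : ℝ → ℝ := fun t => ∫ x, Real.exp (l x) * ‖Hs h t (Y t x)‖ ^ 2 ∂m with hQ0
  have fA := fub (wint hC hl hI.q) le_rfl hs.2.le le_rfl
  have fD := fub (wint hC hl hI.d) le_rfl hs.2.le le_rfl
  have fQ := fub (wint hC hl iH2) le_rfl hs.2.le le_rfl
  have fX := fub (wint hC hl iX) le_rfl hs.2.le le_rfl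
  have hIQ : ∀ᶠ n in (U : Filter ℕ), IntervalIntegrable (Qn m V u φ l h n) volume s 1 := by
    filter_upwards [hLev] with n hn
    exact hn.contQ.intervalIntegrable_of_Icc hs.2.le
  have hID : ∀ᶠ n in (U : Filter ℕ), IntervalIntegrable (Dn m V κ u φ l h n) volume s 1 := by
    filter_upwards [hLev] with n hn
    have e1 : Dn m V κ u φ l h n = fun t => (sob m).FR V κ (en n) (φ l n) (u n) h t
        + Qn m V u φ l h n t := by
      funext t
      rw [← Dn_sub_Qn]; ring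
    rw [e1]
    exact (hn.cF.add hn.contQ).intervalIntegrable_of_Icc hs.2.le
  have hQ00 : ∀ᶠ n in (U : Filter ℕ), ∀ t ∈ Icc s 1, 0 ≤ Qn m V u φ l h n t := by
    filter_upwards [hLev] with n hn t ht
    exact lev_Q0 hE hh (hn.wt t ht) (hn.th t ht)
  have hres := rv_main (U := (U : Filter ℕ)) hs.2
    (A := fun n t => (sob m).SS (en n) (φ l n) (u n) h t)
    (D := fun n t => Dn m V κ u φ l h n t) (Q := fun n t => Qn m V u φ l h n t)
    (A0 := A0) (D0 := D0) (Q0 := Q0) (e := er) (A1 := A1) (her.mono_left hU) ?_ hID hIQ hQ00 ?_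
    fA.1 fD.1 fQ.1 ?_ ?_ ?_ ?_ (h1.mono_left hU)
  · obtain ⟨Gs, g1, g2, g3, g4⟩ := hres
    have hfin : ∀ a b, s ≤ a → a ≤ b → b ≤ 1 → ∫ t in a..b, (D0 t - Q0 t)
        = ∫ t in a..b, ∫ x, Real.exp (l x) * bf6 m Gr HO Hs κ p s₀ C₀ Y h t x ∂m := by
      intro a b hsa hab hb
      have ha' : a ∈ Icc s 1 := ⟨hsa, hab.trans hb⟩
      have hb' : b ∈ Icc s 1 := ⟨hsa.trans hab, hb⟩
      rw [intervalIntegral.integral_sub (ii_sub fD.1 ha' hb') (ii_sub fQ.1 ha' hb')]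
      have e3 := fub_sub (F1 := fun z : ℝ × M => Real.exp (l z.2) *
          df6 m Gr HO Hs κ p s₀ C₀ Y h z.1 z.2)
        (F2 := fun z : ℝ × M => Real.exp (l z.2) * ‖Hs h z.1 (Y z.1 z.2)‖ ^ 2)
        (F := fun z : ℝ × M => Real.exp (l z.2) * bf6 m Gr HO Hs κ p s₀ C₀ Y h z.1 z.2)
        (c1 := 1) (c2 := 1) (wint hC hl hI.d) (wint hC hl iH2)
        (fun z => by unfold bf6; ring) hsa hab hb
      rw [one_mul, one_mul] at e3
      exact e3.symm
    refine ⟨Gs, g1, g2, fun a ha b hb hab => ?_, fun a ha => ?_⟩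
    · have h5 := g3 a ha b hb hab
      rw [hfin a b (g1 ha).1.le hab.le (g1 hb).2.le] at h5
      exact h5
    · have h5 := g4 a ha
      rw [hfin a 1 (g1 ha).1.le (g1 ha).2.le le_rfl] at h5
      exact h5
  · -- A_n integrable
    filter_upwards [hLev] with n hn
    exact hn.cS.intervalIntegrable_of_Icc hs.2.le
  · -- the level inequality
    filter_upwards [hU hine] with n hn a b hsa hab hb
    have h5 := hn.2.2 a b hsa hab hb
    have e4 : ∫ t in a..b, (Dn m V κ u φ l h n t - Qn m V u φ l h n t)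
        = ∫ t in a..b, (sob m).FR V κ (en n) (φ l n) (u n) h t := by
      congr 1; funext t; exact Dn_sub_Qn n t
    rw [e4]
    exact h5
  · -- limit of A_n
    intro a b hsa hab hb
    have key := conv_ab hH hl hh hs (Φ := fun _ x => Gr h x)
      (hT.gm.comp_measurable measurable_snd) (gh_memLp hT) hsa hab hb
    refine key.congr' ?_
    filter_upwards [hLev] with n hn
    refine intervalIntegral.integral_congr fun t ht => ?_
    rw [uIcc_of_le hab] at ht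
    exact (lev_A hyp hE hh (hn.th t ⟨hsa.trans ht.1, ht.2.trans hb⟩)).symm
  · -- limit of D_n
    intro a b hsa hab hb
    have ha' : a ∈ Icc s 1 := ⟨hsa, hab.trans hb⟩
    have hb' : b ∈ Icc s 1 := ⟨hsa.trans hab, hb⟩
    have e5 : ∫ t in a..b, D0 t = 2 * (∫ t in a..b, ∫ x, Real.exp (l x) *
        ⟪Hs h t (Y t x), wf6 m Gr HO h p s₀ C₀ t (Y t x)⟫_ℝ ∂m)
        - κ * ∫ t in a..b, ∫ x, Real.exp (l x) *
          Xs (Gr h (Y t x)) (vf6 m Gr p s₀ C₀ t (Y t x)) ∂m := by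
      exact fub_sub (F1 := fun z : ℝ × M => Real.exp (l z.2) * ⟪Hs h z.1 (Y z.1 z.2),
          wf6 m Gr HO h p s₀ C₀ z.1 (Y z.1 z.2)⟫_ℝ)
        (F2 := fun z : ℝ × M => Real.exp (l z.2) *
          Xs (Gr h (Y z.1 z.2)) (vf6 m Gr p s₀ C₀ z.1 (Y z.1 z.2)))
        (F := fun z : ℝ × M => Real.exp (l z.2) * df6 m Gr HO Hs κ p s₀ C₀ Y h z.1 z.2)
        (c1 := 2) (c2 := κ) (wint hC hl iW) (wint hC hl iX)
        (fun z => by unfold df6 Xs; ring) hsa hab hb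
    rw [e5]
    have key := conv_w hyp hE hB hU hF hT hH hl hh hs hsa hab hb
    refine tendsto_near ((key.const_mul 2).sub_const _) fun η hη => ?_
    have hba : 0 ≤ b - a := by linarith
    have hba1 : b - a ≤ 1 := by linarith [hs.1]
    filter_upwards [hLev, hIQ, hID, hQ00, Dn_near hyp hE hA hB hU hF hSt hT hl hh hs hB0 hL1 hz1
      hLev (η := η / (2 * (cQ + 1))) (ζ := η / 2) (by positivity) (by positivity)]
      with n a1 a2 a3 a4 a5
    have cw := (a1.contG (F := fun t => wf6 m Gr HO h p s₀ C₀ t)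
      (fun t ht => wf6_mem hyp hT ⟨hs.1.le.trans ht.1, ht.2⟩)
      (fun t ht => wf6_cont hyp hE hT hs.1 ht)).1.intervalIntegrable_of_Icc hs.2.le (μ := volume)
    have e6 : (∫ t in a..b, Dn m V κ u φ l h n t) - (2 * (∫ t in a..b, I (rn u φ l n t *
        ipE m (V (tn u φ l n t) h) (wf6 m Gr HO h p s₀ C₀ t))) - κ * ∫ t in a..b, ∫ x,
          Real.exp (l x) * Xs (Gr h (Y t x)) (vf6 m Gr p s₀ C₀ t (Y t x)) ∂m)
        = ∫ t in a..b, (Dn m V κ u φ l h n t - (2 * I (rn u φ l n t *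
          ipE m (V (tn u φ l n t) h) (wf6 m Gr HO h p s₀ C₀ t)) - κ * ∫ x, Real.exp (l x) *
          Xs (Gr h (Y t x)) (vf6 m Gr p s₀ C₀ t (Y t x)) ∂m)) := by
      rw [intervalIntegral.integral_sub (ii_sub a3 ha' hb') (((ii_sub cw ha' hb').const_mul 2).sub
          ((ii_sub fX.1 ha' hb').const_mul κ)),
        intervalIntegral.integral_sub ((ii_sub cw ha' hb').const_mul 2)
          ((ii_sub fX.1 ha' hb').const_mul κ),
        intervalIntegral.integral_const_mul, intervalIntegral.integral_const_mul]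
    rw [e6]
    have iF : IntervalIntegrable (fun t => Dn m V κ u φ l h n t - (2 * I (rn u φ l n t *
          ipE m (V (tn u φ l n t) h) (wf6 m Gr HO h p s₀ C₀ t)) - κ * ∫ x, Real.exp (l x) *
          Xs (Gr h (Y t x)) (vf6 m Gr p s₀ C₀ t (Y t x)) ∂m)) volume s 1 :=
      a3.sub ((cw.const_mul 2).sub (fX.1.const_mul κ))
    refine (int_bd iF a2 a4 a1.hQ a5 (by positivity) hsa hab hb).trans ?_
    have h8 : η / (2 * (cQ + 1)) * cQ ≤ η / 2 := by
      rw [div_mul_eq_mul_div, div_le_iff₀ (by positivity)]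
      nlinarith
    have h9 : η / 2 * (b - a) ≤ η / 2 := by nlinarith
    linarith
  · -- lower semicontinuity
    intro a b hsa hab hb
    exact lim_Q hyp hA hU hF hSt hH hT hl hh hs hLev hsa hab hb
  · -- equi-absolute continuity
    intro η hη
    obtain ⟨c, hc0, hc⟩ := Dn_bd (φ := φ) (u := u) (l := l) (κ := κ) (s := s) (cQ := cQ) hyp hE hT hh
      hB0 hL1 (η := η / (2 * (cQ + 1))) (by positivity)
    refine ⟨η / (2 * (c + 1)), by positivity, ?_⟩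
    filter_upwards [hLev, hIQ, hID, hQ00] with n a1 a2 a3 a4 a b hsa hab hb hba
    refine (int_bd a3 a2 a4 a1.hQ (hc n a1) (by positivity) hsa hab hb).trans ?_
    have h8 : η / (2 * (cQ + 1)) * cQ ≤ η / 2 := by
      rw [div_mul_eq_mul_div, div_le_iff₀ (by positivity)]
      nlinarith
    have h9 : c * (b - a) ≤ η / 2 := by
      calc c * (b - a) ≤ c * (η / (2 * (c + 1))) := mul_le_mul_of_nonneg_left hba hc0
        _ ≤ η / 2 := by
          rw [mul_div_assoc', div_le_iff₀ (by positivity)]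
          nlinarith
    linarith

end lev

end Vale.Agent.P233.H249
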